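import Mathlib

/-!
Row 168: characteristic functions and laws on product spaces.
-/

set_option autoImplicit false
open MeasureTheory ProbabilityTheory
open scoped NNReal ENNReal

namespace Crest.Agent.R168

/-- The characteristic functional of a law on `ι → ℝ` at a finitely supported frequency. -/
noncomputable def cf {ι : Type*} (ρ : Measure (ι → ℝ)) (I : Finset ι) (θ : ι → ℝ) : ℂ :=
  ∫ x, Complex.exp (((∑ i ∈ I, θ i * x i : ℝ) : ℂ) * Complex.I) ∂ρ

theorem ext_of_cf {ι : Type*} {ρ₁ ρ₂ : Measure (ι → ℝ)} [IsProbabilityMeasure ρ₁]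
    [IsProbabilityMeasure ρ₂] (h : ∀ (I : Finset ι) (θ : ι → ℝ), cf ρ₁ I θ = cf ρ₂ I θ) :
    ρ₁ = ρ₂ := by
  have key : ∀ I : Finset ι, ρ₁.map I.restrict = ρ₂.map I.restrict := by
    intro I
    have m : Measurable (I.restrict : (ι → ℝ) → (I → ℝ)) := Finset.measurable_restrict I
    have : IsProbabilityMeasure (ρ₁.map I.restrict) :=
      Measure.isProbabilityMeasure_map m.aemeasurable
    have : IsProbabilityMeasure (ρ₂.map I.restrict) :=
      Measure.isProbabilityMeasure_map m.aemeasurable
    apply Measure.ext_of_charFunDual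
    ext L
    classical
    simp only [charFunDual_apply]
    have hm : ∀ ρ : Measure (ι → ℝ), ∫ v, Complex.exp ((L v : ℂ) * Complex.I) ∂(ρ.map I.restrict)
        = ∫ x, Complex.exp ((L (I.restrict x) : ℂ) * Complex.I) ∂ρ := by
      intro ρ
      rw [integral_map m.aemeasurable]
      apply Continuous.aestronglyMeasurable
      fun_prop
    rw [hm, hm]
    let θ : ι → ℝ := fun i => if hi : i ∈ I then L (Pi.single ⟨i, hi⟩ 1) else 0
    have hL : ∀ x : ι → ℝ, L (I.restrict x) = ∑ i ∈ I, θ i * x i := by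
      intro x
      have h1 : (I.restrict x) = ∑ i : I, (x i) • (Pi.single i (1:ℝ) : I → ℝ) := by
        ext j
        simp [Finset.sum_apply, Pi.single_apply, Finset.restrict]
      rw [h1, map_sum, ← Finset.sum_coe_sort I (fun i => θ i * x i)]
      apply Finset.sum_congr rfl
      intro i _
      simp [θ, mul_comm]
    simp_rw [hL]
    exact h I θ
  refine IsProjectiveLimit.unique (P := fun I => ρ₂.map I.restrict) (fun I => key I) (fun I => rfl)

theorem cf_map {Ω ι : Type*} [MeasurableSpace Ω] (P : Measure Ω) (X : Ω → ι → ℝ)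
    (hX : Measurable X) (I : Finset ι) (θ : ι → ℝ) :
    cf (P.map X) I θ = ∫ ω, Complex.exp (((∑ i ∈ I, θ i * X ω i : ℝ) : ℂ) * Complex.I) ∂P := by
  unfold cf
  rw [integral_map hX.aemeasurable]
  apply Measurable.aestronglyMeasurable
  fun_prop

/-- iid centered Gaussian noise of variance `v`. -/
noncomputable def gnoise (ι : Type*) (v : ℝ≥0) : Measure (ι → ℝ) :=
  Measure.infinitePi (fun _ : ι => gaussianReal 0 v)

instance {ι : Type*} (v : ℝ≥0) : IsProbabilityMeasure (gnoise ι v) := by
  unfold gnoise; infer_instance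

theorem cf_gnoise (ι : Type*) (v : ℝ≥0) (I : Finset ι) (θ : ι → ℝ) :
    cf (gnoise ι v) I θ = Complex.exp ((-(v / 2 * ∑ i ∈ I, θ i ^ 2) : ℝ)) := by
  unfold cf gnoise
  have h1 : ∀ x : ι → ℝ, Complex.exp (((∑ i ∈ I, θ i * x i : ℝ) : ℂ) * Complex.I) =
      (fun y : I → ℝ => ∏ i : I, Complex.exp (θ i * y i * Complex.I)) (I.restrict x) := by
    intro x
    simp only
    rw [← Complex.exp_sum]
    congr 1
    rw [← Finset.sum_mul]
    congr 1
    rw [← Finset.sum_coe_sort I]
    simp
  rw [integral_congr_ae (Filter.Eventually.of_forall h1)]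
  rw [integral_restrict_infinitePi (μ := fun _ : ι => gaussianReal 0 v) (s := I)
    (f := fun y : I → ℝ => ∏ i : I, Complex.exp (θ i * y i * Complex.I))]
  · rw [integral_fintype_prod_eq_prod (𝕜 := ℂ) (fun (i : I) (y : ℝ) => Complex.exp (θ i * y * Complex.I))]
    have h2 : ∀ i : I, ∫ (x : ℝ), Complex.exp (θ i * x * Complex.I) ∂(gaussianReal 0 v)
        = Complex.exp ((-(v / 2 * θ i ^ 2) : ℝ)) := by
      intro i
      have := charFun_gaussianReal (μ := 0) (v := v) (θ i)
      rw [charFun_apply_real] at this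
      rw [this]
      congr 1
      push_cast
      ring
    simp_rw [h2]
    rw [← Complex.exp_sum]
    congr 1
    rw [← Complex.ofReal_sum, Finset.sum_neg_distrib, ← Finset.mul_sum, ← Finset.sum_coe_sort I]
  · apply Measurable.aestronglyMeasurable
    fun_prop

end Crest.Agent.R168
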