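import Mathlib

/-!
Row 168: the Cameron-Martin formula for finitely many independent Gaussians.
-/

set_option autoImplicit false
open MeasureTheory ProbabilityTheory Finset
open scoped NNReal ENNReal

namespace Crest.Agent.R168

theorem gaussianReal_eq_withDensity (a : ℝ) (h : ℝ≥0) (hh : h ≠ 0) :
    gaussianReal a h = (gaussianReal 0 h).withDensity
      (fun x => ENNReal.ofReal (Real.exp (a * x / h - a ^ 2 / (2 * h)))) := by
  rw [gaussianReal_of_var_ne_zero _ hh, gaussianReal_of_var_ne_zero _ hh,
    ← withDensity_mul _ (measurable_gaussianPDF 0 h) (by fun_prop)]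
  congr 1
  ext x
  have hpos : (0 : ℝ) < h := by exact_mod_cast pos_iff_ne_zero.2 hh
  simp only [Pi.mul_apply, gaussianPDF, gaussianPDFReal]
  rw [← ENNReal.ofReal_mul (by positivity)]
  congr 1
  rw [mul_assoc ((√(2 * Real.pi * h))⁻¹), ← Real.exp_add]
  congr 2
  field_simp
  ring

theorem pi_gaussian_eq_withDensity {ι : Type*} [Fintype ι] (a : ι → ℝ) (h : ℝ≥0) (hh : h ≠ 0) :
    Measure.pi (fun i => gaussianReal (a i) h) =
      (Measure.pi (fun _ : ι => gaussianReal 0 h)).withDensity
        (fun x => ENNReal.ofReal (Real.exp (∑ i, (a i * x i / h - a i ^ 2 / (2 * h))))) := by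
  apply Measure.pi_eq
  intro s hs
  rw [withDensity_apply _ (MeasurableSet.univ_pi hs), ← lintegral_indicator (MeasurableSet.univ_pi hs)]
  have e1 : ∀ x : ι → ℝ, (Set.univ.pi s).indicator
      (fun x => ENNReal.ofReal (Real.exp (∑ i, (a i * x i / h - a i ^ 2 / (2 * h))))) x =
      ∏ i, (s i).indicator (fun y => ENNReal.ofReal (Real.exp (a i * y / h - a i ^ 2 / (2 * h)))) (x i) := by
    intro x
    by_cases hx : x ∈ Set.univ.pi s
    · rw [Set.indicator_of_mem hx, Real.exp_sum, ENNReal.ofReal_prod_of_nonneg]
      · apply Finset.prod_congr rfl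
        intro i _
        rw [Set.indicator_of_mem (hx i (Set.mem_univ i))]
      · intro i _; positivity
    · rw [Set.indicator_of_notMem hx]
      simp only [Set.mem_pi, Set.mem_univ, true_implies, not_forall] at hx
      obtain ⟨i, hi⟩ := hx
      symm
      apply Finset.prod_eq_zero (Finset.mem_univ i)
      rw [Set.indicator_of_notMem hi]
  simp_rw [e1]
  have hind : iIndepFun (fun (i : ι) (x : ι → ℝ) =>
      (s i).indicator (fun y => ENNReal.ofReal (Real.exp (a i * y / h - a i ^ 2 / (2 * h)))) (x i))
      (Measure.pi (fun _ : ι => gaussianReal 0 h)) := by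
    apply iIndepFun_pi (μ := fun _ : ι => gaussianReal 0 h)
      (X := fun i => (s i).indicator (fun y => ENNReal.ofReal (Real.exp (a i * y / h - a i ^ 2 / (2 * h)))))
    intro i
    exact (Measurable.indicator (by fun_prop) (hs i)).aemeasurable
  have hmi : ∀ i : ι, Measurable (fun y : ℝ => (s i).indicator
      (fun y => ENNReal.ofReal (Real.exp (a i * y / h - a i ^ 2 / (2 * h)))) y) := fun i =>
    Measurable.indicator (by fun_prop) (hs i)
  rw [lintegral_prod_eq_prod_lintegral_of_indepFun Finset.univ _ hind]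
  · apply Finset.prod_congr rfl
    intro i _
    have e2 : ∫⁻ ω : ι → ℝ, (s i).indicator
        (fun y => ENNReal.ofReal (Real.exp (a i * y / h - a i ^ 2 / (2 * h)))) (ω i)
        ∂(Measure.pi (fun _ : ι => gaussianReal 0 h)) =
        ∫⁻ y, (s i).indicator
        (fun y => ENNReal.ofReal (Real.exp (a i * y / h - a i ^ 2 / (2 * h)))) y ∂(gaussianReal 0 h) := by
      rw [← (measurePreserving_eval (fun _ : ι => gaussianReal 0 h) i).lintegral_comp (hmi i)]
    rw [e2, lintegral_indicator (hs i), gaussianReal_eq_withDensity (a i) h hh,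
      withDensity_apply _ (hs i)]
  · intro i
    exact (hmi i).comp (measurable_pi_apply i)

/-- Cameron-Martin formula. -/
theorem integral_gaussian_shift {ι : Type*} [Fintype ι] (a : ι → ℝ) (h : ℝ≥0) (hh : h ≠ 0)
    (G : (ι → ℝ) → ℝ) (hG : Measurable G) :
    ∫ y, G (fun i => y i + a i) ∂(Measure.pi fun _ : ι => gaussianReal 0 h) =
      ∫ y, Real.exp (∑ i, (a i * y i / h - a i ^ 2 / (2 * h))) * G y
        ∂(Measure.pi fun _ : ι => gaussianReal 0 h) := by
  have h1 : (Measure.pi fun _ : ι => gaussianReal 0 h).map (fun y i => y i + a i) =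
      Measure.pi (fun i => gaussianReal (a i) h) := by
    have := Measure.pi_map_pi (μ := fun _ : ι => gaussianReal 0 h) (f := fun i (x : ℝ) => x + a i)
      (fun i => by fun_prop)
    rw [this]
    congr 1
    ext1 i
    rw [gaussianReal_map_add_const, zero_add]
  have hm : Measurable (fun (y : ι → ℝ) i => y i + a i) := by fun_prop
  rw [← integral_map (φ := fun (y : ι → ℝ) i => y i + a i) hm.aemeasurable
    hG.aestronglyMeasurable, h1, pi_gaussian_eq_withDensity a h hh,
    integral_withDensity_eq_integral_toReal_smul (by fun_prop) (by simp)]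
  apply integral_congr_ae
  filter_upwards with x
  rw [ENNReal.toReal_ofReal (by positivity), smul_eq_mul]

end Crest.Agent.R168
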