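import Crest.Agent.R168.Defs
import Crest.Agent.R168.CM
import Crest.Agent.R168.CF

/-!
Row 168: Bayes' formula for finitely many sites, in discrete time.
-/

set_option autoImplicit false
open MeasureTheory ProbabilityTheory Finset
open scoped NNReal ENNReal

namespace Crest.Agent.R168

variable {V : Type*}

/-- Mass of the cylinder "occupied exactly at `S` within `F`". -/
noncomputable def cylW (ν : Measure (V → Bool)) (F S : Finset V) : ℝ :=
  (ν {ω | ∀ i ∈ F, (ω i = true ↔ i ∈ S)}).toReal

/-- The occupied sites within `F`. -/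
def occ (F : Finset V) (ω : V → Bool) : Finset V := F.filter (fun v => ω v = true)

theorem mem_occ {F : Finset V} {ω : V → Bool} {v : V} : v ∈ occ F ω ↔ v ∈ F ∧ ω v = true := by
  simp [occ]

theorem occ_subset (F : Finset V) (ω : V → Bool) : occ F ω ⊆ F := filter_subset _ _

theorem occ_eq_iff {F S : Finset V} (hS : S ⊆ F) (ω : V → Bool) :
    occ F ω = S ↔ ∀ i ∈ F, (ω i = true ↔ i ∈ S) := by
  constructor
  · rintro rfl i hi
    simp [mem_occ, hi]
  · intro h
    ext i
    rw [mem_occ]
    constructor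
    · rintro ⟨hi, hω⟩
      exact (h i hi).1 hω
    · intro hi
      exact ⟨hS hi, (h i (hS hi)).2 hi⟩

theorem measurableSet_cyl (F S : Finset V) :
    MeasurableSet {ω : V → Bool | ∀ i ∈ F, (ω i = true ↔ i ∈ S)} := by
  have : {ω : V → Bool | ∀ i ∈ F, (ω i = true ↔ i ∈ S)} =
      ⋂ i ∈ F, {ω : V → Bool | (ω i = true ↔ i ∈ S)} := by
    ext; simp
  rw [this]
  apply Finset.measurableSet_biInter
  intro i _
  exact measurableSet_preimage (measurable_pi_apply i) (t := {b : Bool | (b = true ↔ i ∈ S)})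
    (by exact MeasurableSet.of_discrete)

theorem occ_sum (F : Finset V) (Ψ : Finset V → ℝ) (ω : V → Bool) :
    Ψ (occ F ω) = ∑ S ∈ F.powerset,
      ({ω | ∀ i ∈ F, (ω i = true ↔ i ∈ S)} : Set (V → Bool)).indicator (fun _ => Ψ S) ω := by
  classical
  rw [Finset.sum_eq_single (occ F ω)]
  · rw [Set.indicator_of_mem]
    exact (occ_eq_iff (occ_subset F ω) ω).1 rfl
  · intro S hS hne
    rw [Set.indicator_of_notMem]
    intro h
    exact hne ((occ_eq_iff (mem_powerset.1 hS) ω).2 h).symm
  · intro h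
    exact absurd (mem_powerset.2 (occ_subset F ω)) h

theorem measurable_comp_occ (F : Finset V) (Ψ : Finset V → ℝ) :
    Measurable (fun ω : V → Bool => Ψ (occ F ω)) := by
  simp_rw [occ_sum F Ψ]
  exact Finset.measurable_sum _ fun S _ => Measurable.indicator measurable_const
    (measurableSet_cyl F S)

theorem integral_occ (ν : Measure (V → Bool)) [IsProbabilityMeasure ν] (F : Finset V)
    (Ψ : Finset V → ℝ) :
    ∫ ω, Ψ (occ F ω) ∂ν = ∑ S ∈ F.powerset, cylW ν F S * Ψ S := by
  simp_rw [occ_sum F Ψ]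
  rw [integral_finsetSum]
  · apply Finset.sum_congr rfl
    intro S _
    rw [integral_indicator_const _ (measurableSet_cyl F S), smul_eq_mul]
    rfl
  · intro S _
    exact (integrable_const _).indicator (measurableSet_cyl F S)

theorem cylW_nonneg (ν : Measure (V → Bool)) (F S : Finset V) : 0 ≤ cylW ν F S :=
  ENNReal.toReal_nonneg

theorem sum_cylW (ν : Measure (V → Bool)) [IsProbabilityMeasure ν] (F : Finset V) :
    ∑ S ∈ F.powerset, cylW ν F S = 1 := by
  have := integral_occ ν F (fun _ => 1)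
  simp at this
  exact this.symm

theorem part_pos {q : Finset V → ℝ} {F : Finset V} (hq : ∀ S ⊆ F, 0 ≤ q S)
    (hpos : 0 < ∑ S ∈ F.powerset, q S) (y : V → ℝ) : 0 < part q F y := by
  unfold part
  obtain ⟨S, hS, hS'⟩ : ∃ S ∈ F.powerset, 0 < q S := by
    by_contra hcon
    push Not at hcon
    exact absurd (Finset.sum_nonpos hcon) (not_le.2 hpos)
  apply Finset.sum_pos'
  · intro T hT
    exact mul_nonneg (hq T (mem_powerset.1 hT)) (Real.exp_pos _).le
  · exact ⟨S, hS, mul_pos hS' (Real.exp_pos _)⟩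

theorem partAt_nonneg {q : Finset V → ℝ} {F : Finset V} (hq : ∀ S ⊆ F, 0 ≤ q S) (v : V)
    (y : V → ℝ) : 0 ≤ partAt q F v y := by
  unfold partAt
  apply Finset.sum_nonneg
  intro S hS
  split_ifs
  · exact mul_nonneg (hq S (mem_powerset.1 hS)) (Real.exp_pos _).le
  · exact le_rfl

theorem partAt_le_part {q : Finset V → ℝ} {F : Finset V} (hq : ∀ S ⊆ F, 0 ≤ q S) (v : V)
    (y : V → ℝ) : partAt q F v y ≤ part q F y := by
  unfold partAt part
  apply Finset.sum_le_sum
  intro S hS
  split_ifs
  · exact le_rfl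
  · exact mul_nonneg (hq S (mem_powerset.1 hS)) (Real.exp_pos _).le

theorem drift_nonneg {q : Finset V → ℝ} {F : Finset V} (hq : ∀ S ⊆ F, 0 ≤ q S)
    (v : V) (y : V → ℝ) : 0 ≤ drift q F v y := by
  unfold drift
  apply div_nonneg (partAt_nonneg hq v y)
  unfold part
  apply Finset.sum_nonneg
  intro S hS
  exact mul_nonneg (hq S (mem_powerset.1 hS)) (Real.exp_pos _).le

theorem drift_le_one {q : Finset V → ℝ} {F : Finset V} (hq : ∀ S ⊆ F, 0 ≤ q S)
    (v : V) (y : V → ℝ) : drift q F v y ≤ 1 := by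
  unfold drift
  apply div_le_one_of_le₀ (partAt_le_part hq v y)
  unfold part
  apply Finset.sum_nonneg
  intro S hS
  exact mul_nonneg (hq S (mem_powerset.1 hS)) (Real.exp_pos _).le

theorem part_congr (q : Finset V → ℝ) (F : Finset V) {y y' : V → ℝ} (h : ∀ i ∈ F, y i = y' i) :
    part q F y = part q F y' := by
  unfold part
  apply Finset.sum_congr rfl
  intro S hS
  congr 2
  apply Finset.sum_congr rfl
  intro i hi
  exact h i (mem_powerset.1 hS hi)

theorem partAt_congr (q : Finset V → ℝ) (F : Finset V) (v : V) {y y' : V → ℝ}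
    (h : ∀ i ∈ F, y i = y' i) : partAt q F v y = partAt q F v y' := by
  unfold partAt
  apply Finset.sum_congr rfl
  intro S hS
  congr 3
  apply Finset.sum_congr rfl
  intro i hi
  exact h i (mem_powerset.1 hS hi)

theorem drift_congr (q : Finset V → ℝ) (F : Finset V) (v : V) {y y' : V → ℝ}
    (h : ∀ i ∈ F, y i = y' i) : drift q F v y = drift q F v y' := by
  unfold drift
  rw [part_congr q F h, partAt_congr q F v h]

theorem measurable_part (q : Finset V → ℝ) (F : Finset V) : Measurable (part q F) := by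
  unfold part
  apply Finset.measurable_sum
  intro S _
  apply Measurable.const_mul
  apply Real.measurable_exp.comp
  exact Finset.measurable_sum _ fun i _ => measurable_pi_apply i

theorem measurable_partAt (q : Finset V → ℝ) (F : Finset V) (v : V) :
    Measurable (partAt q F v) := by
  unfold partAt
  apply Finset.measurable_sum
  intro S _
  split_ifs
  · apply Measurable.const_mul
    apply Real.measurable_exp.comp
    exact Finset.measurable_sum _ fun i _ => measurable_pi_apply i
  · exact measurable_const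

theorem measurable_drift (q : Finset V → ℝ) (F : Finset V) (v : V) :
    Measurable (drift q F v) :=
  (measurable_partAt q F v).div (measurable_part q F)

/-- Increment of the observed process: noise plus signal. -/
noncomputable def dY (h : ℝ) (p : (V → Bool) × (V × ℕ → ℝ)) (i : V × ℕ) : ℝ :=
  p.2 i + (if p.1 i.1 then h else 0)

theorem measurable_dY (h : ℝ) (i : V × ℕ) :
    Measurable (fun p : (V → Bool) × (V × ℕ → ℝ) => dY h p i) := by
  unfold dY
  apply Measurable.add
  · exact (measurable_pi_apply i).comp measurable_snd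
  · apply Measurable.ite
    · exact measurableSet_preimage ((measurable_pi_apply i.1).comp measurable_fst)
        (t := {b : Bool | b = true}) (by exact MeasurableSet.of_discrete)
    · exact measurable_const
    · exact measurable_const

open Classical in
/-- Extension by zero. -/
noncomputable def ext0 {ι : Type*} (I : Finset ι) (y : I → ℝ) (i : ι) : ℝ :=
  if hi : i ∈ I then y ⟨i, hi⟩ else 0

theorem ext0_mem {ι : Type*} (I : Finset ι) (y : I → ℝ) {i : ι} (hi : i ∈ I) :
    ext0 I y i = y ⟨i, hi⟩ := by simp [ext0, hi]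

theorem measurable_ext0 {ι : Type*} (I : Finset ι) (i : ι) :
    Measurable (fun y : I → ℝ => ext0 I y i) := by
  unfold ext0
  split_ifs with hi
  · exact measurable_pi_apply _
  · exact measurable_const

theorem integrable_gaussian_tilt {ι : Type*} [Fintype ι] (a : ι → ℝ) (h : ℝ≥0) (hh : h ≠ 0)
    (G : (ι → ℝ) → ℝ) (hG : Measurable G) (B : ℝ) (hB : ∀ y, |G y| ≤ B) :
    Integrable (fun y => Real.exp (∑ i, (a i * y i / h - a i ^ 2 / (2 * h))) * G y)
      (Measure.pi fun _ : ι => gaussianReal 0 h) := by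
  have h1 : Integrable G (Measure.pi (fun i => gaussianReal (a i) h)) :=
    Integrable.of_bound hG.aestronglyMeasurable B (Filter.Eventually.of_forall hB)
  rw [pi_gaussian_eq_withDensity a h hh,
    integrable_withDensity_iff_integrable_smul' (by fun_prop) (by simp)] at h1
  refine h1.congr (Filter.Eventually.of_forall fun y => ?_)
  simp only [smul_eq_mul]
  rw [ENNReal.toReal_ofReal (by positivity)]

open Classical in
theorem expo_eq (F : Finset V) (N : ℕ) (I : Finset (V × ℕ)) (hI : I = F ×ˢ range N)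
    (h : ℝ≥0) (hh : h ≠ 0) (S : Finset V) (hS : S ⊆ F) (y : I → ℝ) :
    ∑ i : I, ((if (i : V × ℕ).1 ∈ S then (h : ℝ) else 0) * y i / h -
      (if (i : V × ℕ).1 ∈ S then (h : ℝ) else 0) ^ 2 / (2 * h)) =
    ∑ u ∈ S, ((∑ j ∈ range N, ext0 I y (u, j)) - N * h / 2) := by
  subst hI
  have hpos : (h : ℝ) ≠ 0 := by exact_mod_cast hh
  have e1 : ∀ i : (F ×ˢ range N : Finset (V × ℕ)),
      ((if (i : V × ℕ).1 ∈ S then (h : ℝ) else 0) * y i / h -
      (if (i : V × ℕ).1 ∈ S then (h : ℝ) else 0) ^ 2 / (2 * h)) =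
      (fun i : V × ℕ => if i.1 ∈ S then ext0 (F ×ˢ range N) y i - h / 2 else 0) i := by
    intro i
    simp only
    rw [ext0_mem _ _ i.2]
    split_ifs
    · field_simp
    · simp
  simp_rw [e1]
  rw [Finset.sum_coe_sort (F ×ˢ range N)
    (fun i : V × ℕ => if i.1 ∈ S then ext0 (F ×ˢ range N) y i - h / 2 else 0), sum_product]
  simp only
  have e2 : ∀ u ∈ F, ∑ j ∈ range N, (if u ∈ S then ext0 (F ×ˢ range N) y (u, j) - (h : ℝ) / 2 else 0)
      = if u ∈ S then ((∑ j ∈ range N, ext0 (F ×ˢ range N) y (u, j)) - N * h / 2) else 0 := by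
    intro u _
    split_ifs
    · rw [sum_sub_distrib]
      simp
      ring
    · simp
  rw [sum_congr rfl e2, ← sum_filter]
  apply sum_congr _ (fun _ _ => rfl)
  ext u
  simp only [mem_filter]
  exact ⟨fun h => h.2, fun h => ⟨hS h, h⟩⟩

/-- The change of measure for the observed increments on finitely many sites. -/
theorem bayes_aux (ν : Measure (V → Bool)) [IsProbabilityMeasure ν] (h : ℝ≥0) (hh : h ≠ 0)
    (F : Finset V) (N : ℕ) (I : Finset (V × ℕ)) (hI : I = F ×ˢ range N) (c : Finset V → ℝ)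
    (G : (I → ℝ) → ℝ) (hG : Measurable G) (B : ℝ)
    (hB : ∀ y, |G y| ≤ B) :
    ∫ p, c (occ F p.1) * G (I.restrict (dY h p)) ∂(ν.prod (gnoise (V × ℕ) h)) =
      ∫ y, G y * ∑ S ∈ F.powerset, cylW ν F S * c S *
        Real.exp (∑ u ∈ S, ((∑ j ∈ range N, ext0 I y (u, j)) - N * h / 2))
        ∂(Measure.pi fun _ => gaussianReal 0 h) := by
  classical
  have hB0 : 0 ≤ B := (abs_nonneg _).trans (hB 0)
  -- boundedness of c
  obtain ⟨Bc, hBc⟩ : ∃ Bc, ∀ ω, |c (occ F ω)| ≤ Bc := by
    refine ⟨∑ S ∈ F.powerset, |c S|, fun ω => ?_⟩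
    exact Finset.single_le_sum (f := fun S => |c S|) (fun S _ => abs_nonneg _)
      (mem_powerset.2 (occ_subset F ω))
  have hmeas : Measurable (fun p : (V → Bool) × (V × ℕ → ℝ) =>
      c (occ F p.1) * G (I.restrict (dY h p))) := by
    apply Measurable.mul
    · exact (measurable_comp_occ F c).comp measurable_fst
    · apply hG.comp
      rw [measurable_pi_iff]
      intro i
      exact measurable_dY h _
  have hint : Integrable (fun p : (V → Bool) × (V × ℕ → ℝ) =>
      c (occ F p.1) * G (I.restrict (dY h p))) (ν.prod (gnoise (V × ℕ) h)) := by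
    refine Integrable.of_bound hmeas.aestronglyMeasurable (Bc * B)
      (Filter.Eventually.of_forall fun p => ?_)
    rw [Real.norm_eq_abs, abs_mul]
    exact mul_le_mul (hBc _) (hB _) (abs_nonneg _) ((abs_nonneg _).trans (hBc p.1))
  rw [integral_prod _ hint]
  -- inner integral
  let Ψ : Finset V → ℝ := fun S => c S * ∫ y, Real.exp (∑ u ∈ S,
    ((∑ j ∈ range N, ext0 I y (u, j)) - N * h / 2)) * G y ∂(Measure.pi fun _ : I => gaussianReal 0 h)
  have inner : ∀ ω : V → Bool, ∫ x, c (occ F ω) * G (I.restrict (dY h (ω, x))) ∂(gnoise (V × ℕ) h) =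
      Ψ (occ F ω) := by
    intro ω
    simp only [Ψ]
    rw [integral_const_mul]
    congr 1
    have e1 : ∀ x : V × ℕ → ℝ, G (I.restrict (dY h (ω, x))) =
        (fun y : I → ℝ => G (fun i => y i + (if (i : V × ℕ).1 ∈ occ F ω then (h : ℝ) else 0)))
          (I.restrict x) := by
      intro x
      simp only
      congr 1
      ext i
      simp only [Finset.restrict, dY]
      congr 1
      have hi : (i : V × ℕ).1 ∈ F := by
        have h2 : (i : V × ℕ) ∈ F ×ˢ range N := by rw [← hI]; exact i.2
        exact (mem_product.1 h2).1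
      simp [mem_occ, hi]
    have hmG : Measurable (fun y : I → ℝ =>
        G (fun i => y i + (if (i : V × ℕ).1 ∈ occ F ω then (h : ℝ) else 0))) :=
      hG.comp (by fun_prop)
    rw [integral_congr_ae (Filter.Eventually.of_forall e1)]
    unfold gnoise
    rw [integral_restrict_infinitePi (μ := fun _ : V × ℕ => gaussianReal 0 h) (s := I)
      (f := fun y : I → ℝ => G (fun i => y i + (if (i : V × ℕ).1 ∈ occ F ω then (h : ℝ) else 0)))
      hmG.aestronglyMeasurable]
    rw [integral_gaussian_shift (fun i : I => if (i : V × ℕ).1 ∈ occ F ω then (h : ℝ) else 0)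
      h hh G hG]
    apply integral_congr_ae
    filter_upwards with y
    rw [expo_eq F N I hI h hh (occ F ω) (occ_subset F ω) y]
  rw [integral_congr_ae (Filter.Eventually.of_forall inner)]
  rw [integral_occ ν F Ψ]
  simp only [Ψ]
  -- swap
  have hintS : ∀ S ∈ F.powerset, Integrable (fun y : I → ℝ =>
      Real.exp (∑ u ∈ S, ((∑ j ∈ range N, ext0 I y (u, j)) - N * h / 2)) * G y)
      (Measure.pi fun _ : I => gaussianReal 0 h) := by
    intro S hS
    have := integrable_gaussian_tilt (fun i : I => if (i : V × ℕ).1 ∈ S then (h : ℝ) else 0)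
      h hh G hG B hB
    refine this.congr (Filter.Eventually.of_forall fun y => ?_)
    simp only
    rw [expo_eq F N I hI h hh S (mem_powerset.1 hS) y]
  have e3 : ∀ y : I → ℝ, G y * ∑ S ∈ F.powerset, cylW ν F S * c S *
        Real.exp (∑ u ∈ S, ((∑ j ∈ range N, ext0 I y (u, j)) - N * h / 2)) =
      ∑ S ∈ F.powerset, (cylW ν F S * c S) *
        (Real.exp (∑ u ∈ S, ((∑ j ∈ range N, ext0 I y (u, j)) - N * h / 2)) * G y) := by
    intro y
    rw [mul_sum]
    apply sum_congr rfl
    intro S _
    ring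
  simp_rw [e3]
  rw [integral_finsetSum]
  · apply sum_congr rfl
    intro S _
    rw [integral_const_mul]
    ring
  · intro S hS
    exact (hintS S hS).const_mul _

/-- The observed process at time `N * h`, recentred. -/
noncomputable def obs (h : ℝ) (p : (V → Bool) × (V × ℕ → ℝ)) (N : ℕ) (u : V) : ℝ :=
  (∑ j ∈ range N, dY h p (u, j)) - N * h / 2

/-- Bayes' formula on finitely many sites. -/
theorem bayes_finite (ν : Measure (V → Bool)) [IsProbabilityMeasure ν] (h : ℝ≥0) (hh : h ≠ 0)
    (F : Finset V) (N : ℕ) (I : Finset (V × ℕ)) (hI : I = F ×ˢ range N) (v : V) (hv : v ∈ F)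
    (G : (I → ℝ) → ℝ) (hG : Measurable G) (B : ℝ)
    (hB : ∀ y, |G y| ≤ B) :
    ∫ p, drift (cylW ν F) F v (obs h p N) * G (I.restrict (dY h p))
        ∂(ν.prod (gnoise (V × ℕ) h)) =
      ∫ p, (if p.1 v then (1 : ℝ) else 0) * G (I.restrict (dY h p))
        ∂(ν.prod (gnoise (V × ℕ) h)) := by
  classical
  have hq : ∀ S ⊆ F, 0 ≤ cylW ν F S := fun S _ => cylW_nonneg ν F S
  have hpos : 0 < ∑ S ∈ F.powerset, cylW ν F S := by rw [sum_cylW]; exact one_pos
  have hB0 : 0 ≤ B := (abs_nonneg _).trans (hB 0)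
  let yy : (I → ℝ) → V → ℝ := fun y u => (∑ j ∈ range N, ext0 I y (u, j)) - N * h / 2
  have hyy : ∀ p : (V → Bool) × (V × ℕ → ℝ), ∀ u ∈ F, obs h p N u = yy (I.restrict (dY h p)) u := by
    intro p u hu
    simp only [obs, yy]
    congr 1
    apply sum_congr rfl
    intro j hj
    rw [ext0_mem _ _ (show (u, j) ∈ I from hI ▸ mem_product.2 ⟨hu, hj⟩)]
    rfl
  have myy : Measurable yy := by
    rw [measurable_pi_iff]
    intro u
    simp only [yy]
    exact (Finset.measurable_sum _ fun j _ => measurable_ext0 I (u, j)).sub_const _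
  let Dr : (I → ℝ) → ℝ := fun y => drift (cylW ν F) F v (yy y)
  have hDr : ∀ p : (V → Bool) × (V × ℕ → ℝ), drift (cylW ν F) F v (obs h p N) =
      Dr (I.restrict (dY h p)) := fun p => drift_congr _ F v (hyy p)
  have mDr : Measurable Dr := (measurable_drift _ F v).comp myy
  have bDr : ∀ y, |Dr y * G y| ≤ B := by
    intro y
    rw [abs_mul, abs_of_nonneg (drift_nonneg hq v _)]
    calc Dr y * |G y| ≤ 1 * B := mul_le_mul (drift_le_one hq v _) (hB y) (abs_nonneg _) zero_le_one
      _ = B := one_mul B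
  have key1 := bayes_aux ν h hh F N I hI (fun _ => 1) (fun y => Dr y * G y) (mDr.mul hG) B bDr
  have key2 := bayes_aux ν h hh F N I hI (fun S => if v ∈ S then 1 else 0) G hG B hB
  have l1 : ∫ p, drift (cylW ν F) F v (obs h p N) * G (I.restrict (dY h p))
        ∂(ν.prod (gnoise (V × ℕ) h)) =
      ∫ p, 1 * (Dr (I.restrict (dY h p)) * G (I.restrict (dY h p)))
        ∂(ν.prod (gnoise (V × ℕ) h)) := by
    apply integral_congr_ae
    filter_upwards with p
    rw [hDr p, one_mul]
  have l2 : ∫ p, (if p.1 v then (1 : ℝ) else 0) * G (I.restrict (dY h p))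
        ∂(ν.prod (gnoise (V × ℕ) h)) =
      ∫ p, (if v ∈ occ F p.1 then (1 : ℝ) else 0) * G (I.restrict (dY h p))
        ∂(ν.prod (gnoise (V × ℕ) h)) := by
    apply integral_congr_ae
    filter_upwards with p
    simp [mem_occ, hv]
  rw [l1, l2]
  refine key1.trans (Eq.trans ?_ key2.symm)
  apply integral_congr_ae
  refine Filter.Eventually.of_forall fun y => ?_
  have h1 : ∑ S ∈ F.powerset, cylW ν F S * 1 *
      Real.exp (∑ u ∈ S, ((∑ j ∈ range N, ext0 I y (u, j)) - N * h / 2)) =
      part (cylW ν F) F (yy y) := by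
    simp [part, yy]
  have h2 : ∑ S ∈ F.powerset, cylW ν F S * (if v ∈ S then 1 else 0) *
      Real.exp (∑ u ∈ S, ((∑ j ∈ range N, ext0 I y (u, j)) - N * h / 2)) =
      partAt (cylW ν F) F v (yy y) := by
    simp only [partAt, yy]
    apply sum_congr rfl
    intro S _
    split_ifs <;> simp
  simp only
  rw [h1, h2]
  have h3 : part (cylW ν F) F (yy y) ≠ 0 := (part_pos hq hpos _).ne'
  simp only [Dr, drift]
  field_simp

end Crest.Agent.R168
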