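import Crest.Agent.R168.Bayes

/-!
Row 168: the drift of the observed process is a conditional expectation.
-/

set_option autoImplicit false
open MeasureTheory ProbabilityTheory Finset Filter
open scoped NNReal ENNReal Topology

namespace Crest.Agent.R168

variable {V : Type*}

/-- Data of a construction: weights and exhausting finite sets. -/
abbrev Data (V : Type*) := (Finset V → Finset V → ℝ) × (V → ℕ → Finset V)

/-- The infinite-volume drift. -/
noncomputable def mdr (δ : Data V) (v : V) (t : ℝ) (y : V → ℝ) : ℝ :=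
  limsup (fun n => drift (δ.1 (δ.2 v n)) (δ.2 v n) v (fun u => y u - t / 2)) atTop

/-- The information contained in the observed increments indexed by `I`. -/
@[reducible] noncomputable def sig (h : ℝ) (I : Set (V × ℕ)) :
    MeasurableSpace ((V → Bool) × (V × ℕ → ℝ)) :=
  ⨆ i ∈ I, MeasurableSpace.comap (fun p => dY h p i) inferInstance

theorem sig_mono (h : ℝ) {I J : Set (V × ℕ)} (hIJ : I ⊆ J) : sig h I ≤ sig h J :=
  biSup_mono hIJ

theorem sig_le (h : ℝ) (I : Set (V × ℕ)) :
    sig h I ≤ (inferInstance : MeasurableSpace ((V → Bool) × (V × ℕ → ℝ))) :=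
  iSup₂_le fun i _ => (measurable_dY h i).comap_le

theorem measurable_dY_sig (h : ℝ) {I : Set (V × ℕ)} {i : V × ℕ} (hi : i ∈ I) :
    Measurable[sig h I] (fun p : (V → Bool) × (V × ℕ → ℝ) => dY h p i) := by
  rw [measurable_iff_comap_le]
  exact le_iSup₂ (f := fun (i : V × ℕ) (_ : i ∈ I) =>
    MeasurableSpace.comap (fun p : (V → Bool) × (V × ℕ → ℝ) => dY h p i) inferInstance) i hi

theorem sig_iUnion (h : ℝ) (I : ℕ → Set (V × ℕ)) : sig h (⋃ n, I n) = ⨆ n, sig h (I n) := by
  unfold sig
  rw [iSup_iUnion]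

theorem exists_preimage_of_sig (h : ℝ) (I : Finset (V × ℕ)) {s : Set ((V → Bool) × (V × ℕ → ℝ))}
    (hs : MeasurableSet[sig h (I : Set (V × ℕ))] s) :
    ∃ t : Set (I → ℝ), MeasurableSet t ∧ s = (fun p => I.restrict (dY h p)) ⁻¹' t := by
  have : sig h (I : Set (V × ℕ)) = MeasurableSpace.comap (fun p => I.restrict (dY h p))
      MeasurableSpace.pi := by
    apply le_antisymm
    · apply iSup₂_le
      intro i hi
      rintro _ ⟨t, ht, rfl⟩
      refine ⟨(fun y : I → ℝ => y ⟨i, hi⟩) ⁻¹' t, measurable_pi_apply _ ht, rfl⟩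
    · rw [← measurable_iff_comap_le]
      refine @measurable_pi_iff _ _ _ (sig h (I : Set (V × ℕ))) _ _ |>.2 fun i => ?_
      exact measurable_dY_sig h i.2
  rw [this] at hs
  obtain ⟨t, ht, rfl⟩ := hs
  exact ⟨t, ht, rfl⟩

theorem measurable_drift_comp {Ω : Type*} {m : MeasurableSpace Ω} (q : Finset V → ℝ)
    (F : Finset V) (v : V) (f : Ω → V → ℝ) (hf : ∀ u ∈ F, Measurable[m] (fun p => f p u)) :
    Measurable[m] (fun p => drift q F v (f p)) := by
  classical
  have e : (fun p => drift q F v (f p)) =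
      fun p => drift q F v (fun u => if u ∈ F then f p u else 0) := by
    ext p
    apply drift_congr
    intro i hi
    simp [hi]
  rw [e]
  apply (measurable_drift q F v).comp
  rw [measurable_pi_iff]
  intro u
  by_cases hu : u ∈ F
  · simpa [hu] using hf u hu
  · simpa [hu] using measurable_const

theorem measurable_obs_sig (h : ℝ) {I : Set (V × ℕ)} {N : ℕ} {u : V}
    (hi : ∀ j < N, (u, j) ∈ I) :
    Measurable[sig h I] (fun p : (V → Bool) × (V × ℕ → ℝ) => obs h p N u) := by
  unfold obs
  refine Measurable.sub_const (m := sig h I) ?_ _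
  refine Finset.measurable_sum _ fun j hj => ?_
  exact measurable_dY_sig h (hi j (mem_range.1 hj))

/-- The indicator of occupation of a site. -/
noncomputable def ind (v : V) (p : (V → Bool) × (V × ℕ → ℝ)) : ℝ := if p.1 v then 1 else 0

theorem measurable_ind (v : V) : Measurable (ind v) := by
  unfold ind
  apply Measurable.ite
  · exact measurableSet_preimage ((measurable_pi_apply v).comp measurable_fst)
      (t := {b : Bool | b = true}) (by exact MeasurableSet.of_discrete)
  · exact measurable_const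
  · exact measurable_const

theorem ind_nonneg (v : V) (p : (V → Bool) × (V × ℕ → ℝ)) : 0 ≤ ind v p := by
  unfold ind; split_ifs <;> norm_num

theorem ind_le_one (v : V) (p : (V → Bool) × (V × ℕ → ℝ)) : ind v p ≤ 1 := by
  unfold ind; split_ifs <;> norm_num

theorem abs_ind_le_one (v : V) (p : (V → Bool) × (V × ℕ → ℝ)) : |ind v p| ≤ 1 := by
  rw [abs_of_nonneg (ind_nonneg v p)]; exact ind_le_one v p

variable (ν : Measure (V → Bool)) [IsProbabilityMeasure ν] (h : ℝ≥0)

/-- Law of (configuration, noise increments). -/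
noncomputable def law : Measure ((V → Bool) × (V × ℕ → ℝ)) := ν.prod (gnoise (V × ℕ) h)

instance : IsProbabilityMeasure (law ν h) := by unfold law; infer_instance

theorem integrable_ind (v : V) : Integrable (ind v) (law ν h) :=
  Integrable.of_bound (measurable_ind v).aestronglyMeasurable 1
    (Eventually.of_forall fun p => by rw [Real.norm_eq_abs]; exact abs_ind_le_one v p)

theorem drift_ae_eq_condExp (hh : h ≠ 0) (F : Finset V) (N : ℕ) (v : V) (hv : v ∈ F) :
    (fun p => drift (cylW ν F) F v (obs h p N)) =ᵐ[law ν h]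
      (law ν h)[ind v | sig h ((F ×ˢ range N : Finset (V × ℕ)) : Set (V × ℕ))] := by
  have hq : ∀ S ⊆ F, 0 ≤ cylW ν F S := fun S _ => cylW_nonneg ν F S
  have hmD : Measurable[sig h ((F ×ˢ range N : Finset (V × ℕ)) : Set (V × ℕ))]
      (fun p : (V → Bool) × (V × ℕ → ℝ) => drift (cylW ν F) F v (obs h p N)) := by
    apply measurable_drift_comp
    intro u hu
    apply measurable_obs_sig
    intro j hj
    simp [hu, hj]
  have hintD : Integrable (fun p => drift (cylW ν F) F v (obs h p N)) (law ν h) := by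
    refine Integrable.of_bound (hmD.mono (sig_le h _) le_rfl).aestronglyMeasurable 1
      (Eventually.of_forall fun p => ?_)
    rw [Real.norm_eq_abs, abs_of_nonneg (drift_nonneg hq v _)]
    exact drift_le_one hq v _
  refine ae_eq_condExp_of_forall_setIntegral_eq (sig_le h _) (integrable_ind ν h v)
    (fun s _ _ => hintD.integrableOn) (fun s hs _ => ?_) hmD.stronglyMeasurable.aestronglyMeasurable
  obtain ⟨t, ht, rfl⟩ := exists_preimage_of_sig h _ hs
  have hs' : MeasurableSet ((fun p : (V → Bool) × (V × ℕ → ℝ) =>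
      (F ×ˢ range N).restrict (dY h p)) ⁻¹' t) := sig_le h _ _ hs
  rw [← integral_indicator hs', ← integral_indicator hs']
  have key := bayes_finite ν h hh F N _ rfl v hv (t.indicator (fun _ => (1 : ℝ)))
    (measurable_const.indicator ht) 1 (fun y => by
      by_cases hy : y ∈ t
      · simp [hy]
      · simp [hy])
  have e1 : ∀ (g : (V → Bool) × (V × ℕ → ℝ) → ℝ) (p : (V → Bool) × (V × ℕ → ℝ)),
      ((fun p : (V → Bool) × (V × ℕ → ℝ) => (F ×ˢ range N).restrict (dY h p)) ⁻¹' t).indicator g p =
      g p * t.indicator (fun _ => (1 : ℝ)) ((F ×ˢ range N).restrict (dY h p)) := by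
    intro g p
    by_cases hp : (F ×ˢ range N).restrict (dY h p) ∈ t
    · rw [Set.indicator_of_mem hp, mul_one, Set.indicator_of_mem (by exact hp)]
    · rw [Set.indicator_of_notMem hp, mul_zero, Set.indicator_of_notMem (by exact hp)]
  simp_rw [e1]
  exact key

/-- The information available at time `N * h`. -/
@[reducible] noncomputable def past (h : ℝ) (N : ℕ) : MeasurableSpace ((V → Bool) × (V × ℕ → ℝ)) :=
  sig h {i | i.2 < N}

theorem past_le (h : ℝ) (N : ℕ) :
    past h N ≤ (inferInstance : MeasurableSpace ((V → Bool) × (V × ℕ → ℝ))) := sig_le h _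

theorem past_mono (h : ℝ) {N M : ℕ} (hNM : N ≤ M) : past (V := V) h N ≤ past h M :=
  sig_mono h fun i hi => by
    simp only [Set.mem_ofPred_eq] at hi ⊢
    omega

/-- The infinite-volume drift along the observed process. -/
noncomputable def obsDrift (K : V → ℕ → Finset V) (v : V) (N : ℕ)
    (p : (V → Bool) × (V × ℕ → ℝ)) : ℝ :=
  mdr (fun F => cylW ν F, K) v (N * h) (fun u => ∑ j ∈ range N, dY h p (u, j))

theorem obsDrift_ae_eq_condExp (hh : h ≠ 0) (K : V → ℕ → Finset V) (hK : ∀ v, Monotone (K v))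
    (hKu : ∀ v u, ∃ n, u ∈ K v n) (v : V) (N : ℕ) :
    obsDrift ν h K v N =ᵐ[law ν h] (law ν h)[ind v | past h N] ∧
    ∀ᵐ p ∂(law ν h), Tendsto (fun n => drift (cylW ν (K v n)) (K v n) v (obs h p N)) atTop
      (𝓝 (obsDrift ν h K v N p)) := by
  let 𝓕 : Filtration ℕ (inferInstance : MeasurableSpace ((V → Bool) × (V × ℕ → ℝ))) :=
    { seq := fun n => sig h ((K v n ×ˢ range N : Finset (V × ℕ)) : Set (V × ℕ))
      mono' := fun m n hmn => sig_mono h (by
        intro i hi
        simp only [coe_product, Set.mem_prod, mem_coe] at hi ⊢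
        exact ⟨hK v hmn hi.1, hi.2⟩)
      le' := fun n => sig_le h _ }
  have hsup : ⨆ n, 𝓕 n = past h N := by
    have e : ⨆ n, 𝓕 n = ⨆ n, sig h ((K v n ×ˢ range N : Finset (V × ℕ)) : Set (V × ℕ)) := rfl
    rw [e, ← sig_iUnion]
    congr 1
    ext i
    simp only [coe_product, Set.mem_iUnion, Set.mem_prod, mem_coe, mem_range, Set.mem_ofPred_eq]
    constructor
    · rintro ⟨n, -, hn⟩
      exact hn
    · intro hi
      obtain ⟨n, hn⟩ := hKu v i.1
      exact ⟨n, hn, hi⟩
  obtain ⟨n₀, hn₀⟩ := hKu v v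
  have h1 := tendsto_ae_condExp (μ := law ν h) (ℱ := 𝓕) (ind v)
  rw [hsup] at h1
  have h2 : ∀ᵐ p ∂(law ν h), ∀ n, n₀ ≤ n → drift (cylW ν (K v n)) (K v n) v (obs h p N) =
      ((law ν h)[ind v | 𝓕 n]) p := by
    rw [ae_all_iff]
    intro n
    by_cases hn : n₀ ≤ n
    · filter_upwards [drift_ae_eq_condExp ν h hh (K v n) N v (hK v hn hn₀)] with p hp _
      exact hp
    · exact Eventually.of_forall fun p h' => absurd h' hn
  have h3 : ∀ᵐ p ∂(law ν h), Tendsto (fun n => drift (cylW ν (K v n)) (K v n) v (obs h p N)) atTop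
      (𝓝 (((law ν h)[ind v | past h N]) p)) := by
    filter_upwards [h1, h2] with p hp1 hp2
    refine hp1.congr' ?_
    filter_upwards [eventually_ge_atTop n₀] with n hn
    exact (hp2 n hn).symm
  have h4 : obsDrift ν h K v N =ᵐ[law ν h] (law ν h)[ind v | past h N] := by
    filter_upwards [h3] with p hp
    exact hp.limsup_eq
  refine ⟨h4, ?_⟩
  filter_upwards [h3, h4] with p hp3 hp4
  rw [hp4]
  exact hp3

end Crest.Agent.R168
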