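import Mathlib
import Crest.Prelude.Def_Labels
import Crest.Prelude.Def_SpanningTrees
import Crest.Prelude.Def_GraphTables
import Crest.Prelude.Def_StronglyRayleigh

/-!
Row 168: shared definitions.
-/

set_option autoImplicit false
open MeasureTheory

namespace Crest.Agent.R168

/-- Partition function of the weights `q` on subsets of `F` in the external field `y`. -/
noncomputable def part {V : Type*} (q : Finset V → ℝ) (F : Finset V) (y : V → ℝ) : ℝ :=
  ∑ S ∈ F.powerset, q S * Real.exp (∑ i ∈ S, y i)

open Classical in
/-- Numerator of the drift. -/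
noncomputable def partAt {V : Type*} (q : Finset V → ℝ) (F : Finset V) (v : V) (y : V → ℝ) : ℝ :=
  ∑ S ∈ F.powerset, if v ∈ S then q S * Real.exp (∑ i ∈ S, y i) else 0

/-- The drift at `v`: the probability that `v` is occupied under the law on subsets of `F`
proportional to `q S * exp (∑ i ∈ S, y i)`. -/
noncomputable def drift {V : Type*} (q : Finset V → ℝ) (F : Finset V) (v : V) (y : V → ℝ) : ℝ :=
  partAt q F v y / part q F y

/-- Sup-norm Lipschitz property of the drift of the weights `q` on subsets of `F` at `v`. -/
def DriftLip {V : Type*} (q : Finset V → ℝ) (F : Finset V) (v : V) (C : ℝ) : Prop :=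
  ∀ (y y' : V → ℝ) (c : ℝ), 0 ≤ c → (∀ i ∈ F, |y i - y' i| ≤ c) →
    |drift q F v y - drift q F v y'| ≤ C * c

open Classical in
/-- The law of the trace on `K` of the uniform spanning tree of the piece `S` of `G`:
the probability that the tree `A` has `A ∩ K = T`. -/
noncomputable def ustTrace {V : Type*} (G : SimpleGraph V) (S : Finset V)
    (K T : Finset (Sym2 V)) : ℝ :=
  ((((Crest.ProbabilityR.SpanningTrees.edgesIn G S).powerset.filter
      (fun A => Crest.ProbabilityR.SpanningTrees.IsSpanningTreeOn G S A ∧ A ∩ K = T)).card : ℝ)) /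
    ((((Crest.ProbabilityR.SpanningTrees.edgesIn G S).powerset.filter
      (fun A => Crest.ProbabilityR.SpanningTrees.IsSpanningTreeOn G S A)).card : ℝ))

end Crest.Agent.R168
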