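import Crest.Agent.R168.Main
import Crest.Prelude.Def_Labels
import Crest.Prelude.Def_SpanningTrees
import Crest.Prelude.Def_GraphTables

/-!
Row 168: the free uniform spanning forest measure.
-/

set_option autoImplicit false
open MeasureTheory ProbabilityTheory Finset Filter
open scoped NNReal ENNReal Topology

namespace Crest.Agent.R168

open Crest.ProbabilityR Crest.ProbabilityR.SpanningTrees

open Classical in
/-- Spanning trees of the piece `S`. -/
noncomputable def trees {V : Type*} (G : SimpleGraph V) (S : Finset V) : Finset (Finset (Sym2 V)) :=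
  (edgesIn G S).powerset.filter (fun A => IsSpanningTreeOn G S A)

open Classical in
theorem ustContains_eq {V : Type*} (G : SimpleGraph V) (S : Finset V) (F : Finset (Sym2 V)) :
    ustContains G S F = (((trees G S).filter (fun A => F ⊆ A)).card : ℝ) / ((trees G S).card : ℝ) := by
  unfold ustContains trees
  rw [filter_filter]

open Classical in
theorem ustTrace_eq {V : Type*} (G : SimpleGraph V) (S : Finset V) (K T : Finset (Sym2 V)) :
    ustTrace G S K T = (((trees G S).filter (fun A => A ∩ K = T)).card : ℝ) / ((trees G S).card : ℝ) := by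
  unfold ustTrace trees
  rw [filter_filter]

open Classical in
/-- The configuration of a finite edge set. -/
noncomputable def conf {V : Type*} (A : Finset (Sym2 V)) (e : Sym2 V) : Bool := decide (e ∈ A)

/-- The law of the uniform spanning tree of a piece. -/
noncomputable def ustLaw {V : Type*} (G : SimpleGraph V) (S : Finset V) : Measure (Sym2 V → Bool) :=
  ((trees G S).card : ℝ≥0∞)⁻¹ • ∑ A ∈ trees G S, Measure.dirac (conf A)

theorem isProbabilityMeasure_ustLaw {V : Type*} (G : SimpleGraph V) (S : Finset V)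
    (h : (trees G S).Nonempty) : IsProbabilityMeasure (ustLaw G S) := by
  constructor
  unfold ustLaw
  rw [Measure.smul_apply, Measure.finsetSum_apply]
  simp only [measure_univ, sum_const, nsmul_eq_mul, mul_one, smul_eq_mul]
  apply ENNReal.inv_mul_cancel
  · exact_mod_cast h.card_pos.ne'
  · exact ENNReal.natCast_ne_top _

theorem ustLaw_apply {V : Type*} (G : SimpleGraph V) (S : Finset V) {s : Set (Sym2 V → Bool)}
    (hs : MeasurableSet s) (t : Finset (Finset (Sym2 V)))
    (ht : ∀ A ∈ trees G S, (A ∈ t ↔ conf A ∈ s)) (htr : t ⊆ trees G S) :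
    (ustLaw G S s).toReal = (t.card : ℝ) / ((trees G S).card : ℝ) := by
  classical
  unfold ustLaw
  rw [Measure.smul_apply, Measure.finsetSum_apply]
  have e1 : ∑ A ∈ trees G S, (Measure.dirac (conf A)) s = (t.card : ℝ≥0∞) := by
    have e2 : ∀ A ∈ trees G S, (Measure.dirac (conf A)) s = if A ∈ t then 1 else 0 := by
      intro A hA
      rw [Measure.dirac_apply' _ hs]
      by_cases hAt : A ∈ t
      · rw [if_pos hAt, Set.indicator_of_mem ((ht A hA).1 hAt)]; rfl
      · rw [if_neg hAt, Set.indicator_of_notMem (fun h => hAt ((ht A hA).2 h))]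
    rw [sum_congr rfl e2, sum_ite_mem, inter_eq_right.2 htr]
    simp
  rw [e1, smul_eq_mul, ENNReal.toReal_mul, ENNReal.toReal_inv]
  simp only [ENNReal.toReal_natCast]
  rw [div_eq_inv_mul]

theorem measurableSet_all {V : Type*} (A : Finset (Sym2 V)) :
    MeasurableSet {ω : Sym2 V → Bool | ∀ e ∈ A, ω e = true} := by
  have : {ω : Sym2 V → Bool | ∀ e ∈ A, ω e = true} = ⋂ e ∈ A, {ω | ω e = true} := by
    ext; simp
  rw [this]
  refine Finset.measurableSet_biInter _ fun e _ => ?_
  exact measurableSet_preimage (measurable_pi_apply e) (t := {b : Bool | b = true})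
    (by exact MeasurableSet.of_discrete)

theorem ustLaw_all {V : Type*} (G : SimpleGraph V) (S : Finset V) (F : Finset (Sym2 V)) :
    (ustLaw G S {ω | ∀ e ∈ F, ω e = true}).toReal = ustContains G S F := by
  classical
  rw [ustContains_eq]
  apply ustLaw_apply G S (measurableSet_all F) _ _ (filter_subset _ _)
  intro A hA
  simp only [mem_filter, hA, true_and, Set.mem_ofPred_eq, conf, decide_eq_true_eq]
  rfl

theorem cylW_ustLaw {V : Type*} (G : SimpleGraph V) (S : Finset V) (F T : Finset (Sym2 V))
    (hT : T ⊆ F) : cylW (ustLaw G S) F T = ustTrace G S F T := by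
  classical
  rw [ustTrace_eq]
  unfold cylW
  apply ustLaw_apply G S (measurableSet_cyl F T) _ _ (filter_subset _ _)
  intro A hA
  simp only [mem_filter, hA, true_and, Set.mem_ofPred_eq, conf, decide_eq_true_eq]
  constructor
  · rintro rfl e he
    simp [he]
  · intro h
    ext e
    rw [mem_inter]
    constructor
    · rintro ⟨h1, h2⟩
      exact (h e h2).1 h1
    · intro he
      exact ⟨(h e (hT he)).2 he, hT he⟩

/-- Admissible pieces for `A`. -/
def Adm {V : Type*} (G : SimpleGraph V) (A : Finset (Sym2 V)) (S : Finset V) : Prop :=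
  (G.induce (S : Set V)).Connected ∧ (∀ e ∈ A, ∀ v ∈ e, v ∈ S)

open Classical in
/-- Tree probability on an admissible piece, `1` otherwise. -/
noncomputable def pGin {V : Type*} (G : SimpleGraph V) (A : Finset (Sym2 V)) (S : Finset V) : ℝ :=
  if Adm G A S then ustContains G S A else 1

theorem pGin_pos {V : Type*} {G : SimpleGraph V} {A : Finset (Sym2 V)} {S : Finset V}
    (h : Adm G A S) : pGin G A S = ustContains G S A := by
  unfold pGin; rw [if_pos h]

theorem pGin_neg {V : Type*} {G : SimpleGraph V} {A : Finset (Sym2 V)} {S : Finset V}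
    (h : ¬ Adm G A S) : pGin G A S = 1 := by
  unfold pGin; rw [if_neg h]

/-- The candidate free uniform spanning forest probability of containing `A`. -/
noncomputable def pG {V : Type*} (G : SimpleGraph V) (A : Finset (Sym2 V)) : ℝ :=
  ⨅ S : Finset V, pGin G A S

theorem ustContains_nonneg {V : Type*} (G : SimpleGraph V) (S : Finset V) (F : Finset (Sym2 V)) :
    0 ≤ ustContains G S F := by
  rw [ustContains_eq]; positivity

theorem ustContains_le_one {V : Type*} (G : SimpleGraph V) (S : Finset V) (F : Finset (Sym2 V)) :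
    ustContains G S F ≤ 1 := by
  classical
  rw [ustContains_eq]
  apply div_le_one_of_le₀ _ (by positivity)
  exact_mod_cast card_le_card (filter_subset _ _)

theorem pGin_nonneg {V : Type*} (G : SimpleGraph V) (A : Finset (Sym2 V)) (S : Finset V) :
    0 ≤ pGin G A S := by
  by_cases h : Adm G A S
  · rw [pGin_pos h]; exact ustContains_nonneg _ _ _
  · rw [pGin_neg h]; exact zero_le_one

theorem ustContains_eq_zero {V : Type*} (G : SimpleGraph V) (S : Finset V) (F : Finset (Sym2 V))
    (h : ¬ (F : Set (Sym2 V)) ⊆ G.edgeSet) : ustContains G S F = 0 := by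
  classical
  rw [ustContains_eq]
  have : (trees G S).filter (fun A => F ⊆ A) = ∅ := by
    apply filter_eq_empty_iff.2
    intro A hA hFA
    apply h
    intro e he
    have h1 := (mem_filter.1 hA).1
    have h2 := mem_powerset.1 h1 (hFA he)
    unfold edgesIn at h2
    simp only [mem_filter] at h2
    exact h2.2
  rw [this]
  simp

theorem mem_edgesIn {V : Type*} (G : SimpleGraph V) (S : Finset V) (e : Sym2 V) :
    e ∈ edgesIn G S ↔ (∀ v ∈ e, v ∈ S) ∧ e ∈ G.edgeSet := by
  unfold edgesIn
  simp only [mem_filter, mem_sym2_iff]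

section limit

variable {V : Type*} (hD2 : ∀ (G : SimpleGraph V) (S S' : Finset V),
    (G.induce (S : Set V)).Connected → (G.induce (S' : Set V)).Connected →
    S ⊆ S' → ∀ (A : Finset (Sym2 V)), A ⊆ edgesIn G S → ustContains G S' A ≤ ustContains G S A)

include hD2

/-- Convergence along exhaustions. -/
theorem tendsto_ustContains (G : SimpleGraph V) (S : ℕ → Finset V) (hSm : Monotone S)
    (hSu : ∀ v, ∃ n, v ∈ S n) (hSc : ∀ n, (G.induce (S n : Set V)).Connected)
    (A : Finset (Sym2 V)) :
    Tendsto (fun n => ustContains G (S n) A) atTop (𝓝 (pG G A)) := by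
  classical
  -- all vertices of `A` are eventually in
  have hfin : ∀ B : Finset V, ∃ n, B ⊆ S n := by
    intro B
    induction B using Finset.induction with
    | empty => exact ⟨0, empty_subset _⟩
    | insert v B _ ih =>
      obtain ⟨n, hn⟩ := ih
      obtain ⟨m, hm⟩ := hSu v
      refine ⟨max n m, insert_subset (hSm (le_max_right _ _) hm) (hn.trans (hSm (le_max_left _ _)))⟩
  obtain ⟨n₀, hn₀⟩ : ∃ n₀, ∀ e ∈ A, ∀ v ∈ e, v ∈ S n₀ := by
    obtain ⟨n, hn⟩ := hfin (A.biUnion fun e => e.toFinset)
    refine ⟨n, fun e he v hv => hn (mem_biUnion.2 ⟨e, he, ?_⟩)⟩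
    rwa [Sym2.mem_toFinset]
  have hbdd : BddBelow (Set.range fun S : Finset V => pGin G A S) := by
    refine ⟨0, ?_⟩
    rintro _ ⟨T, rfl⟩
    exact pGin_nonneg G A T
  have hle : ∀ n, n₀ ≤ n → pG G A ≤ ustContains G (S n) A := by
    intro n hn
    refine (ciInf_le hbdd (S n)).trans (le_of_eq ?_)
    exact pGin_pos ⟨hSc n, fun e he v hv => hSm hn (hn₀ e he v hv)⟩
  by_cases hA : (A : Set (Sym2 V)) ⊆ G.edgeSet
  · -- for every admissible piece the sequence is eventually below
    have hev : ∀ T : Finset V, ∀ᶠ n in atTop, ustContains G (S n) A ≤ pGin G A T := by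
      intro T
      obtain ⟨m, hm⟩ := hfin T
      filter_upwards [eventually_ge_atTop m] with n hn
      by_cases hT : Adm G A T
      · rw [pGin_pos hT]
        apply hD2 G T (S n) hT.1 (hSc n) (hm.trans (hSm hn)) A
        intro e he
        rw [mem_edgesIn]
        exact ⟨hT.2 e he, hA he⟩
      · rw [pGin_neg hT]
        exact ustContains_le_one _ _ _
    rw [tendsto_order]
    constructor
    · intro a ha
      filter_upwards [eventually_ge_atTop n₀] with n hn
      exact lt_of_lt_of_le ha (hle n hn)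
    · intro a ha
      obtain ⟨T, hT⟩ := exists_lt_of_ciInf_lt ha
      filter_upwards [hev T] with n hn
      exact lt_of_le_of_lt hn hT
  · have h0 : ∀ n, ustContains G (S n) A = 0 := fun n => ustContains_eq_zero G (S n) A hA
    have h1 : pG G A = 0 := by
      apply le_antisymm
      · have := hle n₀ le_rfl
        rwa [h0] at this
      · exact le_ciInf fun T => pGin_nonneg G A T
    simp_rw [h0, h1]
    exact tendsto_const_nhds

end limit

theorem continuous_clopen_cyl {V : Type*} (F T : Finset (Sym2 V)) :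
    IsClopen {ω : Sym2 V → Bool | ∀ i ∈ F, (ω i = true ↔ i ∈ T)} := by
  have : {ω : Sym2 V → Bool | ∀ i ∈ F, (ω i = true ↔ i ∈ T)} =
      ⋂ i ∈ F, (fun ω : Sym2 V → Bool => ω i) ⁻¹' {b : Bool | (b = true ↔ i ∈ T)} := by
    ext; simp
  rw [this]
  refine isClopen_biInter_finset fun i _ => ?_
  exact (isClopen_discrete _).preimage (continuous_apply i)

theorem clopen_all {V : Type*} (A : Finset (Sym2 V)) :
    IsClopen {ω : Sym2 V → Bool | ∀ e ∈ A, ω e = true} := by
  have : {ω : Sym2 V → Bool | ∀ e ∈ A, ω e = true} =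
      ⋂ i ∈ A, (fun ω : Sym2 V → Bool => ω i) ⁻¹' {b : Bool | b = true} := by
    ext; simp
  rw [this]
  refine isClopen_biInter_finset fun i _ => ?_
  exact (isClopen_discrete _).preimage (continuous_apply i)

/-- The drift is a limit of drifts when the weights converge. -/
theorem tendsto_drift {V ι : Type*} {L : Filter ι} (q : ι → Finset V → ℝ) (q₀ : Finset V → ℝ)
    (F : Finset V) (hq : ∀ S ⊆ F, Tendsto (fun i => q i S) L (𝓝 (q₀ S)))
    (h0 : ∀ S ⊆ F, 0 ≤ q₀ S) (hpos : 0 < ∑ S ∈ F.powerset, q₀ S) (v : V) (y : V → ℝ) :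
    Tendsto (fun i => drift (q i) F v y) L (𝓝 (drift q₀ F v y)) := by
  unfold drift
  apply Tendsto.div
  · unfold partAt
    refine tendsto_finsetSum _ fun S hS => ?_
    split_ifs
    · exact (hq S (mem_powerset.1 hS)).mul_const _
    · exact tendsto_const_nhds
  · unfold part
    refine tendsto_finsetSum _ fun S hS => ?_
    exact (hq S (mem_powerset.1 hS)).mul_const _
  · exact (part_pos h0 hpos y).ne'

theorem driftLip_of_tendsto {V ι : Type*} {L : Filter ι} [NeBot L] (q : ι → Finset V → ℝ)
    (q₀ : Finset V → ℝ) (F : Finset V) (hq : ∀ S ⊆ F, Tendsto (fun i => q i S) L (𝓝 (q₀ S)))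
    (h0 : ∀ S ⊆ F, 0 ≤ q₀ S) (hpos : 0 < ∑ S ∈ F.powerset, q₀ S) (v : V) (C : ℝ)
    (hL : ∀ᶠ i in L, DriftLip (q i) F v C) : DriftLip q₀ F v C := by
  intro y y' c hc hy
  have h1 := ((tendsto_drift q q₀ F hq h0 hpos v y).sub (tendsto_drift q q₀ F hq h0 hpos v y')).abs
  refine le_of_tendsto h1 ?_
  filter_upwards [hL] with i hi
  exact hi y y' c hc hy

theorem driftLip_congr {V : Type*} (q q' : Finset V → ℝ) (F : Finset V)
    (hq : ∀ S ⊆ F, q S = q' S) (v : V) (C : ℝ) (h : DriftLip q F v C) : DriftLip q' F v C := by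
  have e : ∀ y, drift q' F v y = drift q F v y := by
    intro y
    unfold drift partAt part
    congr 1
    · apply sum_congr rfl
      intro S hS
      rw [hq S (mem_powerset.1 hS)]
    · apply sum_congr rfl
      intro S hS
      rw [hq S (mem_powerset.1 hS)]
  intro y y' c hc hy
  rw [e, e]
  exact h y y' c hc hy

/-- Existence of the free uniform spanning forest measure. -/
theorem exists_fusf {V : Type*} [Countable V]
    (hA : ∀ (q : Finset (Sym2 V) → ℝ) (F : Finset (Sym2 V)), (∀ S ⊆ F, 0 ≤ q S) →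
      0 < ∑ S ∈ F.powerset, q S →
      (∀ z : Sym2 V → ℂ, (∀ i ∈ F, 0 < (z i).im) →
        ∑ S ∈ F.powerset, (q S : ℂ) * ∏ i ∈ S, z i ≠ 0) → ∀ v, DriftLip q F v 2)
    (hD1 : ∀ (G : SimpleGraph V) (S : Finset V), (G.induce (S : Set V)).Connected →
      ∀ (K : Finset (Sym2 V)) (z : Sym2 V → ℂ), (∀ e ∈ K, 0 < (z e).im) →
      ∑ T ∈ K.powerset, (ustTrace G S K T : ℂ) * ∏ e ∈ T, z e ≠ 0)
    (hD2 : ∀ (G : SimpleGraph V) (S S' : Finset V),
      (G.induce (S : Set V)).Connected → (G.induce (S' : Set V)).Connected →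
      S ⊆ S' → ∀ (A : Finset (Sym2 V)), A ⊆ edgesIn G S → ustContains G S' A ≤ ustContains G S A)
    (G : SimpleGraph V) (S : ℕ → Finset V) (hSm : Monotone S)
    (hSu : ∀ v, ∃ n, v ∈ S n) (hSc : ∀ n, (G.induce (S n : Set V)).Connected) :
    ∃ ν : Measure (Sym2 V → Bool), IsProbabilityMeasure ν ∧
      (∀ A : Finset (Sym2 V), (ν {ω | ∀ e ∈ A, ω e = true}).toReal = pG G A) ∧
      (∀ F v, DriftLip (cylW ν F) F v 2) := by
  have hne : ∀ n, (trees G (S n)).Nonempty := by
    intro n
    by_contra hcon
    rw [not_nonempty_iff_eq_empty] at hcon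
    have := hD1 G (S n) (hSc n) ∅ (fun _ => 0) (by simp)
    rw [powerset_empty, sum_singleton] at this
    apply this
    have h1 : ustTrace G (S n) ∅ ∅ = 0 := by
      rw [ustTrace_eq, hcon]; simp
    rw [h1]
    simp
  have hprob : ∀ n, IsProbabilityMeasure (ustLaw G (S n)) := fun n =>
    isProbabilityMeasure_ustLaw G (S n) (hne n)
  let μs : ℕ → ProbabilityMeasure (Sym2 V → Bool) := fun n => ⟨ustLaw G (S n), hprob n⟩
  -- cluster point along an ultrafilter
  obtain ⟨𝒰, h𝒰⟩ := Ultrafilter.exists_le (atTop : Filter ℕ)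
  obtain ⟨μ, hμ⟩ : ∃ μ : ProbabilityMeasure (Sym2 V → Bool), Tendsto μs 𝒰 (𝓝 μ) := by
    have := isCompact_univ (X := ProbabilityMeasure (Sym2 V → Bool)) |>.ultrafilter_le_nhds
      (𝒰.map μs) (by simp)
    obtain ⟨μ, -, hμ⟩ := this
    exact ⟨μ, hμ⟩
  have hclop : ∀ E : Set (Sym2 V → Bool), IsClopen E →
      Tendsto (fun n => (ustLaw G (S n) E).toReal) 𝒰 (𝓝 (((μ : Measure (Sym2 V → Bool)) E).toReal)) := by
    intro E hE
    have h1 := ProbabilityMeasure.tendsto_measure_of_isClopen_of_tendsto hμ hE
    exact (NNReal.continuous_coe.tendsto _).comp h1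
  refine ⟨μ, inferInstance, ?_, ?_⟩
  · intro A
    have h1 := hclop _ (clopen_all A)
    simp_rw [ustLaw_all] at h1
    exact tendsto_nhds_unique h1 ((tendsto_ustContains hD2 G S hSm hSu hSc A).mono_left h𝒰)
  · intro F v
    have hstab : ∀ n, DriftLip (ustTrace G (S n) F) F v 2 := by
      intro n
      have hs : ∀ T ⊆ F, ustTrace G (S n) F T = cylW (ustLaw G (S n)) F T := fun T hT =>
        (cylW_ustLaw G (S n) F T hT).symm
      apply hA
      · intro T hT
        rw [hs T hT]
        exact cylW_nonneg _ _ _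
      · rw [sum_congr rfl fun T hT => hs T (mem_powerset.1 hT), sum_cylW]
        exact one_pos
      · exact hD1 G (S n) (hSc n) F
    refine driftLip_of_tendsto (L := (𝒰 : Filter ℕ)) (fun n => ustTrace G (S n) F) _ F ?_
      (fun T _ => cylW_nonneg _ _ _) (by rw [sum_cylW]; exact one_pos) v 2
      (Eventually.of_forall hstab)
    intro T hT
    have h1 := hclop _ (continuous_clopen_cyl F T)
    refine h1.congr fun n => ?_
    exact cylW_ustLaw G (S n) F T hT

end Crest.Agent.R168
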