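import Crest.Agent.R168.Main
import Crest.Prelude.Def_Labels
import Crest.Prelude.Def_StronglyRayleigh

/-!
Row 168: invariant strongly Rayleigh laws on a countable group are factors of iid labels
(given the sup-norm Lipschitz property of the drifts).
-/

set_option autoImplicit false
open MeasureTheory ProbabilityTheory Finset Filter
open scoped NNReal ENNReal Topology

namespace Crest.Agent.R168

open Crest.ProbabilityR

/-- Labels to noise. -/
theorem exists_label_to_noise :
    ∃ f : unitInterval → (ℕ × ℕ → ℝ), Measurable f ∧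
      (volume : Measure unitInterval).map f = gnoise (ℕ × ℕ) 1 :=
  Measure.exists_measurable_map_eq (gnoise (ℕ × ℕ) 1)

theorem map_labels {V : Type*} (f : unitInterval → (ℕ × ℕ → ℝ)) (hf : Measurable f)
    (hf' : (volume : Measure unitInterval).map f = gnoise (ℕ × ℕ) 1) :
    (Labels.labelMeasure V).map (fun u v => f (u v)) = noiseLaw V := by
  unfold Labels.labelMeasure noiseLaw
  rw [Measure.infinitePi_map_pi (μ := fun _ : V => (volume : Measure unitInterval))
    (f := fun _ => f) (fun _ => hf)]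
  simp_rw [hf']

theorem cylW_mulLeft {Γ : Type*} [Group Γ] (ν : Measure (Γ → Bool))
    (hinv : StronglyRayleigh.IsShiftInvariant ν) (g : Γ) (F S : Finset Γ) :
    cylW ν (F.map (Equiv.mulLeft g).toEmbedding) (S.map (Equiv.mulLeft g).toEmbedding) =
      cylW ν F S := by
  unfold cylW
  congr 1
  rw [← hinv g⁻¹ {ω | ∀ i ∈ F, (ω i = true ↔ i ∈ S)} (measurableSet_cyl F S)]
  congr 1
  ext ω
  simp only [Finset.mem_map_equiv, Set.mem_ofPred_eq, Set.mem_preimage,
    StronglyRayleigh.leftShift, inv_inv]
  constructor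
  · intro h i hi
    have := h (g * i) (by simpa using hi)
    simpa using this
  · intro h i hi
    have := h (g⁻¹ * i) (by simpa using hi)
    simpa using this

theorem group_factor (Γ : Type*) [Group Γ] [Countable Γ] (ν : Measure (Γ → Bool))
    [IsProbabilityMeasure ν] (C : ℝ) (hC : 0 ≤ C)
    (hLip : ∀ (F : Finset Γ) (v : Γ), DriftLip (cylW ν F) F v C)
    (hinv : StronglyRayleigh.IsShiftInvariant ν) :
    ∃ Φ : (Γ → unitInterval) → (Γ → Bool), Measurable Φ ∧
      (∀ (g : Γ) (u : Γ → unitInterval),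
        Φ (StronglyRayleigh.leftShift g u) = StronglyRayleigh.leftShift g (Φ u)) ∧
      (Labels.labelMeasure Γ).map Φ = ν := by
  classical
  obtain ⟨f, hf, hf'⟩ := exists_label_to_noise
  obtain ⟨s, hs⟩ := exists_surjective_nat Γ
  let K₀ : ℕ → Finset Γ := fun n => (range n).image s
  let K : Γ → ℕ → Finset Γ := fun g n => (K₀ n).map (Equiv.mulLeft g).toEmbedding
  have hK : ∀ v, Monotone (K v) := by
    intro v m n hmn
    exact Finset.map_subset_map.2 (Finset.image_subset_image (range_subset_range.2 hmn))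
  have hKu : ∀ v u, ∃ n, u ∈ K v n := by
    intro v u
    obtain ⟨i, hi⟩ := hs (v⁻¹ * u)
    refine ⟨i + 1, ?_⟩
    simp only [K, K₀, Finset.mem_map, mem_image, mem_range]
    exact ⟨v⁻¹ * u, ⟨i, Nat.lt_succ_self i, hi⟩, by simp⟩
  let δ : Data Γ := (fun F => cylW ν F, K)
  have hmf : Measurable (fun (u : Γ → unitInterval) v => f (u v)) :=
    measurable_pi_iff.2 fun v => hf.comp (measurable_pi_apply v)
  refine ⟨fun u => Psi δ (fun v => f (u v)), (measurable_Psi δ).comp hmf, ?_, ?_⟩
  · intro g u
    ext v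
    have h1 : ∀ F S : Finset Γ, δ.1 (F.map (Equiv.mulLeft g⁻¹).toEmbedding)
        (S.map (Equiv.mulLeft g⁻¹).toEmbedding) = δ.1 F S := fun F S =>
      cylW_mulLeft ν hinv g⁻¹ F S
    have h2 : ∀ v n, δ.2 (Equiv.mulLeft g⁻¹ v) n = (δ.2 v n).map (Equiv.mulLeft g⁻¹).toEmbedding := by
      intro v n
      simp only [δ, K]
      rw [Finset.map_map]
      congr 1
      ext x
      simp [mul_assoc]
    have h3 := Psi_map (Equiv.mulLeft g⁻¹) δ δ h1 h2 (fun v => f (u v)) v
    exact h3.symm
  · have h4 : (fun u : Γ → unitInterval => Psi δ (fun v => f (u v))) =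
        Psi δ ∘ (fun (u : Γ → unitInterval) v => f (u v)) := rfl
    rw [h4, ← Measure.map_map (measurable_Psi δ) hmf, map_labels f hf hf']
    exact Psi_law ν K hK hKu C hC (fun v n => hLip (K v n) v)

end Crest.Agent.R168
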