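import Mathlib

/-!
Row 168: bounded real sequences and their upper limits.
-/

set_option autoImplicit false
open Filter Topology

namespace Crest.Agent.R168

theorem isBddUnder_of_abs_le {a : ℕ → ℝ} {B : ℝ} (ha : ∀ n, |a n| ≤ B) :
    IsBoundedUnder (· ≤ ·) atTop a :=
  ⟨B, Filter.eventually_map.2 (Eventually.of_forall fun n => (abs_le.1 (ha n)).2)⟩

theorem isCobddUnder_of_abs_le {a : ℕ → ℝ} {B : ℝ} (ha : ∀ n, |a n| ≤ B) :
    IsCoboundedUnder (· ≤ ·) atTop a :=
  IsBoundedUnder.isCoboundedUnder_flip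
    ⟨-B, Filter.eventually_map.2 (Eventually.of_forall fun n => (abs_le.1 (ha n)).1)⟩

theorem limsup_mono_of_bdd {a b : ℕ → ℝ} {A B : ℝ} (ha : ∀ n, |a n| ≤ A) (hb : ∀ n, |b n| ≤ B)
    (hab : ∀ n, a n ≤ b n) : limsup a atTop ≤ limsup b atTop :=
  limsup_le_limsup (Eventually.of_forall hab) (isCobddUnder_of_abs_le ha) (isBddUnder_of_abs_le hb)

theorem abs_limsup_sub_le {a b : ℕ → ℝ} {A B c : ℝ} (ha : ∀ n, |a n| ≤ A) (hb : ∀ n, |b n| ≤ B)
    (hab : ∀ n, |a n - b n| ≤ c) : |limsup a atTop - limsup b atTop| ≤ c := by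
  have h1 : ∀ (a b : ℕ → ℝ) (A B : ℝ), (∀ n, |a n| ≤ A) → (∀ n, |b n| ≤ B) →
      (∀ n, a n ≤ b n + c) → limsup a atTop ≤ limsup b atTop + c := by
    intro a b A B ha hb hab
    have h2 : limsup (fun n => b n + c) atTop = limsup b atTop + c :=
      limsup_add_const atTop b c (isBddUnder_of_abs_le hb) (isCobddUnder_of_abs_le hb)
    rw [← h2]
    refine limsup_mono_of_bdd ha (B := B + |c|) (fun n => ?_) hab
    calc |b n + c| ≤ |b n| + |c| := abs_add_le _ _
      _ ≤ B + |c| := by gcongr; exact hb n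
  rw [abs_le]
  constructor
  · have := h1 b a B A hb ha (fun n => by have := (abs_le.1 (hab n)).1; linarith)
    linarith
  · have := h1 a b A B ha hb (fun n => by have := (abs_le.1 (hab n)).2; linarith)
    linarith

theorem limsup_mem_Icc {a : ℕ → ℝ} {l u : ℝ} (hl : ∀ n, l ≤ a n) (hu : ∀ n, a n ≤ u) :
    l ≤ limsup a atTop ∧ limsup a atTop ≤ u := by
  have ha : ∀ n, |a n| ≤ max |l| |u| := fun n => abs_le_max_abs_abs (hl n) (hu n)
  constructor
  · have := limsup_mono_of_bdd (a := fun _ => l) (b := a) (A := |l|) (fun _ => le_rfl) ha hl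
    simpa using this
  · have := limsup_mono_of_bdd (a := a) (b := fun _ => u) (B := |u|) ha (fun _ => le_rfl) hu
    simpa using this

end Crest.Agent.R168
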