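import Crest.Agent.R168.CondExp
import Crest.Agent.R168.Limsup

/-!
Row 168: the innovation estimate in discrete time.
-/

set_option autoImplicit false
open MeasureTheory ProbabilityTheory Finset Filter
open scoped NNReal ENNReal Topology

namespace Crest.Agent.R168

variable {V : Type*} (ν : Measure (V → Bool)) [IsProbabilityMeasure ν] (h : ℝ≥0)

omit [IsProbabilityMeasure ν] in
theorem measurable_obsDrift (K : V → ℕ → Finset V) (v : V) (N : ℕ) :
    Measurable[past h N] (obsDrift ν h K v N) := by
  unfold obsDrift mdr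
  refine Measurable.limsup fun n => ?_
  apply measurable_drift_comp
  intro u _
  refine Measurable.sub_const (m := past h N) ?_ _
  refine Finset.measurable_sum _ fun j hj => ?_
  exact measurable_dY_sig h (by simpa using hj)

omit [IsProbabilityMeasure ν] in
theorem obsDrift_mem (K : V → ℕ → Finset V) (v : V) (N : ℕ) (p : (V → Bool) × (V × ℕ → ℝ)) :
    0 ≤ obsDrift ν h K v N p ∧ obsDrift ν h K v N p ≤ 1 := by
  unfold obsDrift mdr
  exact limsup_mem_Icc (fun n => drift_nonneg (fun S _ => cylW_nonneg ν _ S) _ _)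
    (fun n => drift_le_one (fun S _ => cylW_nonneg ν _ S) _ _)

omit [IsProbabilityMeasure ν] in
theorem abs_obsDrift_le (K : V → ℕ → Finset V) (v : V) (N : ℕ) (p : (V → Bool) × (V × ℕ → ℝ)) :
    |obsDrift ν h K v N p| ≤ 1 := by
  rw [abs_of_nonneg (obsDrift_mem ν h K v N p).1]
  exact (obsDrift_mem ν h K v N p).2

theorem integrable_of_past {N : ℕ} {g : (V → Bool) × (V × ℕ → ℝ) → ℝ}
    (hg : Measurable[past h N] g) {B : ℝ} (hB : ∀ p, |g p| ≤ B) : Integrable g (law ν h) :=
  Integrable.of_bound (hg.mono (past_le h N) le_rfl).aestronglyMeasurable B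
    (Eventually.of_forall hB)

theorem integral_ind_mul (hh : h ≠ 0) (K : V → ℕ → Finset V) (hK : ∀ v, Monotone (K v))
    (hKu : ∀ v u, ∃ n, u ∈ K v n) (v : V) (N : ℕ) (g : (V → Bool) × (V × ℕ → ℝ) → ℝ)
    (hg : Measurable[past h N] g) (B : ℝ) (hB : ∀ p, |g p| ≤ B) :
    ∫ p, ind v p * g p ∂(law ν h) = ∫ p, obsDrift ν h K v N p * g p ∂(law ν h) := by
  have h1 := (obsDrift_ae_eq_condExp ν h hh K hK hKu v N).1
  have hgm : StronglyMeasurable[past h N] g := hg.stronglyMeasurable
  have hint : Integrable (ind v * g) (law ν h) := by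
    refine Integrable.of_bound ((measurable_ind v).mul
      (hg.mono (past_le h N) le_rfl)).aestronglyMeasurable (1 * B) (Eventually.of_forall fun p => ?_)
    rw [Pi.mul_apply, Real.norm_eq_abs, abs_mul]
    exact mul_le_mul (abs_ind_le_one v p) (hB p) (abs_nonneg _) zero_le_one
  have h2 : (law ν h)[ind v * g | past h N] =ᵐ[law ν h] (law ν h)[ind v | past h N] * g :=
    condExp_mul_of_stronglyMeasurable_right hgm hint (integrable_ind ν h v)
  have h3 : ∫ p, ((law ν h)[ind v * g | past h N]) p ∂(law ν h) = ∫ p, (ind v * g) p ∂(law ν h) :=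
    integral_condExp (past_le h N)
  calc ∫ p, ind v p * g p ∂(law ν h) = ∫ p, ((law ν h)[ind v * g | past h N]) p ∂(law ν h) := h3.symm
    _ = ∫ p, obsDrift ν h K v N p * g p ∂(law ν h) := by
      apply integral_congr_ae
      filter_upwards [h1, h2] with p hp1 hp2
      rw [hp2, Pi.mul_apply, hp1]

/-- Information carried by the noise before step `N`. -/
@[reducible] def xsig (V : Type*) (N : ℕ) : MeasurableSpace (V × ℕ → ℝ) :=
  ⨆ i ∈ {i : V × ℕ | i.2 < N}, MeasurableSpace.comap (fun x => x i) inferInstance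

theorem section_measurable {N : ℕ} {E : Type*} [MeasurableSpace E]
    {f : (V → Bool) × (V × ℕ → ℝ) → E} (hf : Measurable[past h N] f) (ω : V → Bool) :
    Measurable[xsig V N] (fun x => f (ω, x)) := by
  have h1 : @Measurable _ _ (xsig V N) (past h N) (fun x : V × ℕ → ℝ => (ω, x)) := by
    rw [measurable_iff_comap_le]
    unfold past sig
    simp only [MeasurableSpace.comap_iSup]
    apply iSup₂_le
    intro i hi
    rw [MeasurableSpace.comap_comp]
    have h2 : Measurable[xsig V N] (fun x : V × ℕ → ℝ => x i) := by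
      rw [measurable_iff_comap_le]
      exact le_iSup₂ (f := fun (i : V × ℕ) (_ : i ∈ {i : V × ℕ | i.2 < N}) =>
        MeasurableSpace.comap (fun x : V × ℕ → ℝ => x i) inferInstance) i hi
    have h3 : Measurable[xsig V N] (fun x : V × ℕ → ℝ => x i + (if ω i.1 then (h : ℝ) else 0)) :=
      h2.add_const _
    exact h3.comap_le
  exact hf.comp h1

theorem xsig_le (N : ℕ) : xsig V N ≤ (inferInstance : MeasurableSpace (V × ℕ → ℝ)) :=
  iSup₂_le fun i _ => (measurable_pi_apply i).comap_le

theorem integral_mul_exp (F : Finset V) (θ : V → ℝ) (N : ℕ)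
    (f : (V → Bool) × (V × ℕ → ℝ) → ℂ) (hf : Measurable f)
    (hf' : ∀ ω, Measurable[xsig V N] (fun x => f (ω, x))) (B : ℝ) (hB : ∀ p, ‖f p‖ ≤ B) :
    ∫ p, f p * Complex.exp (((∑ v ∈ F, θ v * p.2 (v, N) : ℝ) : ℂ) * Complex.I) ∂(law ν h) =
      (∫ p, f p ∂(law ν h)) * Complex.exp ((-(h / 2 * ∑ v ∈ F, θ v ^ 2) : ℝ)) := by
  have hme : Measurable (fun x : V × ℕ → ℝ =>
      Complex.exp (((∑ v ∈ F, θ v * x (v, N) : ℝ) : ℂ) * Complex.I)) := by fun_prop
  have hnorm : ∀ x : V × ℕ → ℝ,
      ‖Complex.exp (((∑ v ∈ F, θ v * x (v, N) : ℝ) : ℂ) * Complex.I)‖ = 1 := fun x =>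
    Complex.norm_exp_ofReal_mul_I _
  have hint : Integrable (fun p : (V → Bool) × (V × ℕ → ℝ) =>
      f p * Complex.exp (((∑ v ∈ F, θ v * p.2 (v, N) : ℝ) : ℂ) * Complex.I)) (law ν h) := by
    refine Integrable.of_bound (hf.mul (hme.comp measurable_snd)).aestronglyMeasurable B
      (Eventually.of_forall fun p => ?_)
    rw [norm_mul, hnorm, mul_one]
    exact hB p
  have hint' : Integrable f (law ν h) :=
    Integrable.of_bound hf.aestronglyMeasurable B (Eventually.of_forall hB)
  unfold law at hint hint' ⊢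
  rw [integral_prod _ hint, integral_prod _ hint', ← integral_mul_const]
  apply integral_congr_ae
  filter_upwards with ω
  -- independence
  have hindep : iIndepFun (fun (i : V × ℕ) (x : V × ℕ → ℝ) => x i) (gnoise (V × ℕ) h) := by
    unfold gnoise
    exact iIndepFun_infinitePi (X := fun _ x => x) (fun _ => measurable_id)
  have hI : Indep (xsig V N) (⨆ i ∈ {i : V × ℕ | i.2 = N},
      MeasurableSpace.comap (fun x : V × ℕ → ℝ => x i) inferInstance) (gnoise (V × ℕ) h) := by
    apply indep_iSup_of_disjoint (fun i => (measurable_pi_apply i).comap_le) hindep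
    rw [Set.disjoint_left]
    intro i hi hi'
    simp only [Set.mem_ofPred_eq] at hi hi'
    omega
  have hIF : IndepFun (fun x : V × ℕ → ℝ => f (ω, x)) (fun x : V × ℕ → ℝ =>
      Complex.exp (((∑ v ∈ F, θ v * x (v, N) : ℝ) : ℂ) * Complex.I)) (gnoise (V × ℕ) h) := by
    rw [IndepFun_iff_Indep]
    refine indep_of_indep_of_le_left (indep_of_indep_of_le_right hI ?_) (hf' ω).comap_le
    apply Measurable.comap_le
    refine Measurable.cexp ?_
    refine Measurable.mul_const ?_ _
    refine Complex.measurable_ofReal.comp ?_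
    refine Finset.measurable_sum _ fun v _ => ?_
    refine Measurable.const_mul ?_ _
    rw [measurable_iff_comap_le]
    exact le_iSup₂ (f := fun (i : V × ℕ) (_ : i ∈ {i : V × ℕ | i.2 = N}) =>
        MeasurableSpace.comap (fun x : V × ℕ → ℝ => x i) inferInstance) (v, N) rfl
  have hkey := hIF.integral_fun_comp_mul_comp (f := fun z : ℂ => z) (g := fun z : ℂ => z)
    (hf.comp (measurable_const.prodMk measurable_id)).aemeasurable hme.aemeasurable
    measurable_id.aestronglyMeasurable measurable_id.aestronglyMeasurable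
  rw [hkey]
  congr 1
  have hc := cf_gnoise (V × ℕ) h (F ×ˢ {N}) (fun i => θ i.1)
  unfold cf at hc
  simp only [sum_product, sum_singleton] at hc
  exact hc

/-- Weighted increments of the innovation process. -/
noncomputable def innov (K : V → ℕ → Finset V) (F : Finset V) (θ : ℕ → V → ℝ) (j : ℕ)
    (p : (V → Bool) × (V × ℕ → ℝ)) : ℝ :=
  ∑ v ∈ F, θ j v * (dY h p (v, j) - h * obsDrift ν h K v j p)

omit [IsProbabilityMeasure ν] in
theorem measurable_innov_past (K : V → ℕ → Finset V) (F : Finset V) (θ : ℕ → V → ℝ) {j N : ℕ}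
    (hj : j < N) : Measurable[past h N] (innov ν h K F θ j) := by
  unfold innov
  refine Finset.measurable_sum _ fun v _ => ?_
  refine Measurable.const_mul ?_ _
  refine Measurable.sub ?_ (Measurable.const_mul ?_ _)
  · exact measurable_dY_sig h (by simpa using hj)
  · exact (measurable_obsDrift ν h K v j).mono (past_mono h hj.le) le_rfl

omit [IsProbabilityMeasure ν] in
theorem measurable_sum_innov (K : V → ℕ → Finset V) (F : Finset V) (θ : ℕ → V → ℝ) (N : ℕ) :
    Measurable[past h N] (fun p => ∑ j ∈ range N, innov ν h K F θ j p) :=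
  Finset.measurable_sum _ fun _ hj => measurable_innov_past ν h K F θ (mem_range.1 hj)

/-- Characteristic functional of the discretised innovation process. -/
noncomputable def cfI (K : V → ℕ → Finset V) (F : Finset V) (θ : ℕ → V → ℝ) (N : ℕ) : ℂ :=
  ∫ p, Complex.exp (((∑ j ∈ range N, innov ν h K F θ j p : ℝ) : ℂ) * Complex.I) ∂(law ν h)

theorem cfI_step (hh : h ≠ 0) (K : V → ℕ → Finset V) (hK : ∀ v, Monotone (K v))
    (hKu : ∀ v u, ∃ n, u ∈ K v n) (F : Finset V) (θ : ℕ → V → ℝ) (N : ℕ) (L : ℝ)
    (hL : ∑ v ∈ F, |θ N v| ≤ L) (hhL : h * L ≤ 1) :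
    ‖cfI ν h K F θ (N + 1) - cfI ν h K F θ N * Complex.exp ((-(h / 2 * ∑ v ∈ F, θ N v ^ 2) : ℝ))‖
      ≤ (h * L) ^ 2 := by
  set G : (V → Bool) × (V × ℕ → ℝ) → ℂ := fun p =>
    Complex.exp (((∑ j ∈ range N, innov ν h K F θ j p : ℝ) : ℂ) * Complex.I) with hG
  set U : (V → Bool) × (V × ℕ → ℝ) → ℝ := fun p =>
    ∑ v ∈ F, θ N v * (ind v p - obsDrift ν h K v N p) with hU
  have hL0 : 0 ≤ L := (Finset.sum_nonneg fun _ _ => abs_nonneg _).trans hL
  have hGm : Measurable[past h N] G :=
    Complex.measurable_exp.comp ((Complex.measurable_ofReal.comp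
      (measurable_sum_innov ν h K F θ N)).mul_const _)
  have hGm' : Measurable G := hGm.mono (past_le h N) le_rfl
  have hGn : ∀ p, ‖G p‖ = 1 := fun p => Complex.norm_exp_ofReal_mul_I _
  have hUm : Measurable U := by
    refine Finset.measurable_sum _ fun v _ => ?_
    exact ((measurable_ind v).sub ((measurable_obsDrift ν h K v N).mono (past_le h N) le_rfl)).const_mul _
  have hUb : ∀ p, |U p| ≤ L := by
    intro p
    refine (Finset.abs_sum_le_sum_abs _ _).trans (le_trans (Finset.sum_le_sum fun v _ => ?_) hL)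
    rw [abs_mul]
    have h1 : |ind v p - obsDrift ν h K v N p| ≤ 1 := by
      rw [abs_le]
      have a1 := ind_nonneg v p
      have a2 := ind_le_one v p
      have a3 := obsDrift_mem ν h K v N p
      constructor <;> linarith [a3.1, a3.2]
    calc |θ N v| * |ind v p - obsDrift ν h K v N p| ≤ |θ N v| * 1 := by gcongr
      _ = |θ N v| := mul_one _
  -- step 1: factor the new noise out
  have e1 : cfI ν h K F θ (N + 1) = ∫ p, (G p * Complex.exp (((h * U p : ℝ) : ℂ) * Complex.I)) *
      Complex.exp (((∑ v ∈ F, θ N v * p.2 (v, N) : ℝ) : ℂ) * Complex.I) ∂(law ν h) := by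
    unfold cfI
    apply integral_congr_ae
    filter_upwards with p
    rw [sum_range_succ, hG]
    simp only
    rw [← Complex.exp_add, ← Complex.exp_add]
    congr 1
    rw [← add_mul, ← add_mul, ← Complex.ofReal_add, ← Complex.ofReal_add]
    congr 2
    rw [add_assoc]
    congr 1
    rw [hU]
    simp only [innov]
    rw [mul_sum, ← sum_add_distrib]
    apply sum_congr rfl
    intro v _
    simp only [dY, ind]
    split_ifs <;> ring
  have hbnd : ∀ p, ‖G p * Complex.exp (((h * U p : ℝ) : ℂ) * Complex.I)‖ ≤ 1 := by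
    intro p
    rw [norm_mul, hGn, Complex.norm_exp_ofReal_mul_I]; norm_num
  have hfm : Measurable (fun p => G p * Complex.exp (((h * U p : ℝ) : ℂ) * Complex.I)) :=
    hGm'.mul (Complex.measurable_exp.comp ((Complex.measurable_ofReal.comp
      (hUm.const_mul _)).mul_const _))
  have hfs : ∀ ω : V → Bool, Measurable[xsig V N]
      (fun x => G (ω, x) * Complex.exp (((h * U (ω, x) : ℝ) : ℂ) * Complex.I)) := by
    intro ω
    have a1 : Measurable[xsig V N] (fun x => G (ω, x)) := section_measurable h hGm ω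
    have a2 : ∀ v, Measurable[xsig V N] (fun x => obsDrift ν h K v N (ω, x)) := fun v =>
      section_measurable h (measurable_obsDrift ν h K v N) ω
    have a3 : Measurable[xsig V N] (fun x => U (ω, x)) := by
      refine Finset.measurable_sum _ fun v _ => ?_
      have : (fun x : V × ℕ → ℝ => θ N v * (ind v (ω, x) - obsDrift ν h K v N (ω, x))) =
          fun x : V × ℕ → ℝ => θ N v * ((if ω v then 1 else 0) - obsDrift ν h K v N (ω, x)) := rfl
      rw [this]
      exact Measurable.const_mul (Measurable.const_sub (a2 v) _) _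
    exact a1.mul (Complex.measurable_exp.comp ((Complex.measurable_ofReal.comp
      (a3.const_mul _)).mul_const _))
  rw [e1, integral_mul_exp ν h F (θ N) N _ hfm hfs 1 hbnd, ← sub_mul, norm_mul]
  have e2 : ‖Complex.exp ((-(h / 2 * ∑ v ∈ F, θ N v ^ 2) : ℝ))‖ ≤ 1 := by
    rw [Complex.norm_exp_ofReal]
    apply Real.exp_le_one_iff.2
    have : 0 ≤ (h : ℝ) / 2 * ∑ v ∈ F, θ N v ^ 2 := by positivity
    linarith
  -- step 2: the first-order term vanishes
  have hGint : Integrable G (law ν h) :=
    Integrable.of_bound hGm'.aestronglyMeasurable 1 (Eventually.of_forall fun p => (hGn p).le)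
  have hfint : Integrable (fun p => G p * Complex.exp (((h * U p : ℝ) : ℂ) * Complex.I)) (law ν h) :=
    Integrable.of_bound hfm.aestronglyMeasurable 1 (Eventually.of_forall hbnd)
  have hreal : ∀ g : (V → Bool) × (V × ℕ → ℝ) → ℝ, Measurable[past h N] g → (∀ p, |g p| ≤ 1) →
      ∫ p, U p * g p ∂(law ν h) = 0 := by
    intro g hg hgb
    have i1 : ∀ v, Integrable (fun p => ind v p * g p) (law ν h) := fun v => by
      refine Integrable.of_bound ((measurable_ind v).mul
        (hg.mono (past_le h N) le_rfl)).aestronglyMeasurable (1 * 1) (Eventually.of_forall fun p => ?_)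
      rw [Real.norm_eq_abs, abs_mul]
      exact mul_le_mul (abs_ind_le_one v p) (hgb p) (abs_nonneg _) zero_le_one
    have i2 : ∀ v, Integrable (fun p => obsDrift ν h K v N p * g p) (law ν h) := fun v => by
      refine Integrable.of_bound (((measurable_obsDrift ν h K v N).mul hg).mono
        (past_le h N) le_rfl).aestronglyMeasurable (1 * 1) (Eventually.of_forall fun p => ?_)
      rw [Real.norm_eq_abs, abs_mul]
      exact mul_le_mul (abs_obsDrift_le ν h K v N p) (hgb p) (abs_nonneg _) zero_le_one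
    have e3 : ∀ p, U p * g p = ∑ v ∈ F, θ N v * (ind v p * g p - obsDrift ν h K v N p * g p) := by
      intro p
      rw [hU]
      simp only
      rw [sum_mul]
      apply sum_congr rfl
      intro v _
      ring
    simp_rw [e3]
    rw [integral_finsetSum]
    · apply sum_eq_zero
      intro v _
      rw [integral_const_mul, integral_sub (i1 v) (i2 v),
        integral_ind_mul ν h hh K hK hKu v N g hg 1 hgb, sub_self, mul_zero]
    · intro v _
      exact ((i1 v).sub (i2 v)).const_mul _
  have hzero : ∫ p, (U p : ℂ) * G p ∂(law ν h) = 0 := by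
    have hre := hreal (fun p => (G p).re) (Complex.measurable_re.comp hGm) (fun p => by
      have := Complex.abs_re_le_norm (G p); rw [hGn] at this; exact this)
    have him := hreal (fun p => (G p).im) (Complex.measurable_im.comp hGm) (fun p => by
      have := Complex.abs_im_le_norm (G p); rw [hGn] at this; exact this)
    have hUG : Integrable (fun p => (U p : ℂ) * G p) (law ν h) := by
      refine Integrable.of_bound ((Complex.measurable_ofReal.comp hUm).mul
        hGm').aestronglyMeasurable L (Eventually.of_forall fun p => ?_)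
      rw [norm_mul, hGn, mul_one, Complex.norm_real]
      exact hUb p
    apply Complex.ext
    · have := integral_re hUG
      simp only [RCLike.re_eq_complex_re] at this
      rw [← this]
      simp only [Complex.re_ofReal_mul, Complex.zero_re]
      exact hre
    · have := integral_im hUG
      simp only [RCLike.im_eq_complex_im] at this
      rw [← this]
      simp only [Complex.im_ofReal_mul, Complex.zero_im]
      exact him
  have e4 : (∫ p, G p * Complex.exp (((h * U p : ℝ) : ℂ) * Complex.I) ∂(law ν h)) - cfI ν h K F θ N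
      = ∫ p, G p * (Complex.exp (((h * U p : ℝ) : ℂ) * Complex.I) - 1 -
        ((h * U p : ℝ) : ℂ) * Complex.I) ∂(law ν h) := by
    have hc : cfI ν h K F θ N = ∫ p, G p ∂(law ν h) := rfl
    have hz : ∫ p, G p * (((h * U p : ℝ) : ℂ) * Complex.I) ∂(law ν h) = 0 := by
      have : ∀ p, G p * (((h * U p : ℝ) : ℂ) * Complex.I) = ((h : ℂ) * Complex.I) * ((U p : ℂ) * G p) := by
        intro p; push_cast; ring
      simp_rw [this]
      rw [integral_const_mul, hzero, mul_zero]
    have hi3 : Integrable (fun p => G p * (((h * U p : ℝ) : ℂ) * Complex.I)) (law ν h) := by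
      refine Integrable.of_bound (hGm'.mul ((Complex.measurable_ofReal.comp
        (hUm.const_mul _)).mul_const _)).aestronglyMeasurable (h * L) (Eventually.of_forall fun p => ?_)
      rw [norm_mul, hGn, one_mul, norm_mul, Complex.norm_I, mul_one, Complex.norm_real,
        Real.norm_eq_abs, abs_mul, abs_of_nonneg h.coe_nonneg]
      exact mul_le_mul_of_nonneg_left (hUb p) h.coe_nonneg
    have : ∀ p, G p * (Complex.exp (((h * U p : ℝ) : ℂ) * Complex.I) - 1 -
        ((h * U p : ℝ) : ℂ) * Complex.I) = G p * Complex.exp (((h * U p : ℝ) : ℂ) * Complex.I) - G p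
          - G p * (((h * U p : ℝ) : ℂ) * Complex.I) := by intro p; ring
    simp_rw [this]
    have hs1 : Integrable (fun p => G p * Complex.exp (((h * U p : ℝ) : ℂ) * Complex.I) - G p)
      (law ν h) := hfint.sub hGint
    rw [integral_sub hs1 hi3, integral_sub hfint hGint, hz, sub_zero, hc]
  rw [e4]
  have e5 : ‖∫ p, G p * (Complex.exp (((h * U p : ℝ) : ℂ) * Complex.I) - 1 -
        ((h * U p : ℝ) : ℂ) * Complex.I) ∂(law ν h)‖ ≤ (h * L) ^ 2 := by
    refine (norm_integral_le_of_norm_le_const (C := (h * L) ^ 2) (Eventually.of_forall fun p => ?_)).trans ?_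
    · rw [norm_mul, hGn, one_mul]
      have hn : ‖((h * U p : ℝ) : ℂ) * Complex.I‖ ≤ h * L := by
        rw [norm_mul, Complex.norm_I, mul_one, Complex.norm_real, Real.norm_eq_abs, abs_mul,
          abs_of_nonneg h.coe_nonneg]
        exact mul_le_mul_of_nonneg_left (hUb p) h.coe_nonneg
      refine (Complex.norm_exp_sub_one_sub_id_le (hn.trans hhL)).trans ?_
      gcongr
    · simp
  calc _ ≤ (h * L) ^ 2 * 1 := mul_le_mul e5 e2 (norm_nonneg _) (by positivity)
    _ = (h * L) ^ 2 := mul_one _

theorem cfI_bound (hh : h ≠ 0) (K : V → ℕ → Finset V) (hK : ∀ v, Monotone (K v))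
    (hKu : ∀ v u, ∃ n, u ∈ K v n) (F : Finset V) (θ : ℕ → V → ℝ) (N : ℕ) (L : ℝ)
    (hL : ∀ j, ∑ v ∈ F, |θ j v| ≤ L) (hhL : h * L ≤ 1) :
    ‖cfI ν h K F θ N - Complex.exp ((-(h / 2 * ∑ j ∈ range N, ∑ v ∈ F, θ j v ^ 2) : ℝ))‖
      ≤ N * (h * L) ^ 2 := by
  induction N with
  | zero => simp [cfI]
  | succ N ih =>
    have h1 := cfI_step ν h hh K hK hKu F θ N L (hL N) hhL
    set e : ℂ := Complex.exp ((-(h / 2 * ∑ v ∈ F, θ N v ^ 2) : ℝ)) with he
    have he1 : ‖e‖ ≤ 1 := by
      rw [he, Complex.norm_exp_ofReal]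
      apply Real.exp_le_one_iff.2
      have : 0 ≤ (h : ℝ) / 2 * ∑ v ∈ F, θ N v ^ 2 := by positivity
      linarith
    have h2 : Complex.exp ((-(h / 2 * ∑ j ∈ range (N + 1), ∑ v ∈ F, θ j v ^ 2) : ℝ)) =
        Complex.exp ((-(h / 2 * ∑ j ∈ range N, ∑ v ∈ F, θ j v ^ 2) : ℝ)) * e := by
      rw [he, ← Complex.exp_add, sum_range_succ]
      congr 1
      push_cast
      ring
    rw [h2]
    calc _ = ‖(cfI ν h K F θ (N + 1) - cfI ν h K F θ N * e) + (cfI ν h K F θ N -
          Complex.exp ((-(h / 2 * ∑ j ∈ range N, ∑ v ∈ F, θ j v ^ 2) : ℝ))) * e‖ := by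
          congr 1; ring
      _ ≤ (h * L) ^ 2 + (N * (h * L) ^ 2) * 1 := by
          refine (norm_add_le _ _).trans (add_le_add h1 ?_)
          rw [norm_mul]
          exact mul_le_mul ih he1 (norm_nonneg _) (by positivity)
      _ = ((N + 1 : ℕ) : ℝ) * (h * L) ^ 2 := by push_cast; ring

/-- Second moment identity of the drift martingale. -/
theorem integral_sq_diff (hh : h ≠ 0) (K : V → ℕ → Finset V) (hK : ∀ v, Monotone (K v))
    (hKu : ∀ v u, ∃ n, u ∈ K v n) (v : V) {i j : ℕ} (hij : i ≤ j) :
    ∫ p, (obsDrift ν h K v j p - obsDrift ν h K v i p) ^ 2 ∂(law ν h) =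
      ∫ p, obsDrift ν h K v j p ^ 2 ∂(law ν h) - ∫ p, obsDrift ν h K v i p ^ 2 ∂(law ν h) := by
  have mi : Measurable[past h i] (obsDrift ν h K v i) := measurable_obsDrift ν h K v i
  have mij : Measurable[past h j] (obsDrift ν h K v i) := mi.mono (past_mono h hij) le_rfl
  have mj : Measurable[past h j] (obsDrift ν h K v j) := measurable_obsDrift ν h K v j
  have b : ∀ k p, |obsDrift ν h K v k p| ≤ 1 := fun k p => abs_obsDrift_le ν h K v k p
  have e1 := integral_ind_mul ν h hh K hK hKu v j (obsDrift ν h K v i) mij 1 (b i)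
  have e2 := integral_ind_mul ν h hh K hK hKu v i (obsDrift ν h K v i) mi 1 (b i)
  have hj2 : Integrable (fun p => obsDrift ν h K v j p ^ 2) (law ν h) :=
    integrable_of_past ν h (mj.pow_const 2) (B := 1) (fun p => by
      rw [abs_pow]; exact pow_le_one₀ (abs_nonneg _) (b j p))
  have hi2 : Integrable (fun p => obsDrift ν h K v i p ^ 2) (law ν h) :=
    integrable_of_past ν h (mi.pow_const 2) (B := 1) (fun p => by
      rw [abs_pow]; exact pow_le_one₀ (abs_nonneg _) (b i p))
  have hij' : Integrable (fun p => obsDrift ν h K v j p * obsDrift ν h K v i p) (law ν h) :=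
    integrable_of_past ν h (mj.mul mij) (B := 1) (fun p => by
      rw [abs_mul]; exact mul_le_one₀ (b j p) (abs_nonneg _) (b i p))
  have e3 : ∀ p, (obsDrift ν h K v j p - obsDrift ν h K v i p) ^ 2 =
      obsDrift ν h K v j p ^ 2 - 2 * (obsDrift ν h K v j p * obsDrift ν h K v i p) +
        obsDrift ν h K v i p ^ 2 := by intro p; ring
  simp_rw [e3]
  have hs1 : Integrable (fun p => obsDrift ν h K v j p ^ 2 -
    2 * (obsDrift ν h K v j p * obsDrift ν h K v i p)) (law ν h) := hj2.sub (hij'.const_mul 2)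
  rw [integral_add hs1 hi2, integral_sub hj2 (hij'.const_mul 2),
    integral_const_mul, ← e1, e2]
  have e4 : ∫ p, obsDrift ν h K v i p * obsDrift ν h K v i p ∂(law ν h) =
      ∫ p, obsDrift ν h K v i p ^ 2 ∂(law ν h) := by
    apply integral_congr_ae
    filter_upwards with p
    ring
  rw [e4]
  ring

end Crest.Agent.R168
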