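import Crest.Agent.R168.CF

/-!
Row 168: Gaussian noise on dyadic times, in the coordinates of independent standard Gaussians.
-/

set_option autoImplicit false
open MeasureTheory ProbabilityTheory Finset
open scoped NNReal ENNReal

namespace Crest.Agent.R168

/-- Increments of the path coded by `ζ` on the grid of mesh `2 ^ (-k)`. -/
noncomputable def incr (ζ : ℕ × ℕ → ℝ) : ℕ → ℕ → ℝ
  | 0, j => ζ (0, j)
  | k + 1, j => incr ζ k (j / 2) / 2 + (-1) ^ j * (√2)⁻¹ ^ (k + 2) * ζ (k + 1, j / 2)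

/-- Value at time `j / 2 ^ k` of the path coded by `ζ`. -/
noncomputable def path (ζ : ℕ × ℕ → ℝ) (k j : ℕ) : ℝ := ∑ i ∈ range j, incr ζ k i

/-- The code of a path `b` (`b k j` is the value at time `j / 2 ^ k`). -/
noncomputable def noiseOf (b : ℕ → ℕ → ℝ) : ℕ × ℕ → ℝ
  | (0, j) => b 0 (j + 1) - b 0 j
  | (k + 1, j) => (√2) ^ (k + 2) *
      ((b (k + 1) (2 * j + 1) - b (k + 1) (2 * j)) - (b (k + 1) (2 * j + 2) - b (k + 1) (2 * j + 1))) / 2

theorem incr_zero (ζ : ℕ × ℕ → ℝ) (j : ℕ) : incr ζ 0 j = ζ (0, j) := rfl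

theorem incr_succ_even (ζ : ℕ × ℕ → ℝ) (k j : ℕ) :
    incr ζ (k + 1) (2 * j) = incr ζ k j / 2 + (√2)⁻¹ ^ (k + 2) * ζ (k + 1, j) := by
  rw [incr]
  have h : 2 * j / 2 = j := by omega
  rw [h, pow_mul]
  norm_num

theorem incr_succ_odd (ζ : ℕ × ℕ → ℝ) (k j : ℕ) :
    incr ζ (k + 1) (2 * j + 1) = incr ζ k j / 2 - (√2)⁻¹ ^ (k + 2) * ζ (k + 1, j) := by
  rw [incr]
  have h : (2 * j + 1) / 2 = j := by omega
  rw [h, pow_succ, pow_mul]
  norm_num
  ring

theorem sum_range_two_mul (f : ℕ → ℝ) (n : ℕ) :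
    ∑ i ∈ range (2 * n), f i = ∑ i ∈ range n, (f (2 * i) + f (2 * i + 1)) := by
  induction n with
  | zero => simp
  | succ n ih =>
    rw [show 2 * (n + 1) = 2 * n + 1 + 1 by ring, sum_range_succ, sum_range_succ, ih,
      sum_range_succ]
    ring

theorem path_zero (ζ : ℕ × ℕ → ℝ) (k : ℕ) : path ζ k 0 = 0 := by simp [path]

theorem path_succ_two_mul (ζ : ℕ × ℕ → ℝ) (k j : ℕ) : path ζ (k + 1) (2 * j) = path ζ k j := by
  unfold path
  rw [sum_range_two_mul]
  apply sum_congr rfl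
  intro i _
  rw [incr_succ_even, incr_succ_odd]
  ring

theorem path_add (ζ : ℕ × ℕ → ℝ) (k l j : ℕ) : path ζ (k + l) (j * 2 ^ l) = path ζ k j := by
  induction l with
  | zero => simp
  | succ l ih =>
    rw [show k + (l + 1) = (k + l) + 1 by ring, show j * 2 ^ (l + 1) = 2 * (j * 2 ^ l) by ring,
      path_succ_two_mul, ih]

theorem path_sub (ζ : ℕ × ℕ → ℝ) (k j : ℕ) : path ζ k (j + 1) - path ζ k j = incr ζ k j := by
  unfold path
  rw [sum_range_succ]; ring

theorem sqrt_two_mul_inv (n : ℕ) : (√2 : ℝ) ^ n * (√2)⁻¹ ^ n = 1 := by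
  rw [← mul_pow, mul_inv_cancel₀ (by positivity), one_pow]

/-- Coding and decoding a consistent path. -/
theorem incr_noiseOf (b : ℕ → ℕ → ℝ) (hb : ∀ k j, b (k + 1) (2 * j) = b k j) (k j : ℕ) :
    incr (noiseOf b) k j = b k (j + 1) - b k j := by
  induction k generalizing j with
  | zero => rfl
  | succ k ih =>
    obtain ⟨i, hi | hi⟩ : ∃ i, j = 2 * i ∨ j = 2 * i + 1 := ⟨j / 2, by omega⟩
    · subst hi
      rw [incr_succ_even, ih, noiseOf]
      have h1 := hb k i
      have h2 := hb k (i + 1)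
      rw [show 2 * (i + 1) = 2 * i + 2 by ring] at h2
      have h3 := sqrt_two_mul_inv (k + 2)
      rw [← h1, ← h2]
      linear_combination ((b (k + 1) (2 * i + 1) - b (k + 1) (2 * i)) - (b (k + 1) (2 * i + 2) - b (k + 1) (2 * i + 1))) / 2 * h3
    · subst hi
      rw [incr_succ_odd, ih, noiseOf]
      have h1 := hb k i
      have h2 := hb k (i + 1)
      rw [show 2 * (i + 1) = 2 * i + 2 by ring] at h2
      have h3 := sqrt_two_mul_inv (k + 2)
      rw [← h1, ← h2, show 2 * i + 1 + 1 = 2 * i + 2 by ring]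
      linear_combination -((b (k + 1) (2 * i + 1) - b (k + 1) (2 * i)) - (b (k + 1) (2 * i + 2) - b (k + 1) (2 * i + 1))) / 2 * h3

theorem path_noiseOf (b : ℕ → ℕ → ℝ) (hb : ∀ k j, b (k + 1) (2 * j) = b k j)
    (hb0 : ∀ k, b k 0 = 0) (k j : ℕ) : path (noiseOf b) k j = b k j := by
  unfold path
  induction j with
  | zero => simp [hb0]
  | succ j ih => rw [sum_range_succ, ih, incr_noiseOf b hb]; ring

theorem noiseOf_path (ζ : ℕ × ℕ → ℝ) : noiseOf (path ζ) = ζ := by
  ext ⟨k, j⟩
  cases k with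
  | zero => rw [noiseOf, path_sub, incr_zero]
  | succ k =>
    rw [noiseOf, show 2 * j + 2 = 2 * j + 1 + 1 by ring, path_sub, path_sub, incr_succ_even,
      incr_succ_odd]
    have h3 := sqrt_two_mul_inv (k + 2)
    linear_combination ζ (k + 1, j) * h3

/-- A finite combination of increments is a combination of coordinates with the right norm. -/
theorem exists_coeff (k : ℕ) : ∀ (θ : ℕ → ℝ) (n : ℕ), ∃ (c : ℕ × ℕ → ℝ) (J : Finset (ℕ × ℕ)),
    (∀ ζ : ℕ × ℕ → ℝ, ∑ j ∈ range n, θ j * incr ζ k j = ∑ p ∈ J, c p * ζ p) ∧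
      (∑ p ∈ J, c p ^ 2 = (1 / 2) ^ k * ∑ j ∈ range n, θ j ^ 2) ∧ ∀ p ∈ J, p.1 ≤ k := by
  classical
  induction k with
  | zero =>
    intro θ n
    refine ⟨fun p => θ p.2, {0} ×ˢ range n, ?_, ?_, ?_⟩
    · intro ζ
      rw [sum_product]
      simp [incr_zero]
    · rw [sum_product]
      simp
    · intro p hp
      rw [mem_product, mem_singleton] at hp
      omega
  | succ k ih =>
    -- even length first
    have even : ∀ (θ : ℕ → ℝ) (m : ℕ), ∃ (c : ℕ × ℕ → ℝ) (J : Finset (ℕ × ℕ)),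
        (∀ ζ : ℕ × ℕ → ℝ, ∑ j ∈ range (2 * m), θ j * incr ζ (k + 1) j = ∑ p ∈ J, c p * ζ p) ∧
        (∑ p ∈ J, c p ^ 2 = (1 / 2) ^ (k + 1) * ∑ j ∈ range (2 * m), θ j ^ 2) ∧
        ∀ p ∈ J, p.1 ≤ k + 1 := by
      intro θ m
      obtain ⟨c₀, J₀, h1, h2, h3⟩ := ih (fun j => (θ (2 * j) + θ (2 * j + 1)) / 2) m
      have hdisj : Disjoint J₀ ({k + 1} ×ˢ range m) := by
        rw [Finset.disjoint_left]
        intro p hp hp'
        have := h3 p hp
        rw [mem_product, mem_singleton] at hp'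
        omega
      have hne : ∀ p ∈ J₀, p.1 ≠ k + 1 := fun p hp => by have := h3 p hp; omega
      refine ⟨fun p => if p.1 = k + 1 then (√2)⁻¹ ^ (k + 2) * (θ (2 * p.2) - θ (2 * p.2 + 1)) else c₀ p,
        J₀ ∪ ({k + 1} ×ˢ range m), ?_, ?_, ?_⟩
      · intro ζ
        rw [sum_range_two_mul, sum_union hdisj, sum_product]
        have e1 : ∑ x ∈ J₀, (if x.1 = k + 1 then (√2)⁻¹ ^ (k + 2) * (θ (2 * x.2) - θ (2 * x.2 + 1)) else c₀ x) * ζ x
            = ∑ x ∈ J₀, c₀ x * ζ x := by
          apply sum_congr rfl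
          intro p hp
          rw [if_neg (hne p hp)]
        rw [e1, ← h1 ζ]
        simp only [sum_singleton, if_true]
        rw [← sum_add_distrib]
        apply sum_congr rfl
        intro j _
        rw [incr_succ_even, incr_succ_odd]
        ring
      · rw [sum_range_two_mul, sum_union hdisj, sum_product]
        have e1 : ∑ x ∈ J₀, (if x.1 = k + 1 then (√2)⁻¹ ^ (k + 2) * (θ (2 * x.2) - θ (2 * x.2 + 1)) else c₀ x) ^ 2
            = ∑ x ∈ J₀, c₀ x ^ 2 := by
          apply sum_congr rfl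
          intro p hp
          rw [if_neg (hne p hp)]
        rw [e1, h2]
        simp only [sum_singleton, if_true]
        rw [mul_sum, mul_sum, ← sum_add_distrib]
        apply sum_congr rfl
        intro j _
        have h4 : ((√2 : ℝ)⁻¹ ^ (k + 2)) ^ 2 = (1 / 2) ^ (k + 2) := by
          rw [← pow_mul, mul_comm, pow_mul, inv_pow, Real.sq_sqrt (by norm_num)]
          norm_num
        rw [mul_pow, h4]
        ring
      · intro p hp
        rw [mem_union] at hp
        rcases hp with hp | hp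
        · have := h3 p hp; omega
        · rw [mem_product, mem_singleton] at hp; omega
    intro θ n
    obtain ⟨c, J, h1, h2, h3⟩ := even (fun j => if j < n then θ j else 0) n
    refine ⟨c, J, ?_, ?_, h3⟩
    · intro ζ
      rw [← h1 ζ]
      rw [← sum_subset (show range n ⊆ range (2 * n) from range_subset_range.2 (by omega))]
      · apply sum_congr rfl
        intro j hj
        rw [if_pos (mem_range.1 hj)]
      · intro j _ hj
        rw [if_neg (by simpa using hj), zero_mul]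
    · rw [h2]
      congr 1
      rw [← sum_subset (show range n ⊆ range (2 * n) from range_subset_range.2 (by omega))]
      · apply sum_congr rfl
        intro j hj
        rw [if_pos (mem_range.1 hj)]
      · intro j _ hj
        rw [if_neg (by simpa using hj)]
        norm_num

theorem measurable_incr (k j : ℕ) : Measurable (fun ζ : ℕ × ℕ → ℝ => incr ζ k j) := by
  induction k generalizing j with
  | zero => exact measurable_pi_apply _
  | succ k ih =>
    simp only [incr]
    exact ((ih _).div_const _).add ((measurable_pi_apply _).const_mul _)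

theorem measurable_path (k j : ℕ) : Measurable (fun ζ : ℕ × ℕ → ℝ => path ζ k j) := by
  unfold path
  exact Finset.measurable_sum _ fun i _ => measurable_incr k i

theorem measurable_noiseOf : Measurable (noiseOf : (ℕ → ℕ → ℝ) → ℕ × ℕ → ℝ) := by
  rw [measurable_pi_iff]
  rintro ⟨k, j⟩
  cases k with
  | zero => simp only [noiseOf]; fun_prop
  | succ k => simp only [noiseOf]; fun_prop

/-- The mesh `2 ^ (-k)`. -/
noncomputable def mesh (k : ℕ) : ℝ≥0 := (1 / 2) ^ k

theorem coe_mesh (k : ℕ) : ((mesh k : ℝ≥0) : ℝ) = (1 / 2) ^ k := by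
  simp [mesh]

theorem mesh_pos (k : ℕ) : (0 : ℝ) < mesh k := by
  rw [coe_mesh]; positivity

/-- The increments at level `k` at one site are iid centered Gaussians of variance `2 ^ (-k)`. -/
theorem map_incr_site (k : ℕ) :
    (gnoise (ℕ × ℕ) 1).map (fun ζ j => incr ζ k j) = gnoise ℕ (mesh k) := by
  have hm : Measurable (fun (ζ : ℕ × ℕ → ℝ) j => incr ζ k j) :=
    measurable_pi_iff.2 fun j => measurable_incr k j
  have : IsProbabilityMeasure ((gnoise (ℕ × ℕ) 1).map (fun ζ j => incr ζ k j)) :=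
    Measure.isProbabilityMeasure_map hm.aemeasurable
  apply ext_of_cf
  intro I θ
  rw [cf_map _ _ hm, cf_gnoise]
  obtain ⟨n, hn⟩ : ∃ n, I ⊆ range n := ⟨I.sup id + 1, fun i hi => by
    rw [mem_range]; exact Nat.lt_succ_of_le (le_sup (f := id) hi)⟩
  obtain ⟨c, J, h1, h2, -⟩ := exists_coeff k (fun j => if j ∈ I then θ j else 0) n
  have e1 : ∀ f : ℕ → ℝ, ∑ j ∈ range n, (if j ∈ I then θ j else 0) * f j = ∑ j ∈ I, θ j * f j := by
    intro f
    rw [← sum_subset hn]
    · apply sum_congr rfl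
      intro j hj
      rw [if_pos hj]
    · intro j _ hj
      rw [if_neg hj, zero_mul]
  have e2 : ∑ j ∈ range n, (if j ∈ I then θ j else 0) ^ 2 = ∑ j ∈ I, θ j ^ 2 := by
    rw [← sum_subset hn]
    · apply sum_congr rfl
      intro j hj
      rw [if_pos hj]
    · intro j _ hj
      rw [if_neg hj]; norm_num
  have h3 := cf_gnoise (ℕ × ℕ) 1 J c
  unfold cf at h3
  simp_rw [← h1, e1] at h3
  rw [h3, h2, e2, coe_mesh]
  congr 2
  push_cast
  ring

end Crest.Agent.R168
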