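import Crest.Agent.R168.CondExp
import Crest.Agent.R168.Noise
import Crest.Agent.R168.Limsup

/-!
Row 168: the deterministic integral equation in the sup norm on dyadic times.
-/

set_option autoImplicit false
open MeasureTheory ProbabilityTheory Finset Filter
open scoped NNReal ENNReal Topology

namespace Crest.Agent.R168

variable {V : Type*}

/-- Upper limit of the left Riemann sums on refining dyadic grids. -/
noncomputable def rie (f : ℕ → ℕ → ℝ) (k j : ℕ) : ℝ :=
  limsup (fun l => ∑ i ∈ range (j * 2 ^ l), mesh (k + l) * f (k + l) i) atTop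

/-- Picard iterates. -/
noncomputable def pic (m : V → ℝ → (V → ℝ) → ℝ) (b : V → ℕ → ℕ → ℝ) : ℕ → V → ℕ → ℕ → ℝ
  | 0, _, _, _ => 0
  | n + 1, v, k, j =>
      rie (fun k i => m v (i * mesh k) (fun u => b u k i + pic m b n u k i)) k j

theorem mesh_add (k l : ℕ) : (mesh (k + l) : ℝ) * 2 ^ l = mesh k := by
  rw [coe_mesh, coe_mesh, pow_add, mul_assoc, ← mul_pow]
  norm_num

theorem rie_bound {f : ℕ → ℕ → ℝ} {B : ℝ} (hf : ∀ k i, |f k i| ≤ B) (k j l : ℕ) :
    |∑ i ∈ range (j * 2 ^ l), (mesh (k + l) : ℝ) * f (k + l) i| ≤ j * mesh k * B := by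
  calc |∑ i ∈ range (j * 2 ^ l), (mesh (k + l) : ℝ) * f (k + l) i|
      ≤ ∑ i ∈ range (j * 2 ^ l), (mesh (k + l) : ℝ) * B := by
        refine (Finset.abs_sum_le_sum_abs _ _).trans (Finset.sum_le_sum fun i _ => ?_)
        rw [abs_mul, abs_of_pos (mesh_pos _)]
        exact mul_le_mul_of_nonneg_left (hf _ _) (mesh_pos _).le
    _ = j * mesh k * B := by
        rw [sum_const, card_range, nsmul_eq_mul]
        push_cast
        rw [← mesh_add k l]
        ring

theorem abs_rie_le {f : ℕ → ℕ → ℝ} {B : ℝ} (hf : ∀ k i, |f k i| ≤ B) (k j : ℕ) :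
    |rie f k j| ≤ j * mesh k * B := by
  have h := limsup_mem_Icc (a := fun l => ∑ i ∈ range (j * 2 ^ l), (mesh (k + l) : ℝ) * f (k + l) i)
    (fun l => (abs_le.1 (rie_bound hf k j l)).1) (fun l => (abs_le.1 (rie_bound hf k j l)).2)
  exact abs_le.2 h

theorem pow_add_le (a h : ℝ) (ha : 0 ≤ a) (hh : 0 ≤ h) (n : ℕ) :
    a ^ (n + 1) + (n + 1) * a ^ n * h ≤ (a + h) ^ (n + 1) := by
  induction n with
  | zero => simp
  | succ n ih =>
    have h1 : a ^ (n + 1) ≤ (a + h) ^ (n + 1) := by gcongr; linarith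
    calc a ^ (n + 1 + 1) + ((n + 1 : ℕ) + 1) * a ^ (n + 1) * h
        = a * (a ^ (n + 1) + (n + 1) * a ^ n * h) + h * a ^ (n + 1) := by push_cast; ring
      _ ≤ a * (a + h) ^ (n + 1) + h * (a + h) ^ (n + 1) := by gcongr
      _ = (a + h) ^ (n + 1 + 1) := by ring

theorem sum_pow_le (h : ℝ) (hh : 0 ≤ h) (n m : ℕ) :
    ∑ i ∈ range m, h * ((i * h) ^ n) ≤ (m * h) ^ (n + 1) / (n + 1) := by
  induction m with
  | zero => simp
  | succ m ih =>
    rw [sum_range_succ]
    have h1 := pow_add_le (m * h) h (by positivity) hh n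
    have h2 : ((m + 1 : ℕ) : ℝ) * h = m * h + h := by push_cast; ring
    rw [h2, le_div_iff₀ (by positivity)]
    rw [le_div_iff₀ (by positivity)] at ih
    linarith [h1, ih, show (∑ i ∈ range m, h * (↑i * h) ^ n + h * (↑m * h) ^ n) * (↑n + 1) =
      (∑ i ∈ range m, h * (↑i * h) ^ n) * (↑n + 1) + (n + 1) * (m * h) ^ n * h by ring]

/-- Uniqueness for the integral equation: a solution is the limit of the Picard iterates. -/
theorem abs_sub_pic_le (m : V → ℝ → (V → ℝ) → ℝ) (hm : ∀ v t y, |m v t y| ≤ 1) (C : ℝ) (hC : 0 ≤ C)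
    (hLip : ∀ v t y y' c, 0 ≤ c → (∀ u, |y u - y' u| ≤ c) → |m v t y - m v t y'| ≤ C * c)
    (b : V → ℕ → ℕ → ℝ) (A : V → ℕ → ℕ → ℝ)
    (hA : ∀ v k j, A v k j = rie (fun k i => m v (i * mesh k) (fun u => b u k i + A u k i)) k j)
    (n : ℕ) : ∀ v k j, |A v k j - pic m b n v k j| ≤
      C ^ n * (j * mesh k) ^ (n + 1) / (n + 1).factorial := by
  induction n with
  | zero =>
    intro v k j
    rw [pic, sub_zero, hA]
    have := abs_rie_le (f := fun k i => m v (i * mesh k) (fun u => b u k i + A u k i))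
      (fun k i => hm _ _ _) k j
    simpa using this
  | succ n ih =>
    intro v k j
    rw [pic, hA v k j]
    unfold rie
    refine abs_limsup_sub_le
      (fun l => rie_bound (B := 1) (f := fun k i => m v (i * mesh k) (fun u => b u k i + A u k i))
        (fun k i => hm _ _ _) k j l)
      (fun l => rie_bound (B := 1)
        (f := fun k i => m v (i * mesh k) (fun u => b u k i + pic m b n u k i))
        (fun k i => hm _ _ _) k j l) ?_
    intro l
    rw [← sum_sub_distrib]
    calc |∑ i ∈ range (j * 2 ^ l), ((mesh (k + l) : ℝ) * m v (i * mesh (k + l))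
            (fun u => b u (k + l) i + A u (k + l) i) - (mesh (k + l) : ℝ) * m v (i * mesh (k + l))
            (fun u => b u (k + l) i + pic m b n u (k + l) i))|
        ≤ ∑ i ∈ range (j * 2 ^ l), (mesh (k + l) : ℝ) *
            (C * (C ^ n * (i * mesh (k + l)) ^ (n + 1) / (n + 1).factorial)) := by
          refine (Finset.abs_sum_le_sum_abs _ _).trans (Finset.sum_le_sum fun i _ => ?_)
          rw [← mul_sub, abs_mul, abs_of_pos (mesh_pos _)]
          refine mul_le_mul_of_nonneg_left ?_ (mesh_pos _).le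
          apply hLip
          · have := mesh_pos (k + l)
            positivity
          · intro u
            have := ih u (k + l) i
            rw [add_sub_add_left_eq_sub]
            exact this
      _ = C ^ (n + 1) / (n + 1).factorial * ∑ i ∈ range (j * 2 ^ l), (mesh (k + l) : ℝ) *
            ((i * mesh (k + l)) ^ (n + 1)) := by
          rw [mul_sum]
          apply sum_congr rfl
          intro i _
          ring
      _ ≤ C ^ (n + 1) / (n + 1).factorial *
            (((j * 2 ^ l : ℕ) * mesh (k + l)) ^ (n + 1 + 1) / ((n + 1 : ℕ) + 1)) := by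
          refine mul_le_mul_of_nonneg_left ?_ (by positivity)
          exact sum_pow_le (mesh (k + l)) (mesh_pos _).le (n + 1) (j * 2 ^ l)
      _ = C ^ (n + 1) * (j * mesh k) ^ (n + 1 + 1) / (n + 1 + 1).factorial := by
          have e : (((j * 2 ^ l : ℕ) : ℝ) * mesh (k + l)) = j * mesh k := by
            rw [← mesh_add k l]; push_cast; ring
          rw [e, Nat.factorial_succ (n + 1)]
          push_cast
          field_simp

theorem pic_tendsto (m : V → ℝ → (V → ℝ) → ℝ) (hm : ∀ v t y, |m v t y| ≤ 1) (C : ℝ) (hC : 0 ≤ C)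
    (hLip : ∀ v t y y' c, 0 ≤ c → (∀ u, |y u - y' u| ≤ c) → |m v t y - m v t y'| ≤ C * c)
    (b : V → ℕ → ℕ → ℝ) (A : V → ℕ → ℕ → ℝ)
    (hA : ∀ v k j, A v k j = rie (fun k i => m v (i * mesh k) (fun u => b u k i + A u k i)) k j)
    (v : V) (k j : ℕ) : Tendsto (fun n => pic m b n v k j) atTop (𝓝 (A v k j)) := by
  rw [tendsto_iff_dist_tendsto_zero]
  have h1 : Tendsto (fun n : ℕ => j * mesh k * ((C * (j * mesh k)) ^ n / (n.factorial : ℝ))) atTop
      (𝓝 (j * mesh k * 0)) :=
    (FloorSemiring.tendsto_pow_div_factorial_atTop (C * (j * mesh k))).const_mul _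
  rw [mul_zero] at h1
  refine squeeze_zero (fun n => dist_nonneg) (fun n => ?_) h1
  rw [dist_comm, Real.dist_eq]
  refine (abs_sub_pic_le m hm C hC hLip b A hA n v k j).trans ?_
  have hm0 := mesh_pos k
  have h2 : (n.factorial : ℝ) ≤ ((n + 1).factorial : ℝ) := by
    exact_mod_cast Nat.factorial_le (Nat.le_succ n)
  calc C ^ n * (j * mesh k) ^ (n + 1) / ((n + 1).factorial : ℝ)
      ≤ C ^ n * (j * mesh k) ^ (n + 1) / (n.factorial : ℝ) := by
        apply div_le_div_of_nonneg_left _ _ h2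
        · positivity
        · exact_mod_cast Nat.factorial_pos n
    _ = j * mesh k * ((C * (j * mesh k)) ^ n / (n.factorial : ℝ)) := by
        rw [mul_pow, pow_succ]; ring

/-- The accumulated drift, as a function of the driving path. -/
noncomputable def zed (δ : Data V) (b : V → ℕ → ℕ → ℝ) (v : V) (k j : ℕ) : ℝ :=
  limsup (fun n => pic (mdr δ) b n v k j) atTop

open Classical in
/-- The factor map. -/
noncomputable def Psi (δ : Data V) (ξ : V → ℕ × ℕ → ℝ) (v : V) : Bool :=
  decide (1 / 2 < limsup (fun k : ℕ =>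
    (path (ξ v) 0 (4 ^ k) + zed δ (fun u => path (ξ u)) v 0 (4 ^ k)) / 4 ^ k) atTop)

theorem mdr_lip (δ : Data V) (hq : ∀ F S, 0 ≤ δ.1 F S) (C : ℝ)
    (hLip : ∀ v n, DriftLip (δ.1 (δ.2 v n)) (δ.2 v n) v C) (v : V) (t : ℝ) (y y' : V → ℝ) (c : ℝ)
    (hc : 0 ≤ c) (hy : ∀ u, |y u - y' u| ≤ c) : |mdr δ v t y - mdr δ v t y'| ≤ C * c := by
  unfold mdr
  have hb : ∀ (y : V → ℝ) n, |drift (δ.1 (δ.2 v n)) (δ.2 v n) v y| ≤ 1 := by
    intro y n
    rw [abs_of_nonneg (drift_nonneg (fun S _ => hq _ S) v y)]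
    exact drift_le_one (fun S _ => hq _ S) v y
  refine abs_limsup_sub_le (fun n => hb _ n) (fun n => hb _ n) ?_
  intro n
  apply hLip v n _ _ c hc
  intro i _
  rw [sub_sub_sub_cancel_right]
  exact hy i

theorem abs_mdr_le (δ : Data V) (hq : ∀ F S, 0 ≤ δ.1 F S) (v : V) (t : ℝ) (y : V → ℝ) :
    |mdr δ v t y| ≤ 1 := by
  unfold mdr
  have h := limsup_mem_Icc (a := fun n => drift (δ.1 (δ.2 v n)) (δ.2 v n) v (fun u => y u - t / 2))
    (fun n => drift_nonneg (fun S _ => hq _ S) v _) (fun n => drift_le_one (fun S _ => hq _ S) v _)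
  rw [abs_of_nonneg h.1]
  exact h.2

end Crest.Agent.R168
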