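import Crest.Agent.R168.Innov
import Crest.Agent.R168.Picard

/-!
Row 168: the innovation process has the law of the noise.
-/

set_option autoImplicit false
open MeasureTheory ProbabilityTheory Finset Filter
open scoped NNReal ENNReal Topology

namespace Crest.Agent.R168

variable {V : Type*}

/-- Independent Gaussian noise at every site. -/
noncomputable def noiseLaw (V : Type*) : Measure (V → ℕ × ℕ → ℝ) :=
  Measure.infinitePi (fun _ : V => gnoise (ℕ × ℕ) 1)

instance : IsProbabilityMeasure (noiseLaw V) := by unfold noiseLaw; infer_instance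

/-- Increments at level `k` of the noise at all sites. -/
noncomputable def lev (k : ℕ) (ξ : V → ℕ × ℕ → ℝ) (i : V × ℕ) : ℝ := incr (ξ i.1) k i.2

theorem measurable_lev (k : ℕ) : Measurable (lev k : (V → ℕ × ℕ → ℝ) → V × ℕ → ℝ) := by
  rw [measurable_pi_iff]
  intro i
  exact (measurable_incr k i.2).comp (measurable_pi_apply i.1)

theorem map_lev (k : ℕ) : (noiseLaw V).map (lev k) = gnoise (V × ℕ) (mesh k) := by
  have h1 := Measure.infinitePi_map_pi (μ := fun _ : V => gnoise (ℕ × ℕ) 1)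
    (f := fun (_ : V) (ζ : ℕ × ℕ → ℝ) (j : ℕ) => incr ζ k j)
    (fun _ => measurable_pi_iff.2 fun j => measurable_incr k j)
  simp_rw [map_incr_site k] at h1
  have h2 := Measure.infinitePi_map_curry_symm (fun (_ : V) (_ : ℕ) => gaussianReal 0 (mesh k))
  have h3 : (lev k : (V → ℕ × ℕ → ℝ) → V × ℕ → ℝ) = (MeasurableEquiv.curry V ℕ ℝ).symm ∘
      (fun (x : V → ℕ × ℕ → ℝ) (v : V) (j : ℕ) => incr (x v) k j) := by
    ext ξ i
    rfl
  rw [h3, ← Measure.map_map (by fun_prop)]
  · unfold noiseLaw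
    rw [h1]
    exact h2
  · rw [measurable_pi_iff]
    intro v
    rw [measurable_pi_iff]
    intro j
    exact (measurable_incr k j).comp (measurable_pi_apply v)

variable (ν : Measure (V → Bool)) [IsProbabilityMeasure ν]

/-- Law of (configuration, noise). -/
noncomputable def full : Measure ((V → Bool) × (V → ℕ × ℕ → ℝ)) := ν.prod (noiseLaw V)

instance : IsProbabilityMeasure (full ν) := by unfold full; infer_instance

/-- Projection on level `k`. -/
noncomputable def proj (k : ℕ) (p : (V → Bool) × (V → ℕ × ℕ → ℝ)) :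
    (V → Bool) × (V × ℕ → ℝ) := (p.1, lev k p.2)

theorem measurable_proj (k : ℕ) : Measurable (proj (V := V) k) :=
  measurable_fst.prodMk ((measurable_lev k).comp measurable_snd)

theorem measurePreserving_proj (k : ℕ) :
    MeasurePreserving (proj k) (full ν) (law ν (mesh k)) := by
  have h1 : MeasurePreserving (lev k) (noiseLaw V) (gnoise (V × ℕ) (mesh k)) :=
    ⟨measurable_lev k, map_lev k⟩
  exact (MeasurePreserving.id ν).prod h1

/-- The observed process. -/
noncomputable def Yp (p : (V → Bool) × (V → ℕ × ℕ → ℝ)) (v : V) (k j : ℕ) : ℝ :=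
  path (p.2 v) k j + (if p.1 v then (j : ℝ) * mesh k else 0)

theorem mesh_succ (k : ℕ) : (2 : ℝ) * mesh (k + 1) = mesh k := by
  have := mesh_add k 1
  rw [← this]; ring

theorem Yp_succ (p : (V → Bool) × (V → ℕ × ℕ → ℝ)) (v : V) (k j : ℕ) :
    Yp p v (k + 1) (2 * j) = Yp p v k j := by
  unfold Yp
  rw [path_succ_two_mul, ← mesh_succ k]
  push_cast
  congr 2
  ring

theorem Yp_zero (p : (V → Bool) × (V → ℕ × ℕ → ℝ)) (v : V) (k : ℕ) : Yp p v k 0 = 0 := by
  unfold Yp
  rw [path_zero]
  simp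

theorem sum_dY (p : (V → Bool) × (V → ℕ × ℕ → ℝ)) (v : V) (k j : ℕ) :
    ∑ i ∈ range j, dY (mesh k) (proj k p) (v, i) = Yp p v k j := by
  have h1 : ∀ i, dY (mesh k) (proj k p) (v, i) =
      incr (p.2 v) k i + (if p.1 v then (mesh k : ℝ) else 0) := fun i => rfl
  simp_rw [h1]
  unfold Yp path
  rw [sum_add_distrib, sum_const, card_range]
  congr 1
  split_ifs <;> simp

/-- The drift along the observed process. -/
noncomputable def Mp (K : V → ℕ → Finset V) (p : (V → Bool) × (V → ℕ × ℕ → ℝ)) (v : V)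
    (k j : ℕ) : ℝ :=
  mdr (fun F => cylW ν F, K) v (j * mesh k) (fun u => Yp p u k j)

omit [IsProbabilityMeasure ν] in
theorem Mp_eq (K : V → ℕ → Finset V) (p : (V → Bool) × (V → ℕ × ℕ → ℝ)) (v : V) (k j : ℕ) :
    Mp ν K p v k j = obsDrift ν (mesh k) K v j (proj k p) := by
  unfold Mp obsDrift
  congr 1
  ext u
  rw [sum_dY]

omit [IsProbabilityMeasure ν] in
theorem Mp_succ (K : V → ℕ → Finset V) (p : (V → Bool) × (V → ℕ × ℕ → ℝ)) (v : V) (k j : ℕ) :
    Mp ν K p v (k + 1) (2 * j) = Mp ν K p v k j := by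
  unfold Mp
  congr 1
  · rw [← mesh_succ k]; push_cast; ring
  · ext u
    exact Yp_succ p u k j

omit [IsProbabilityMeasure ν] in
theorem abs_Mp_le (K : V → ℕ → Finset V) (p : (V → Bool) × (V → ℕ × ℕ → ℝ)) (v : V) (k j : ℕ) :
    |Mp ν K p v k j| ≤ 1 := by
  rw [Mp_eq]
  exact abs_obsDrift_le ν _ K v j _

/-- The accumulated drift. -/
noncomputable def Ap (K : V → ℕ → Finset V) (p : (V → Bool) × (V → ℕ × ℕ → ℝ)) (v : V)
    (k j : ℕ) : ℝ := rie (fun k i => Mp ν K p v k i) k j

/-- The innovation process. -/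
noncomputable def Bp (K : V → ℕ → Finset V) (p : (V → Bool) × (V → ℕ × ℕ → ℝ)) (v : V)
    (k j : ℕ) : ℝ := Yp p v k j - Ap ν K p v k j

theorem rie_zero (f : ℕ → ℕ → ℝ) (k : ℕ) : rie f k 0 = 0 := by
  simp [rie]

theorem rie_succ (f : ℕ → ℕ → ℝ) (k j : ℕ) : rie f (k + 1) (2 * j) = rie f k j := by
  unfold rie
  rw [← Filter.limsup_nat_add (fun l => ∑ i ∈ range (j * 2 ^ l), (mesh (k + l) : ℝ) * f (k + l) i) 1]
  congr 1
  ext l
  rw [show k + 1 + l = k + (l + 1) by ring, show 2 * j * 2 ^ l = j * 2 ^ (l + 1) by ring]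

omit [IsProbabilityMeasure ν] in
theorem Bp_succ (K : V → ℕ → Finset V) (p : (V → Bool) × (V → ℕ × ℕ → ℝ)) (v : V) (k j : ℕ) :
    Bp ν K p v (k + 1) (2 * j) = Bp ν K p v k j := by
  unfold Bp Ap
  rw [Yp_succ, rie_succ]

omit [IsProbabilityMeasure ν] in
theorem Bp_zero (K : V → ℕ → Finset V) (p : (V → Bool) × (V → ℕ × ℕ → ℝ)) (v : V) (k : ℕ) :
    Bp ν K p v k 0 = 0 := by
  unfold Bp Ap
  rw [Yp_zero, rie_zero, sub_zero]

theorem measurable_Yp (v : V) (k j : ℕ) : Measurable (fun p => Yp p v k j) := by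
  unfold Yp
  apply Measurable.add
  · exact (measurable_path k j).comp ((measurable_pi_apply v).comp measurable_snd)
  · apply Measurable.ite
    · exact measurableSet_preimage ((measurable_pi_apply v).comp measurable_fst)
        (t := {b : Bool | b = true}) (by exact MeasurableSet.of_discrete)
    · exact measurable_const
    · exact measurable_const

omit [IsProbabilityMeasure ν] in
theorem measurable_Mp (K : V → ℕ → Finset V) (v : V) (k j : ℕ) :
    Measurable (fun p => Mp ν K p v k j) := by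
  simp_rw [Mp_eq]
  exact ((measurable_obsDrift ν (mesh k) K v j).mono (past_le _ _) le_rfl).comp (measurable_proj k)

/-- Riemann sums of the drift. -/
noncomputable def Sp (K : V → ℕ → Finset V) (p : (V → Bool) × (V → ℕ × ℕ → ℝ)) (v : V)
    (k j l : ℕ) : ℝ := ∑ i ∈ range (j * 2 ^ l), mesh (k + l) * Mp ν K p v (k + l) i

omit [IsProbabilityMeasure ν] in
theorem measurable_Sp (K : V → ℕ → Finset V) (v : V) (k j l : ℕ) :
    Measurable (fun p => Sp ν K p v k j l) :=
  Finset.measurable_sum _ fun i _ => (measurable_Mp ν K v (k + l) i).const_mul _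

omit [IsProbabilityMeasure ν] in
theorem measurable_Ap (K : V → ℕ → Finset V) (v : V) (k j : ℕ) :
    Measurable (fun p => Ap ν K p v k j) := by
  unfold Ap rie
  exact Measurable.limsup fun l => measurable_Sp ν K v k j l

omit [IsProbabilityMeasure ν] in
theorem measurable_Bp (K : V → ℕ → Finset V) (v : V) (k j : ℕ) :
    Measurable (fun p => Bp ν K p v k j) :=
  (measurable_Yp v k j).sub (measurable_Ap ν K v k j)

omit [IsProbabilityMeasure ν] in
theorem Sp_succ_sub (K : V → ℕ → Finset V) (p : (V → Bool) × (V → ℕ × ℕ → ℝ)) (v : V)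
    (k j l : ℕ) : Sp ν K p v k j (l + 1) - Sp ν K p v k j l =
      ∑ i ∈ range (j * 2 ^ l), mesh (k + l + 1) *
        (Mp ν K p v (k + l + 1) (2 * i + 1) - Mp ν K p v (k + l + 1) (2 * i)) := by
  unfold Sp
  rw [show j * 2 ^ (l + 1) = 2 * (j * 2 ^ l) by ring, show k + (l + 1) = k + l + 1 by ring,
    sum_range_two_mul, ← sum_sub_distrib]
  apply sum_congr rfl
  intro i _
  rw [Mp_succ, ← mesh_succ (k + l)]
  ring

theorem integral_abs_Sp_le (K : V → ℕ → Finset V) (hK : ∀ v, Monotone (K v))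
    (hKu : ∀ v u, ∃ n, u ∈ K v n) (v : V) (k j l : ℕ) :
    ∫ p, |Sp ν K p v k j (l + 1) - Sp ν K p v k j l| ∂(full ν) ≤ (j + 1) * (3 / 4 : ℝ) ^ l := by
  set H : ℝ≥0 := mesh (k + l + 1) with hH
  have hH0 : H ≠ 0 := by
    have := mesh_pos (k + l + 1)
    exact_mod_cast this.ne'
  set D : ℕ → (V → Bool) × (V × ℕ → ℝ) → ℝ := fun i =>
    fun q => obsDrift ν H K v (2 * i + 1) q - obsDrift ν H K v (2 * i) q with hD
  set g : ℕ → ℝ := fun i => ∫ q, obsDrift ν H K v i q ^ 2 ∂(law ν H) with hg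
  have hDm : ∀ i, Measurable (D i) := fun i =>
    ((measurable_obsDrift ν H K v _).mono (past_le _ _) le_rfl).sub
      ((measurable_obsDrift ν H K v _).mono (past_le _ _) le_rfl)
  have hDb : ∀ i q, |D i q| ≤ 1 := by
    intro i q
    have a := obsDrift_mem ν H K v (2 * i + 1) q
    have b := obsDrift_mem ν H K v (2 * i) q
    rw [abs_le]
    constructor <;> simp only [hD] <;> linarith [a.1, a.2, b.1, b.2]
  have hgmono : ∀ i j, i ≤ j → g i ≤ g j := by
    intro i j hij
    have := integral_sq_diff ν H hH0 K hK hKu v hij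
    have h0 : 0 ≤ ∫ p, (obsDrift ν H K v j p - obsDrift ν H K v i p) ^ 2 ∂(law ν H) :=
      integral_nonneg fun p => sq_nonneg _
    simp only [hg]
    linarith
  have hg1 : ∀ i, g i ≤ 1 := by
    intro i
    have h1 : ∫ q, obsDrift ν H K v i q ^ 2 ∂(law ν H) ≤ ∫ _q, (1 : ℝ) ∂(law ν H) := by
      apply integral_mono_of_nonneg (Eventually.of_forall fun q => sq_nonneg _)
        (integrable_const _)
      exact Eventually.of_forall fun q => by
        have a := obsDrift_mem ν H K v i q
        simp only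
        nlinarith [a.1, a.2]
    simpa using h1
  have hg0 : ∀ i, 0 ≤ g i := fun i => integral_nonneg fun q => sq_nonneg _
  have hD2 : ∀ i, ∫ q, D i q ^ 2 ∂(law ν H) = g (2 * i + 1) - g (2 * i) := fun i =>
    integral_sq_diff ν H hH0 K hK hKu v (Nat.le_succ _)
  have hsumD : ∀ n, ∑ i ∈ range n, ∫ q, D i q ^ 2 ∂(law ν H) ≤ g (2 * n) := by
    intro n
    induction n with
    | zero => simpa using hg0 0
    | succ n ih =>
      rw [sum_range_succ, hD2]
      have := hgmono (2 * n + 1) (2 * (n + 1)) (by omega)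
      linarith
  -- pull back to the full space
  have e1 : ∀ p, |Sp ν K p v k j (l + 1) - Sp ν K p v k j l| ≤
      ∑ i ∈ range (j * 2 ^ l), (H : ℝ) * |D i (proj (k + l + 1) p)| := by
    intro p
    rw [Sp_succ_sub]
    refine (Finset.abs_sum_le_sum_abs _ _).trans (le_of_eq (Finset.sum_congr rfl fun i _ => ?_))
    rw [abs_mul, abs_of_pos (mesh_pos _), Mp_eq, Mp_eq]
  have hDi : ∀ i, Integrable (D i) (law ν H) := fun i =>
    Integrable.of_bound (hDm i).aestronglyMeasurable 1 (Eventually.of_forall (hDb i))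
  have hDi' : ∀ i, Integrable (fun p => |D i (proj (k + l + 1) p)|) (full ν) := fun i =>
    ((measurePreserving_proj ν (k + l + 1)).integrable_comp_of_integrable (hDi i)).abs
  have e2 : ∫ p, |Sp ν K p v k j (l + 1) - Sp ν K p v k j l| ∂(full ν) ≤
      ∑ i ∈ range (j * 2 ^ l), (H : ℝ) * ∫ q, |D i q| ∂(law ν H) := by
    calc ∫ p, |Sp ν K p v k j (l + 1) - Sp ν K p v k j l| ∂(full ν)
        ≤ ∫ p, ∑ i ∈ range (j * 2 ^ l), (H : ℝ) * |D i (proj (k + l + 1) p)| ∂(full ν) := by
          apply integral_mono_of_nonneg (Eventually.of_forall fun p => abs_nonneg _)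
          · exact integrable_finsetSum _ fun i _ => (hDi' i).const_mul _
          · exact Eventually.of_forall e1
      _ = ∑ i ∈ range (j * 2 ^ l), (H : ℝ) * ∫ q, |D i q| ∂(law ν H) := by
          rw [integral_finsetSum]
          · apply sum_congr rfl
            intro i _
            rw [integral_const_mul]
            congr 1
            rw [← (measurePreserving_proj ν (k + l + 1)).map_eq, integral_map
              (measurable_proj _).aemeasurable]
            exact (hDm i).abs.aestronglyMeasurable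
          · intro i _
            exact (hDi' i).const_mul _
  -- arithmetic-geometric mean
  set ε : ℝ := (3 / 4 : ℝ) ^ l with hε
  have hε0 : 0 < ε := by positivity
  have e3 : ∀ i, ∫ q, |D i q| ∂(law ν H) ≤ ε / 2 + (1 / (2 * ε)) * ∫ q, D i q ^ 2 ∂(law ν H) := by
    intro i
    have hDi2 : Integrable (fun q => D i q ^ 2) (law ν H) :=
      Integrable.of_bound ((hDm i).pow_const 2).aestronglyMeasurable 1
        (Eventually.of_forall fun q => by
          rw [Real.norm_eq_abs, abs_pow]; exact pow_le_one₀ (abs_nonneg _) (hDb i q))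
    calc ∫ q, |D i q| ∂(law ν H) ≤ ∫ q, (ε / 2 + (1 / (2 * ε)) * D i q ^ 2) ∂(law ν H) := by
          apply integral_mono (hDi i).abs ((integrable_const _).add (hDi2.const_mul _))
          intro q
          show |D i q| ≤ ε / 2 + 1 / (2 * ε) * D i q ^ 2
          have h1 : 0 ≤ (|D i q| - ε) ^ 2 / (2 * ε) := by positivity
          have h2 : (|D i q| - ε) ^ 2 / (2 * ε) = ε / 2 + 1 / (2 * ε) * D i q ^ 2 - |D i q| := by
            rw [← sq_abs (D i q)]
            field_simp
            ring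
          linarith
      _ = ε / 2 + (1 / (2 * ε)) * ∫ q, D i q ^ 2 ∂(law ν H) := by
          rw [integral_add (integrable_const _) (hDi2.const_mul _), integral_const_mul]
          simp
  have hHpos : (0 : ℝ) < H := mesh_pos _
  have hHl : (H : ℝ) ≤ (1 / 2) * (1 / 2) ^ l := by
    rw [hH, coe_mesh, ← pow_succ', show k + l + 1 = (l + 1) + k by ring, pow_add]
    calc (1 / 2 : ℝ) ^ (l + 1) * (1 / 2) ^ k ≤ (1 / 2) ^ (l + 1) * 1 := by
          gcongr
          exact pow_le_one₀ (by norm_num) (by norm_num)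
      _ = _ := mul_one _
  calc ∫ p, |Sp ν K p v k j (l + 1) - Sp ν K p v k j l| ∂(full ν)
      ≤ ∑ i ∈ range (j * 2 ^ l), (H : ℝ) * ∫ q, |D i q| ∂(law ν H) := e2
    _ ≤ ∑ i ∈ range (j * 2 ^ l), (H : ℝ) * (ε / 2 + (1 / (2 * ε)) * ∫ q, D i q ^ 2 ∂(law ν H)) := by
        apply sum_le_sum
        intro i _
        exact mul_le_mul_of_nonneg_left (e3 i) hHpos.le
    _ = (j * 2 ^ l : ℕ) * H * (ε / 2) + H * (1 / (2 * ε)) *
          ∑ i ∈ range (j * 2 ^ l), ∫ q, D i q ^ 2 ∂(law ν H) := by
        rw [← mul_sum, sum_add_distrib, sum_const, card_range, nsmul_eq_mul, ← mul_sum]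
        ring
    _ ≤ (j * 2 ^ l : ℕ) * ((1 / 2) * (1 / 2) ^ l) * (ε / 2) +
          ((1 / 2) * (1 / 2) ^ l) * (1 / (2 * ε)) * 1 := by
        gcongr
        exact (hsumD _).trans (hg1 _)
    _ ≤ j * ε + ε := by
        have h5 : ((j * 2 ^ l : ℕ) : ℝ) * ((1 / 2) * (1 / 2) ^ l) * (ε / 2) = j * ε / 4 := by
          push_cast
          have : (2 : ℝ) ^ l * (1 / 2) ^ l = 1 := by rw [← mul_pow]; norm_num
          linear_combination (j * ε / 4) * this
        have h6 : ((1 / 2 : ℝ) * (1 / 2) ^ l) * (1 / (2 * ε)) * 1 ≤ ε := by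
          have h7 : (1 / 2 : ℝ) ^ l ≤ ε * ε := by
            rw [hε, ← mul_pow]
            gcongr
            norm_num
          rw [mul_one, mul_one_div, div_le_iff₀ (by positivity)]
          nlinarith
        rw [h5]
        have : (0 : ℝ) ≤ j * ε := by positivity
        linarith
    _ = (j + 1) * ε := by ring

end Crest.Agent.R168
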