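import Crest.Agent.R168.Law

/-!
Row 168: the innovation process has the law of the noise, second part.
-/

set_option autoImplicit false
open MeasureTheory ProbabilityTheory Finset Filter
open scoped NNReal ENNReal Topology

namespace Crest.Agent.R168

variable {V : Type*} (ν : Measure (V → Bool)) [IsProbabilityMeasure ν]

theorem ae_tendsto_Sp (K : V → ℕ → Finset V) (hK : ∀ v, Monotone (K v))
    (hKu : ∀ v u, ∃ n, u ∈ K v n) (v : V) (k j : ℕ) :
    ∀ᵐ p ∂(full ν), Tendsto (fun l => Sp ν K p v k j l) atTop (𝓝 (Ap ν K p v k j)) := by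
  have hbd : ∀ p l, |Sp ν K p v k j l| ≤ j * mesh k * 1 := fun p l =>
    rie_bound (f := fun k i => Mp ν K p v k i) (fun k i => abs_Mp_le ν K p v k i) k j l
  have hm : ∀ l, Measurable (fun p => Sp ν K p v k j (l + 1) - Sp ν K p v k j l) := fun l =>
    (measurable_Sp ν K v k j (l + 1)).sub (measurable_Sp ν K v k j l)
  have hint : ∀ l, Integrable (fun p => Sp ν K p v k j (l + 1) - Sp ν K p v k j l) (full ν) := by
    intro l
    refine Integrable.of_bound (hm l).aestronglyMeasurable (j * mesh k * 1 + j * mesh k * 1)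
      (Eventually.of_forall fun p => ?_)
    rw [Real.norm_eq_abs]
    exact (abs_sub _ _).trans (add_le_add (hbd p _) (hbd p _))
  have h1 : ∫⁻ p, ∑' l, ‖Sp ν K p v k j (l + 1) - Sp ν K p v k j l‖ₑ ∂(full ν) ≠ ⊤ := by
    rw [lintegral_tsum fun l => (hm l).enorm.aemeasurable]
    have h2 : ∀ l, ∫⁻ p, ‖Sp ν K p v k j (l + 1) - Sp ν K p v k j l‖ₑ ∂(full ν) ≤
        ENNReal.ofReal ((j + 1) * (3 / 4 : ℝ) ^ l) := by
      intro l
      rw [← ofReal_integral_norm_eq_lintegral_enorm (hint l)]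
      exact ENNReal.ofReal_le_ofReal (integral_abs_Sp_le ν K hK hKu v k j l)
    have h3 : Summable (fun l : ℕ => ((j : ℝ) + 1) * (3 / 4 : ℝ) ^ l) :=
      (summable_geometric_of_lt_one (by norm_num) (by norm_num)).mul_left _
    refine ne_top_of_le_ne_top ?_ (ENNReal.tsum_le_tsum h2)
    exact h3.tsum_ofReal_ne_top
  have h4 := ae_lt_top' (Measurable.ennreal_tsum fun l => (hm l).enorm).aemeasurable h1
  filter_upwards [h4] with p hp
  have h5 : Summable (fun l => dist (Sp ν K p v k j l) (Sp ν K p v k j (l + 1))) := by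
    have := ENNReal.summable_toReal hp.ne
    refine this.congr fun l => ?_
    rw [toReal_enorm, dist_comm, Real.dist_eq, Real.norm_eq_abs]
  obtain ⟨x, hx⟩ := cauchySeq_tendsto_of_complete (cauchySeq_of_summable_dist h5)
  have h6 : Ap ν K p v k j = x := hx.limsup_eq
  rw [h6]
  exact hx

theorem sum_range_mul' (f : ℕ → ℝ) (N m : ℕ) :
    ∑ i ∈ range (N * m), f i = ∑ j ∈ range N, ∑ r ∈ range m, f (j * m + r) := by
  induction N with
  | zero => simp
  | succ N ih => rw [Nat.succ_mul, Finset.sum_range_add, ih, sum_range_succ]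

theorem sum_range_shift (f : ℕ → ℝ) (a m : ℕ) :
    ∑ r ∈ range m, f (a + r) = ∑ i ∈ range (a + m), f i - ∑ i ∈ range a, f i := by
  rw [Finset.sum_range_add]; ring

theorem Yp_add (p : (V → Bool) × (V → ℕ × ℕ → ℝ)) (v : V) (k l j : ℕ) :
    Yp p v (k + l) (j * 2 ^ l) = Yp p v k j := by
  induction l with
  | zero => simp
  | succ l ih =>
    rw [show k + (l + 1) = (k + l) + 1 by ring, show j * 2 ^ (l + 1) = 2 * (j * 2 ^ l) by ring,
      Yp_succ, ih]

/-- Weighted increments of the approximating process. -/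
noncomputable def gl (K : V → ℕ → Finset V) (F : Finset V) (θ : V → ℕ → ℝ) (k N l : ℕ)
    (p : (V → Bool) × (V → ℕ × ℕ → ℝ)) : ℝ :=
  ∑ j ∈ range N, ∑ v ∈ F, θ v j * ((Yp p v k (j + 1) - Yp p v k j) -
    (Sp ν K p v k (j + 1) l - Sp ν K p v k j l))

omit [IsProbabilityMeasure ν] in
theorem gl_eq (K : V → ℕ → Finset V) (F : Finset V) (θ : V → ℕ → ℝ) (k N l : ℕ)
    (p : (V → Bool) × (V → ℕ × ℕ → ℝ)) :
    gl ν K F θ k N l p = ∑ i ∈ range (N * 2 ^ l),
      innov ν (mesh (k + l)) K F (fun i v => θ v (i / 2 ^ l)) i (proj (k + l) p) := by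
  rw [sum_range_mul']
  unfold gl
  apply sum_congr rfl
  intro j _
  have h2 : 0 < 2 ^ l := by positivity
  have e1 : ∀ r ∈ range (2 ^ l), innov ν (mesh (k + l)) K F (fun i v => θ v (i / 2 ^ l))
      (j * 2 ^ l + r) (proj (k + l) p) = ∑ v ∈ F, θ v j * (dY (mesh (k + l)) (proj (k + l) p)
        (v, j * 2 ^ l + r) - mesh (k + l) * Mp ν K p v (k + l) (j * 2 ^ l + r)) := by
    intro r hr
    unfold innov
    apply sum_congr rfl
    intro v _
    rw [Mp_eq]
    have : (j * 2 ^ l + r) / 2 ^ l = j := by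
      rw [mul_comm, Nat.mul_add_div h2, Nat.div_eq_of_lt (mem_range.1 hr), add_zero]
    simp only [this]
  rw [sum_congr rfl e1, sum_comm]
  apply sum_congr rfl
  intro v _
  rw [← mul_sum, sum_sub_distrib,
    sum_range_shift (fun i => dY (mesh (k + l)) (proj (k + l) p) (v, i)),
    sum_range_shift (fun i => (mesh (k + l) : ℝ) * Mp ν K p v (k + l) i), sum_dY, sum_dY,
    show j * 2 ^ l + 2 ^ l = (j + 1) * 2 ^ l by ring, Yp_add, Yp_add]
  rfl

theorem integral_gl (K : V → ℕ → Finset V) (F : Finset V) (θ : V → ℕ → ℝ) (k N l : ℕ) :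
    ∫ p, Complex.exp (((gl ν K F θ k N l p : ℝ) : ℂ) * Complex.I) ∂(full ν) =
      cfI ν (mesh (k + l)) K F (fun i v => θ v (i / 2 ^ l)) (N * 2 ^ l) := by
  unfold cfI
  rw [← (measurePreserving_proj ν (k + l)).map_eq, integral_map (measurable_proj _).aemeasurable]
  · simp_rw [gl_eq]
  · have := (measurable_sum_innov ν (mesh (k + l)) K F (fun i v => θ v (i / 2 ^ l)) (N * 2 ^ l)).mono
      (past_le _ _) le_rfl
    exact (Complex.measurable_exp.comp ((Complex.measurable_ofReal.comp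
      this).mul_const _)).aestronglyMeasurable

/-- Weighted increments of the innovation process. -/
noncomputable def gB (K : V → ℕ → Finset V) (F : Finset V) (θ : V → ℕ → ℝ) (k N : ℕ)
    (p : (V → Bool) × (V → ℕ × ℕ → ℝ)) : ℝ :=
  ∑ j ∈ range N, ∑ v ∈ F, θ v j * (Bp ν K p v k (j + 1) - Bp ν K p v k j)

theorem tendsto_integral_gl (K : V → ℕ → Finset V) (hK : ∀ v, Monotone (K v))
    (hKu : ∀ v u, ∃ n, u ∈ K v n) (F : Finset V) (θ : V → ℕ → ℝ) (k N : ℕ) :
    Tendsto (fun l => ∫ p, Complex.exp (((gl ν K F θ k N l p : ℝ) : ℂ) * Complex.I) ∂(full ν))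
      atTop (𝓝 (∫ p, Complex.exp (((gB ν K F θ k N p : ℝ) : ℂ) * Complex.I) ∂(full ν))) := by
  have hm : ∀ l, Measurable (fun p => gl ν K F θ k N l p) := by
    intro l
    unfold gl
    refine Finset.measurable_sum _ fun j _ => Finset.measurable_sum _ fun v _ => ?_
    exact (((measurable_Yp v k _).sub (measurable_Yp v k _)).sub
      ((measurable_Sp ν K v k _ l).sub (measurable_Sp ν K v k _ l))).const_mul _
  refine tendsto_integral_of_dominated_convergence (fun _ => 1) (fun l => ?_) (integrable_const _)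
    (fun l => Eventually.of_forall fun p => (Complex.norm_exp_ofReal_mul_I _).le) ?_
  · exact (Complex.measurable_exp.comp ((Complex.measurable_ofReal.comp
      (hm l)).mul_const _)).aestronglyMeasurable
  · have h1 : ∀ᵐ p ∂(full ν), ∀ v ∈ F, ∀ j, Tendsto (fun l => Sp ν K p v k j l) atTop
        (𝓝 (Ap ν K p v k j)) := by
      rw [Finset.eventually_all]
      intro v _
      rw [ae_all_iff]
      exact fun j => ae_tendsto_Sp ν K hK hKu v k j
    filter_upwards [h1] with p hp
    have h2 : Tendsto (fun l => gl ν K F θ k N l p) atTop (𝓝 (gB ν K F θ k N p)) := by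
      unfold gl gB
      refine tendsto_finsetSum _ fun j _ => tendsto_finsetSum _ fun v hv => ?_
      refine Tendsto.const_mul _ ?_
      have h3 : Bp ν K p v k (j + 1) - Bp ν K p v k j = (Yp p v k (j + 1) - Yp p v k j) -
          (Ap ν K p v k (j + 1) - Ap ν K p v k j) := by unfold Bp; ring
      rw [h3]
      exact Tendsto.sub tendsto_const_nhds ((hp v hv (j + 1)).sub (hp v hv j))
    have h4 : Continuous (fun x : ℝ => Complex.exp ((x : ℂ) * Complex.I)) := by fun_prop
    exact (h4.tendsto _).comp h2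

theorem sum_theta (F : Finset V) (θ : V → ℕ → ℝ) (k N l : ℕ) :
    (mesh (k + l) : ℝ) / 2 * ∑ i ∈ range (N * 2 ^ l), ∑ v ∈ F, θ v (i / 2 ^ l) ^ 2 =
      mesh k / 2 * ∑ j ∈ range N, ∑ v ∈ F, θ v j ^ 2 := by
  rw [sum_range_mul']
  have h2 : 0 < 2 ^ l := by positivity
  have e1 : ∀ j ∈ range N, ∑ r ∈ range (2 ^ l), ∑ v ∈ F, θ v ((j * 2 ^ l + r) / 2 ^ l) ^ 2 =
      2 ^ l * ∑ v ∈ F, θ v j ^ 2 := by
    intro j _
    rw [sum_congr rfl (g := fun _ => ∑ v ∈ F, θ v j ^ 2)]
    · rw [sum_const, card_range, nsmul_eq_mul]; push_cast; rfl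
    · intro r hr
      have : (j * 2 ^ l + r) / 2 ^ l = j := by
        rw [mul_comm, Nat.mul_add_div h2, Nat.div_eq_of_lt (mem_range.1 hr), add_zero]
      rw [this]
  rw [sum_congr rfl e1, ← mul_sum, ← mesh_add k l]
  ring

theorem integral_gB (K : V → ℕ → Finset V) (hK : ∀ v, Monotone (K v))
    (hKu : ∀ v u, ∃ n, u ∈ K v n) (F : Finset V) (θ : V → ℕ → ℝ) (k N : ℕ) :
    ∫ p, Complex.exp (((gB ν K F θ k N p : ℝ) : ℂ) * Complex.I) ∂(full ν) =
      Complex.exp ((-(mesh k / 2 * ∑ j ∈ range N, ∑ v ∈ F, θ v j ^ 2) : ℝ)) := by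
  have h1 := tendsto_integral_gl ν K hK hKu F θ k N
  refine tendsto_nhds_unique h1 ?_
  rw [tendsto_iff_norm_sub_tendsto_zero]
  set L : ℝ := ∑ j ∈ range N, ∑ v ∈ F, |θ v j| + ∑ v ∈ F, |θ v 0| with hL
  -- absolute row sums; beyond the range we only use indices below `N`
  set θ' : V → ℕ → ℝ := fun v j => if j < N then θ v j else 0 with hθ'
  have hrow : ∀ j, ∑ v ∈ F, |θ' v j| ≤ L := by
    intro j
    by_cases hj : j < N
    · simp only [hθ', hj, if_true]
      have := Finset.single_le_sum (f := fun j => ∑ v ∈ F, |θ v j|)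
        (fun j _ => Finset.sum_nonneg fun v _ => abs_nonneg _) (mem_range.2 hj)
      have h0 : 0 ≤ ∑ v ∈ F, |θ v 0| := Finset.sum_nonneg fun v _ => abs_nonneg _
      linarith
    · simp only [hθ', hj, if_false, abs_zero, sum_const_zero]
      exact add_nonneg (Finset.sum_nonneg fun j _ => Finset.sum_nonneg fun v _ => abs_nonneg _)
        (Finset.sum_nonneg fun v _ => abs_nonneg _)
  have hL0 : 0 ≤ L := (Finset.sum_nonneg fun v _ => abs_nonneg _).trans (hrow 0)
  have hcongr : ∀ l p, gl ν K F θ k N l p = gl ν K F θ' k N l p := by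
    intro l p
    unfold gl
    apply sum_congr rfl
    intro j hj
    simp only [hθ', mem_range.1 hj, if_true]
  have hcongr2 : ∑ j ∈ range N, ∑ v ∈ F, θ v j ^ 2 = ∑ j ∈ range N, ∑ v ∈ F, θ' v j ^ 2 := by
    apply sum_congr rfl
    intro j hj
    simp only [hθ', mem_range.1 hj, if_true]
  have hmesh : Tendsto (fun l => (mesh (k + l) : ℝ)) atTop (𝓝 0) := by
    have h0 : ∀ l, (mesh (k + l) : ℝ) = (1 / 2) ^ k * (1 / 2) ^ l := fun l => by
      rw [coe_mesh, pow_add]
    simp_rw [h0]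
    have := (tendsto_pow_atTop_nhds_zero_of_lt_one (r := (1 / 2 : ℝ)) (by norm_num)
      (by norm_num)).const_mul ((1 / 2 : ℝ) ^ k)
    simpa using this
  have hsmall : ∀ᶠ l in atTop, (mesh (k + l) : ℝ) * L ≤ 1 := by
    have := hmesh.mul_const L
    rw [zero_mul] at this
    exact (this.eventually (gt_mem_nhds one_pos)).mono fun l hl => hl.le
  have hlim : Tendsto (fun l => (N : ℝ) * mesh k * L ^ 2 * mesh (k + l)) atTop (𝓝 0) := by
    have := hmesh.const_mul ((N : ℝ) * mesh k * L ^ 2)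
    simpa using this
  refine squeeze_zero' (Eventually.of_forall fun l => norm_nonneg _) ?_ hlim
  filter_upwards [hsmall] with l hl
  have hH0 : mesh (k + l) ≠ 0 := by
    have := mesh_pos (k + l)
    exact_mod_cast this.ne'
  have hb := cfI_bound ν (mesh (k + l)) hH0 K hK hKu F (fun i v => θ' v (i / 2 ^ l)) (N * 2 ^ l) L
    (fun j => hrow _) hl
  rw [sum_theta, ← integral_gl, ← hcongr2] at hb
  simp_rw [← hcongr] at hb
  refine hb.trans (le_of_eq ?_)
  push_cast
  rw [← mesh_add k l]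
  ring

end Crest.Agent.R168
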