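import Crest.Agent.R168.Law2

/-!
Row 168: the code of the innovation process is again independent Gaussian noise.
-/

set_option autoImplicit false
open MeasureTheory ProbabilityTheory Finset Filter
open scoped NNReal ENNReal Topology

namespace Crest.Agent.R168

variable {V : Type*} (ν : Measure (V → Bool)) [IsProbabilityMeasure ν]

/-- Increments of the innovation process at level `k`. -/
noncomputable def incB (K : V → ℕ → Finset V) (k : ℕ) (p : (V → Bool) × (V → ℕ × ℕ → ℝ))
    (i : V × ℕ) : ℝ := Bp ν K p i.1 k (i.2 + 1) - Bp ν K p i.1 k i.2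

omit [IsProbabilityMeasure ν] in
theorem measurable_incB (K : V → ℕ → Finset V) (k : ℕ) : Measurable (incB ν K k) :=
  measurable_pi_iff.2 fun i => (measurable_Bp ν K i.1 k _).sub (measurable_Bp ν K i.1 k _)

theorem map_incB (K : V → ℕ → Finset V) (hK : ∀ v, Monotone (K v))
    (hKu : ∀ v u, ∃ n, u ∈ K v n) (k : ℕ) :
    (full ν).map (incB ν K k) = gnoise (V × ℕ) (mesh k) := by
  classical
  have hm := measurable_incB ν K k
  have : IsProbabilityMeasure ((full ν).map (incB ν K k)) :=
    Measure.isProbabilityMeasure_map hm.aemeasurable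
  apply ext_of_cf
  intro I θ
  rw [cf_map _ _ hm, cf_gnoise]
  obtain ⟨F, N, hFN⟩ : ∃ (F : Finset V) (N : ℕ), I ⊆ F ×ˢ range N := by
    refine ⟨I.image Prod.fst, (I.image Prod.snd).sup id + 1, fun i hi => ?_⟩
    rw [mem_product, mem_range]
    exact ⟨mem_image_of_mem _ hi, Nat.lt_succ_of_le (le_sup (f := id) (mem_image_of_mem _ hi))⟩
  set θ' : V → ℕ → ℝ := fun v j => if (v, j) ∈ I then θ (v, j) else 0 with hθ'
  have e1 : ∀ f : V × ℕ → ℝ, ∑ i ∈ I, θ i * f i = ∑ j ∈ range N, ∑ v ∈ F, θ' v j * f (v, j) := by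
    intro f
    rw [sum_comm, ← sum_product (s := F) (t := range N) (f := fun i : V × ℕ => θ' i.1 i.2 * f (i.1, i.2)),
      ← sum_subset hFN]
    · apply sum_congr rfl
      intro i hi
      simp only [hθ', hi, if_true, Prod.mk.eta]
    · intro i _ hi
      simp only [hθ', Prod.mk.eta, hi, if_false, zero_mul]
  have e2 : ∑ i ∈ I, θ i ^ 2 = ∑ j ∈ range N, ∑ v ∈ F, θ' v j ^ 2 := by
    rw [sum_comm, ← sum_product (s := F) (t := range N) (f := fun i : V × ℕ => θ' i.1 i.2 ^ 2),
      ← sum_subset hFN]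
    · apply sum_congr rfl
      intro i hi
      simp only [hθ', hi, if_true, Prod.mk.eta]
    · intro i _ hi
      simp only [hθ', Prod.mk.eta, hi, if_false]
      norm_num
  have e3 := integral_gB ν K hK hKu F θ' k N
  rw [← e2] at e3
  rw [← e3]
  apply integral_congr_ae
  filter_upwards with p
  have e4 : ∑ i ∈ I, θ i * incB ν K k p i = gB ν K F θ' k N p := e1 _
  rw [e4]

/-- The code of the innovation process. -/
noncomputable def xiB (K : V → ℕ → Finset V) (p : (V → Bool) × (V → ℕ × ℕ → ℝ)) (v : V) :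
    ℕ × ℕ → ℝ := noiseOf (Bp ν K p v)

omit [IsProbabilityMeasure ν] in
theorem measurable_xiB (K : V → ℕ → Finset V) : Measurable (xiB ν K) := by
  rw [measurable_pi_iff]
  intro v
  refine measurable_noiseOf.comp ?_
  rw [measurable_pi_iff]
  intro k
  rw [measurable_pi_iff]
  intro j
  exact measurable_Bp ν K v k j

/-- Reconstruction of the code up to level `n` from the increments at level `n`. -/
noncomputable def rec' (n : ℕ) (x : ℕ → ℝ) : ℕ × ℕ → ℝ :=
  noiseOf (fun k j => ∑ i ∈ range (j * 2 ^ (n - k)), x i)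

theorem rec'_eq (n : ℕ) (b : ℕ → ℕ → ℝ) (hb : ∀ k j, b (k + 1) (2 * j) = b k j)
    (hb0 : ∀ k, b k 0 = 0) (q : ℕ × ℕ) (hq : q.1 ≤ n) :
    rec' n (fun j => b n (j + 1) - b n j) q = noiseOf b q := by
  have h1 : ∀ m, ∑ i ∈ range m, (b n (i + 1) - b n i) = b n m := by
    intro m
    rw [sum_range_sub, hb0, sub_zero]
  have h2 : ∀ k l j, b (k + l) (j * 2 ^ l) = b k j := by
    intro k l j
    induction l with
    | zero => simp
    | succ l ih =>
      rw [show k + (l + 1) = (k + l) + 1 by ring, show j * 2 ^ (l + 1) = 2 * (j * 2 ^ l) by ring,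
        hb, ih]
  have h3 : ∀ k j, k ≤ n → ∑ i ∈ range (j * 2 ^ (n - k)), (b n (i + 1) - b n i) = b k j := by
    intro k j hk
    rw [h1]
    have := h2 k (n - k) j
    rwa [show k + (n - k) = n by omega] at this
  obtain ⟨k, j⟩ := q
  unfold rec'
  cases k with
  | zero =>
    simp only [noiseOf]
    rw [h3 0 _ (Nat.zero_le _), h3 0 _ (Nat.zero_le _)]
  | succ k =>
    simp only [noiseOf]
    rw [h3 _ _ hq, h3 _ _ hq, h3 _ _ hq]

theorem measurable_rec' (n : ℕ) : Measurable (rec' n) := by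
  unfold rec'
  refine measurable_noiseOf.comp ?_
  rw [measurable_pi_iff]
  intro k
  rw [measurable_pi_iff]
  intro j
  exact Finset.measurable_sum _ fun i _ => measurable_pi_apply i

theorem map_xiB (K : V → ℕ → Finset V) (hK : ∀ v, Monotone (K v))
    (hKu : ∀ v u, ∃ n, u ∈ K v n) : (full ν).map (xiB ν K) = noiseLaw V := by
  let U := (MeasurableEquiv.curry V (ℕ × ℕ) ℝ).symm
  have hU : ∀ (f : V → ℕ × ℕ → ℝ) (i : V × (ℕ × ℕ)), U f i = f i.1 i.2 := fun f i => rfl
  rw [← U.map_measurableEquiv_injective.eq_iff]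
  have hm := measurable_xiB ν K
  have hUm : Measurable U := U.measurable
  rw [Measure.map_map hUm hm]
  have : IsProbabilityMeasure ((full ν).map (U ∘ xiB ν K)) :=
    Measure.isProbabilityMeasure_map (hUm.comp hm).aemeasurable
  have : IsProbabilityMeasure ((noiseLaw V).map U) :=
    Measure.isProbabilityMeasure_map hUm.aemeasurable
  apply ext_of_cf
  intro I θ
  rw [cf_map _ _ (hUm.comp hm), cf_map _ _ hUm]
  obtain ⟨n, hn⟩ : ∃ n : ℕ, ∀ i ∈ I, i.2.1 ≤ n :=
    ⟨I.sup (fun i => i.2.1), fun i hi => le_sup (f := fun i : V × (ℕ × ℕ) => i.2.1) hi⟩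
  let Φ : (V × ℕ → ℝ) → ℂ := fun x =>
    Complex.exp (((∑ i ∈ I, θ i * rec' n (fun j => x (i.1, j)) i.2 : ℝ) : ℂ) * Complex.I)
  have hΦ : Measurable Φ := by
    refine Complex.measurable_exp.comp ((Complex.measurable_ofReal.comp ?_).mul_const _)
    refine Finset.measurable_sum _ fun i _ => Measurable.const_mul ?_ _
    refine (measurable_pi_apply i.2).comp ((measurable_rec' n).comp ?_)
    exact measurable_pi_iff.2 fun j => measurable_pi_apply _
  have e1 : ∀ p, Complex.exp (((∑ i ∈ I, θ i * (U ∘ xiB ν K) p i : ℝ) : ℂ) * Complex.I) =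
      Φ (incB ν K n p) := by
    intro p
    simp only [Φ, Function.comp_apply, hU]
    congr 3
    apply sum_congr rfl
    intro i hi
    congr 1
    exact (rec'_eq n (Bp ν K p i.1) (Bp_succ ν K p i.1) (Bp_zero ν K p i.1) i.2 (hn i hi)).symm
  have e2 : ∀ ξ : V → ℕ × ℕ → ℝ, Complex.exp (((∑ i ∈ I, θ i * U ξ i : ℝ) : ℂ) * Complex.I) =
      Φ (lev n ξ) := by
    intro ξ
    simp only [Φ, hU]
    congr 3
    apply sum_congr rfl
    intro i hi
    congr 1
    have h1 := rec'_eq n (path (ξ i.1)) (fun k j => path_succ_two_mul _ k j)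
      (fun k => path_zero _ k) i.2 (hn i hi)
    rw [noiseOf_path] at h1
    rw [← h1]
    congr 1
    ext j
    rw [path_sub]
    rfl
  simp_rw [e1, e2]
  rw [← integral_map (φ := incB ν K n) (measurable_incB ν K n).aemeasurable
    hΦ.aestronglyMeasurable, map_incB ν K hK hKu n,
    ← integral_map (φ := lev n) (measurable_lev n).aemeasurable hΦ.aestronglyMeasurable, map_lev]

end Crest.Agent.R168
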