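import Crest.Agent.R168.Law3

/-!
Row 168: measurability, naturality and law of the factor map.
-/

set_option autoImplicit false
open MeasureTheory ProbabilityTheory Finset Filter
open scoped NNReal ENNReal Topology

namespace Crest.Agent.R168

section meas

variable {V : Type*}

theorem measurable_pick {α ι β : Type*} [MeasurableSpace α] [MeasurableSpace β] [Countable ι]
    {N : α → ι} (hN : ∀ i, MeasurableSet {a | N a = i}) {g : ι → α → β}
    (hg : ∀ i, Measurable (g i)) : Measurable (fun a => g (N a) a) := by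
  intro s hs
  have : (fun a => g (N a) a) ⁻¹' s = ⋃ i, {a | N a = i} ∩ (g i) ⁻¹' s := by
    ext a
    simp
  rw [this]
  exact MeasurableSet.iUnion fun i => (hN i).inter (hg i hs)

theorem measurable_drift_param {α : Type*} [MeasurableSpace α] (q : α → Finset V → ℝ)
    (hq : ∀ S, Measurable (fun a => q a S)) (F : Finset V) (v : V) (y : α → V → ℝ)
    (hy : ∀ u, Measurable (fun a => y a u)) : Measurable (fun a => drift (q a) F v (y a)) := by
  unfold drift partAt part
  apply Measurable.div
  · apply Finset.measurable_sum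
    intro S _
    split_ifs
    · exact (hq S).mul (Real.measurable_exp.comp (Finset.measurable_sum _ fun i _ => hy i))
    · exact measurable_const
  · apply Finset.measurable_sum
    intro S _
    exact (hq S).mul (Real.measurable_exp.comp (Finset.measurable_sum _ fun i _ => hy i))

variable [Countable V] {α : Type*} [MeasurableSpace α] (q : α → Finset V → Finset V → ℝ)
  (hq : ∀ F S, Measurable (fun a => q a F S)) (K : α → V → ℕ → Finset V)
  (hK : ∀ v n F, MeasurableSet {a | K a v n = F})

include hq hK in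
theorem measurable_mdr_param (v : V) (t : ℝ) (y : α → V → ℝ)
    (hy : ∀ u, Measurable (fun a => y a u)) : Measurable (fun a => mdr (q a, K a) v t (y a)) := by
  unfold mdr
  refine Measurable.limsup fun n => ?_
  exact measurable_pick (N := fun a => K a v n) (fun F => hK v n F)
    (g := fun F a => drift (q a F) F v (fun u => y a u - t / 2))
    (fun F => measurable_drift_param (fun a => q a F) (fun S => hq F S) F v _
      (fun u => (hy u).sub_const _))

include hq hK in
theorem measurable_pic_param (b : α → V → ℕ → ℕ → ℝ) (hb : ∀ u k i, Measurable (fun a => b a u k i))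
    (n : ℕ) : ∀ v k j, Measurable (fun a => pic (mdr (q a, K a)) (b a) n v k j) := by
  induction n with
  | zero => intro v k j; exact measurable_const
  | succ n ih =>
    intro v k j
    simp only [pic, rie]
    refine Measurable.limsup fun l => ?_
    refine Finset.measurable_sum _ fun i _ => Measurable.const_mul ?_ _
    exact measurable_mdr_param q hq K hK v _ _ (fun u => (hb u _ _).add (ih u _ _))

include hq hK in
theorem measurable_Psi_param (ξ : α → V → ℕ × ℕ → ℝ) (hξ : ∀ u, Measurable (fun a => ξ a u)) :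
    Measurable (fun a => Psi (q a, K a) (ξ a)) := by
  rw [measurable_pi_iff]
  intro v
  have hpath : ∀ u k i, Measurable (fun a => path (ξ a u) k i) := fun u k i =>
    (measurable_path k i).comp (hξ u)
  have hz : ∀ v k j, Measurable (fun a => zed (q a, K a) (fun u => path (ξ a u)) v k j) := by
    intro v k j
    unfold zed
    exact Measurable.limsup fun n => measurable_pic_param q hq K hK _ hpath n v k j
  have hl : Measurable (fun a => limsup (fun k : ℕ =>
      (path (ξ a v) 0 (4 ^ k) + zed (q a, K a) (fun u => path (ξ a u)) v 0 (4 ^ k)) / 4 ^ k) atTop) :=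
    Measurable.limsup fun k => ((hpath v _ _).add (hz v _ _)).div_const _
  unfold Psi
  refine measurable_to_bool ?_
  have : (fun a => decide (1 / 2 < limsup (fun k : ℕ => (path (ξ a v) 0 (4 ^ k) +
      zed (q a, K a) (fun u => path (ξ a u)) v 0 (4 ^ k)) / 4 ^ k) atTop)) ⁻¹' {true} =
      {a | 1 / 2 < limsup (fun k : ℕ => (path (ξ a v) 0 (4 ^ k) +
      zed (q a, K a) (fun u => path (ξ a u)) v 0 (4 ^ k)) / 4 ^ k) atTop} := by
    ext a
    simp
  rw [this]
  exact measurableSet_lt measurable_const hl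

theorem measurable_Psi (δ : Data V) : Measurable (Psi δ) :=
  measurable_Psi_param (α := V → ℕ × ℕ → ℝ) (fun _ => δ.1) (fun _ _ => measurable_const)
    (fun _ => δ.2) (fun _ _ _ => MeasurableSet.const _) (fun ξ => ξ) (fun u => measurable_pi_apply u)

end meas

section natural

variable {V V' : Type*} (e : V ≃ V')

theorem sum_powerset_map (F : Finset V) (f : Finset V' → ℝ) :
    ∑ S ∈ (F.map e.toEmbedding).powerset, f S = ∑ S ∈ F.powerset, f (S.map e.toEmbedding) := by
  classical
  symm
  refine Finset.sum_bij (fun S _ => S.map e.toEmbedding) ?_ ?_ ?_ ?_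
  · intro S hS
    rw [mem_powerset] at hS ⊢
    exact Finset.map_subset_map.2 hS
  · intro S _ T _ h
    exact Finset.map_injective _ h
  · intro S hS
    rw [mem_powerset, Finset.subset_map_iff] at hS
    obtain ⟨T, hT, rfl⟩ := hS
    exact ⟨T, mem_powerset.2 hT, rfl⟩
  · intro S _
    rfl

theorem drift_map (q : Finset V → ℝ) (q' : Finset V' → ℝ)
    (hq : ∀ S, q' (S.map e.toEmbedding) = q S) (F : Finset V) (v : V) (y' : V' → ℝ) :
    drift q' (F.map e.toEmbedding) (e v) y' = drift q F v (fun u => y' (e u)) := by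
  unfold drift partAt part
  rw [sum_powerset_map, sum_powerset_map]
  congr 1
  · apply sum_congr rfl
    intro S _
    have : e v ∈ S.map e.toEmbedding ↔ v ∈ S := by simp
    by_cases hv : v ∈ S
    · rw [if_pos hv, if_pos (this.2 hv), hq, sum_map]
      simp
    · rw [if_neg hv, if_neg (fun h => hv (this.1 h))]
  · apply sum_congr rfl
    intro S _
    rw [hq, sum_map]
    simp

variable (δ : Data V) (δ' : Data V')
  (h1 : ∀ F S : Finset V, δ'.1 (F.map e.toEmbedding) (S.map e.toEmbedding) = δ.1 F S)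
  (h2 : ∀ v n, δ'.2 (e v) n = (δ.2 v n).map e.toEmbedding)

include h1 h2

theorem mdr_map (v : V) (t : ℝ) (y' : V' → ℝ) :
    mdr δ' (e v) t y' = mdr δ v t (fun u => y' (e u)) := by
  unfold mdr
  congr 1
  ext n
  rw [h2]
  exact drift_map e _ _ (h1 _) _ v _

theorem pic_map (b' : V' → ℕ → ℕ → ℝ) (n : ℕ) : ∀ v k j,
    pic (mdr δ') b' n (e v) k j = pic (mdr δ) (fun u => b' (e u)) n v k j := by
  induction n with
  | zero => intro v k j; rfl
  | succ n ih =>
    intro v k j
    simp only [pic]
    congr 1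
    ext k i
    rw [mdr_map e δ δ' h1 h2]
    simp_rw [ih]

theorem Psi_map (ξ' : V' → ℕ × ℕ → ℝ) (v : V) : Psi δ' ξ' (e v) = Psi δ (fun u => ξ' (e u)) v := by
  unfold Psi zed
  simp_rw [pic_map e δ δ' h1 h2]

end natural

section law

variable {V : Type*} (ν : Measure (V → Bool)) [IsProbabilityMeasure ν]

theorem ae_slln (v : V) : ∀ᵐ p ∂(full ν), Tendsto (fun k : ℕ => path (p.2 v) 0 (4 ^ k) / 4 ^ k) atTop
    (𝓝 0) := by
  -- strong law for one site
  have h1 : ∀ᵐ ζ ∂(gnoise (ℕ × ℕ) 1), Tendsto
      (fun n : ℕ => (∑ i ∈ range n, (ζ (0, i) : ℝ)) / (n : ℝ)) atTop (𝓝 (0 : ℝ)) := by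
    have hind : iIndepFun (fun (i : ℕ × ℕ) (x : ℕ × ℕ → ℝ) => x i) (gnoise (ℕ × ℕ) 1) := by
      unfold gnoise
      exact iIndepFun_infinitePi (X := fun _ x => x) (fun _ => measurable_id)
    have hlaw : ∀ i : ℕ × ℕ, (gnoise (ℕ × ℕ) 1).map (fun x => x i) = gaussianReal 0 1 := fun i =>
      Measure.infinitePi_map_eval (μ := fun _ : ℕ × ℕ => gaussianReal 0 1) i
    have hid : ∀ i, IdentDistrib (fun ζ : ℕ × ℕ → ℝ => ζ (0, i)) (fun ζ : ℕ × ℕ → ℝ => ζ (0, 0))
        (gnoise (ℕ × ℕ) 1) (gnoise (ℕ × ℕ) 1) := fun i =>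
      ⟨(measurable_pi_apply _).aemeasurable, (measurable_pi_apply _).aemeasurable, by
        rw [hlaw, hlaw]⟩
    have hint : Integrable (fun ζ : ℕ × ℕ → ℝ => ζ (0, 0)) (gnoise (ℕ × ℕ) 1) := by
      have h2 : Integrable (fun x : ℝ => x) (gaussianReal 0 1) :=
        (memLp_id_gaussianReal 1).integrable le_rfl
      rw [← hlaw (0, 0)] at h2
      exact (integrable_map_measure measurable_id.aestronglyMeasurable
        (measurable_pi_apply _).aemeasurable).1 h2
    have h3 := strong_law_ae_real (fun (i : ℕ) (ζ : ℕ × ℕ → ℝ) => ζ (0, i)) hint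
      (fun i j hij => hind.indepFun (by simpa using hij)) hid
    have h4 : ∫ ζ : ℕ × ℕ → ℝ, ζ (0, 0) ∂(gnoise (ℕ × ℕ) 1) = 0 := by
      have h5 : ∫ x : ℝ, x ∂(gaussianReal 0 1) = 0 := by simp
      have h6 : Measurable (fun x : ℕ × ℕ → ℝ => x (0, 0)) := measurable_pi_apply _
      have h7 : Measurable (fun x : ℝ => x) := measurable_id
      rw [← hlaw (0, 0), integral_map h6.aemeasurable h7.aestronglyMeasurable] at h5
      exact h5
    rw [h4] at h3
    exact h3
  have h2 : MeasurePreserving (fun p : (V → Bool) × (V → ℕ × ℕ → ℝ) => p.2 v) (full ν)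
      (gnoise (ℕ × ℕ) 1) := by
    have a1 : MeasurePreserving (Prod.snd : (V → Bool) × (V → ℕ × ℕ → ℝ) → _) (full ν)
        (noiseLaw V) := measurePreserving_snd
    exact (measurePreserving_eval_infinitePi (fun _ : V => gnoise (ℕ × ℕ) 1) v).comp a1
  have h3 := h2.quasiMeasurePreserving.ae h1
  filter_upwards [h3] with p hp
  have h4 : Tendsto (fun k : ℕ => 4 ^ k) atTop atTop := tendsto_pow_atTop_atTop_of_one_lt (by norm_num : 1 < 4)
  have h5 := hp.comp h4
  refine h5.congr fun k => ?_
  simp only [Function.comp_apply, path, incr_zero]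
  push_cast
  rfl

/-- The law of the factor map. -/
theorem Psi_law [Countable V] (K : V → ℕ → Finset V) (hK : ∀ v, Monotone (K v))
    (hKu : ∀ v u, ∃ n, u ∈ K v n) (C : ℝ) (hC : 0 ≤ C)
    (hLip : ∀ v n, DriftLip (cylW ν (K v n)) (K v n) v C) :
    (noiseLaw V).map (Psi (fun F => cylW ν F, K)) = ν := by
  set δ : Data V := (fun F => cylW ν F, K) with hδ
  have hq : ∀ F S, 0 ≤ δ.1 F S := fun F S => cylW_nonneg ν F S
  rw [← map_xiB ν K hK hKu, Measure.map_map (measurable_Psi δ) (measurable_xiB ν K)]
  -- the factor map recovers the configuration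
  have key : Psi δ ∘ xiB ν K =ᵐ[full ν] Prod.fst := by
    have h1 : ∀ᵐ p ∂(full ν), ∀ v, Tendsto (fun k : ℕ => path (p.2 v) 0 (4 ^ k) / 4 ^ k) atTop
        (𝓝 0) := ae_all_iff.2 fun v => ae_slln ν v
    filter_upwards [h1] with p hp
    have hpath : ∀ u, path (xiB ν K p u) = Bp ν K p u := by
      intro u
      ext k j
      exact path_noiseOf _ (Bp_succ ν K p u) (Bp_zero ν K p u) k j
    have hA : ∀ v k j, Ap ν K p v k j = rie (fun k i => mdr δ v (i * mesh k)
        (fun u => Bp ν K p u k i + Ap ν K p u k i)) k j := by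
      intro v k j
      have e1 : (fun (k i : ℕ) => mdr δ v ((i : ℝ) * mesh k)
        (fun u => Bp ν K p u k i + Ap ν K p u k i)) = fun k i => Mp ν K p v k i := by
        ext k i
        unfold Mp
        congr 1
        ext u
        unfold Bp
        ring
      rw [e1]
      rfl
    have hpic : ∀ v k j, zed δ (fun u => path (xiB ν K p u)) v k j = Ap ν K p v k j := by
      intro v k j
      simp_rw [hpath]
      exact (pic_tendsto (mdr δ) (abs_mdr_le δ hq) C hC (mdr_lip δ hq C hLip) (Bp ν K p)
        (Ap ν K p) hA v k j).limsup_eq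
    ext v
    simp only [Function.comp_apply, Psi]
    simp_rw [hpic, hpath]
    have h2 : ∀ k : ℕ, (Bp ν K p v 0 (4 ^ k) + Ap ν K p v 0 (4 ^ k)) / 4 ^ k =
        path (p.2 v) 0 (4 ^ k) / 4 ^ k + (if p.1 v then 1 else 0) := by
      intro k
      have : Bp ν K p v 0 (4 ^ k) + Ap ν K p v 0 (4 ^ k) = Yp p v 0 (4 ^ k) := by
        unfold Bp; ring
      rw [this]
      unfold Yp
      rw [add_div]
      congr 1
      split_ifs
      · rw [coe_mesh]; push_cast; field_simp
      · simp
    simp_rw [h2]
    have h3 : Tendsto (fun k : ℕ => path (p.2 v) 0 (4 ^ k) / 4 ^ k + (if p.1 v then (1 : ℝ) else 0))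
        atTop (𝓝 (0 + (if p.1 v then (1 : ℝ) else 0))) := (hp v).add_const _
    rw [h3.limsup_eq, zero_add]
    cases hb : p.1 v
    · norm_num
    · norm_num
  rw [Measure.map_congr key]
  exact (measurePreserving_fst (μ := ν) (ν := noiseLaw V)).map_eq

end law

end Crest.Agent.R168
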