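import Mathlib

/-!
Row 168: pairwise negative correlation (Rayleigh property) from real stability.
-/

set_option autoImplicit false
open Filter Topology

namespace Crest.Agent.R168.NegCorr

/-- Evaluation at the weights `w i * c` tilted by `x` at `u` and `y` at `v`. -/
theorem eval_eq {V : Type*} [DecidableEq V] (q : Finset V → ℝ) (F : Finset V) (u v : V)
    (w : V → ℝ) (c x y : ℂ) :
    ∑ S ∈ F.powerset, (q S : ℂ) * ∏ i ∈ S,
        ((w i : ℂ) * c * (if i = u then x else 1) * (if i = v then y else 1)) =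
      (∑ S ∈ F.powerset, ((q S * ∏ i ∈ S, w i : ℝ) : ℂ) * c ^ S.card * (if u ∈ S then x else 1) *
        (if v ∈ S then 0 else 1)) +
      y * (∑ S ∈ F.powerset, ((q S * ∏ i ∈ S, w i : ℝ) : ℂ) * c ^ S.card *
        (if u ∈ S then x else 1) * (if v ∈ S then 1 else 0)) := by
  rw [Finset.mul_sum, ← Finset.sum_add_distrib]
  refine Finset.sum_congr rfl fun S _ => ?_
  rw [Finset.prod_mul_distrib, Finset.prod_mul_distrib, Finset.prod_mul_distrib,
    Finset.prod_const, Finset.prod_ite_eq' S u, Finset.prod_ite_eq' S v]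
  push_cast
  by_cases h1 : u ∈ S <;> by_cases h2 : v ∈ S <;> simp [h1, h2] <;> ring

theorem pair_of_stable {V : Type*} [DecidableEq V] (q : Finset V → ℝ) (F : Finset V)
    (hq : ∀ S ⊆ F, 0 ≤ q S)
    (hstable : ∀ z : V → ℂ, (∀ i ∈ F, 0 < (z i).im) →
      ∑ S ∈ F.powerset, (q S : ℂ) * ∏ i ∈ S, z i ≠ 0)
    (u v : V) (huv : u ≠ v) (w : V → ℝ) (hw : ∀ i ∈ F, 0 < w i) :
    (∑ S ∈ F.powerset with u ∉ S ∧ v ∉ S, q S * ∏ i ∈ S, w i) *
      (∑ S ∈ F.powerset with u ∈ S ∧ v ∈ S, q S * ∏ i ∈ S, w i) ≤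
    (∑ S ∈ F.powerset with u ∈ S ∧ v ∉ S, q S * ∏ i ∈ S, w i) *
      (∑ S ∈ F.powerset with u ∉ S ∧ v ∈ S, q S * ∏ i ∈ S, w i) := by
  by_contra hcon
  push Not at hcon
  set a := ∑ S ∈ F.powerset with u ∉ S ∧ v ∉ S, q S * ∏ i ∈ S, w i with ha
  set b := ∑ S ∈ F.powerset with u ∈ S ∧ v ∉ S, q S * ∏ i ∈ S, w i with hb
  set c := ∑ S ∈ F.powerset with u ∉ S ∧ v ∈ S, q S * ∏ i ∈ S, w i with hc
  set d := ∑ S ∈ F.powerset with u ∈ S ∧ v ∈ S, q S * ∏ i ∈ S, w i with hd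
  have hterm : ∀ S ∈ F.powerset, 0 ≤ q S * ∏ i ∈ S, w i := by
    intro S hS
    rw [Finset.mem_powerset] at hS
    exact mul_nonneg (hq S hS) (Finset.prod_nonneg fun i hi => (hw i (hS hi)).le)
  have hb0 : 0 ≤ b := Finset.sum_nonneg fun S hS => hterm S (Finset.mem_filter.1 hS).1
  have hc0 : 0 ≤ c := Finset.sum_nonneg fun S hS => hterm S (Finset.mem_filter.1 hS).1
  have hd0 : 0 ≤ d := Finset.sum_nonneg fun S hS => hterm S (Finset.mem_filter.1 hS).1
  have hdpos : 0 < d := by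
    rcases hd0.lt_or_eq with h | h
    · exact h
    · exfalso
      rw [← h] at hcon
      have := mul_nonneg hb0 hc0
      linarith
  -- the two halves
  set L0 : ℂ → ℂ := fun e => ∑ S ∈ F.powerset, ((q S * ∏ i ∈ S, w i : ℝ) : ℂ) * e ^ S.card *
    (if u ∈ S then Complex.I else 1) * (if v ∈ S then 0 else 1) with hL0
  set L1 : ℂ → ℂ := fun e => ∑ S ∈ F.powerset, ((q S * ∏ i ∈ S, w i : ℝ) : ℂ) * e ^ S.card *
    (if u ∈ S then Complex.I else 1) * (if v ∈ S then 1 else 0) with hL1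
  have h01 : L0 1 = a + b * Complex.I := by
    rw [ha, hb, hL0, Finset.sum_filter, Finset.sum_filter]
    push_cast
    rw [Finset.sum_mul, ← Finset.sum_add_distrib]
    refine Finset.sum_congr rfl fun S _ => ?_
    by_cases h1 : u ∈ S <;> by_cases h2 : v ∈ S <;> simp [h1, h2]
  have h11 : L1 1 = c + d * Complex.I := by
    rw [hc, hd, hL1, Finset.sum_filter, Finset.sum_filter]
    push_cast
    rw [Finset.sum_mul, ← Finset.sum_add_distrib]
    refine Finset.sum_congr rfl fun S _ => ?_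
    by_cases h1 : u ∈ S <;> by_cases h2 : v ∈ S <;> simp [h1, h2]
  have hne : L1 1 ≠ 0 := by
    intro h
    rw [h11] at h
    have := congrArg Complex.im h
    simp at this
    exact hdpos.ne' this
  have hcL0 : Continuous L0 := by
    rw [hL0]; fun_prop
  have hcL1 : Continuous L1 := by
    rw [hL1]; fun_prop
  -- the perturbation
  let e : ℝ → ℂ := fun t => 1 + t * Complex.I
  have hce : Continuous e := by
    show Continuous fun t : ℝ => (1 : ℂ) + t * Complex.I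
    fun_prop
  have he0 : e 0 = 1 := by simp [e]
  have hcont : ContinuousAt (fun t : ℝ => (e t * (-(L0 (e t)) / L1 (e t))).im) 0 := by
    apply Complex.continuous_im.continuousAt.comp
    apply ContinuousAt.mul hce.continuousAt
    apply ContinuousAt.div
    · exact (hcL0.comp hce).neg.continuousAt
    · exact (hcL1.comp hce).continuousAt
    · simpa [he0] using hne
  have hval : 0 < (e 0 * (-(L0 (e 0)) / L1 (e 0))).im := by
    rw [he0, one_mul, h01, h11]
    rw [Complex.div_im]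
    have hn : 0 < Complex.normSq ((c : ℂ) + d * Complex.I) := by
      rw [Complex.normSq_pos, ← h11]; exact hne
    simp only [Complex.add_re, Complex.add_im, Complex.neg_re, Complex.neg_im, Complex.mul_re,
      Complex.mul_im, Complex.ofReal_re, Complex.ofReal_im, Complex.I_re, Complex.I_im]
    rw [← sub_div]
    apply div_pos _ hn
    nlinarith
  have hev1 : ∀ᶠ t in 𝓝 (0 : ℝ), 0 < (e t * (-(L0 (e t)) / L1 (e t))).im :=
    hcont.eventually (lt_mem_nhds hval)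
  have hev2 : ∀ᶠ t in 𝓝 (0 : ℝ), L1 (e t) ≠ 0 := by
    apply (hcL1.comp hce).continuousAt.eventually_ne
    simpa [he0] using hne
  obtain ⟨t, ht1, ht2, ht0⟩ : ∃ t : ℝ, 0 < (e t * (-(L0 (e t)) / L1 (e t))).im ∧
      L1 (e t) ≠ 0 ∧ 0 < t := by
    have h1 : ∀ᶠ t in 𝓝[>] (0 : ℝ), 0 < (e t * (-(L0 (e t)) / L1 (e t))).im :=
      hev1.filter_mono nhdsWithin_le_nhds
    have h2 : ∀ᶠ t in 𝓝[>] (0 : ℝ), L1 (e t) ≠ 0 := hev2.filter_mono nhdsWithin_le_nhds
    have h3 : ∀ᶠ t in 𝓝[>] (0 : ℝ), 0 < t := self_mem_nhdsWithin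
    exact ((h1.and h2).and h3).exists.imp fun t h => ⟨h.1.1, h.1.2, h.2⟩
  set y : ℂ := -(L0 (e t)) / L1 (e t) with hy
  refine hstable (fun i => (w i : ℂ) * e t * (if i = u then Complex.I else 1) *
    (if i = v then y else 1)) ?_ ?_
  · intro i hi
    have hwi := hw i hi
    rcases eq_or_ne i u with rfl | h1
    · rw [if_pos rfl, if_neg huv]
      simp [e, hwi]
    · rcases eq_or_ne i v with rfl | h2
      · rw [if_neg h1, if_pos rfl, mul_one, mul_assoc, Complex.im_ofReal_mul]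
        exact mul_pos hwi ht1
      · rw [if_neg h1, if_neg h2]
        simp [e, hwi, ht0]
  · rw [eval_eq]
    show L0 (e t) + y * L1 (e t) = 0
    rw [hy]
    field_simp
    ring

/-- The Rayleigh property (pairwise negative correlation) of a real stable polynomial with
nonnegative coefficients. -/
theorem rayleigh_of_stable {V : Type*} [DecidableEq V] (q : Finset V → ℝ) (F : Finset V)
    (hq : ∀ S ⊆ F, 0 ≤ q S)
    (hstable : ∀ z : V → ℂ, (∀ i ∈ F, 0 < (z i).im) →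
      ∑ S ∈ F.powerset, (q S : ℂ) * ∏ i ∈ S, z i ≠ 0)
    (u v : V) (hu : u ∈ F) (hv : v ∈ F) (huv : u ≠ v) (w : V → ℝ) (hw : ∀ i ∈ F, 0 < w i) :
    (∑ S ∈ F.powerset, q S * ∏ i ∈ S, w i) *
        (∑ S ∈ F.powerset with u ∈ S ∧ v ∈ S, q S * ∏ i ∈ S, w i) ≤
      (∑ S ∈ F.powerset with u ∈ S, q S * ∏ i ∈ S, w i) *
        (∑ S ∈ F.powerset with v ∈ S, q S * ∏ i ∈ S, w i) := by
  have key := pair_of_stable q F hq hstable u v huv w hw
  have h1 : ∑ S ∈ F.powerset, q S * ∏ i ∈ S, w i =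
      (∑ S ∈ F.powerset with u ∉ S ∧ v ∉ S, q S * ∏ i ∈ S, w i) +
      (∑ S ∈ F.powerset with u ∈ S ∧ v ∉ S, q S * ∏ i ∈ S, w i) +
      (∑ S ∈ F.powerset with u ∉ S ∧ v ∈ S, q S * ∏ i ∈ S, w i) +
      (∑ S ∈ F.powerset with u ∈ S ∧ v ∈ S, q S * ∏ i ∈ S, w i) := by
    simp only [Finset.sum_filter, ← Finset.sum_add_distrib]
    refine Finset.sum_congr rfl fun S _ => ?_
    by_cases h1 : u ∈ S <;> by_cases h2 : v ∈ S <;> simp [h1, h2]
  have h2 : ∑ S ∈ F.powerset with u ∈ S, q S * ∏ i ∈ S, w i =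
      (∑ S ∈ F.powerset with u ∈ S ∧ v ∉ S, q S * ∏ i ∈ S, w i) +
      (∑ S ∈ F.powerset with u ∈ S ∧ v ∈ S, q S * ∏ i ∈ S, w i) := by
    simp only [Finset.sum_filter, ← Finset.sum_add_distrib]
    refine Finset.sum_congr rfl fun S _ => ?_
    by_cases h1 : u ∈ S <;> by_cases h2 : v ∈ S <;> simp [h1, h2]
  have h3 : ∑ S ∈ F.powerset with v ∈ S, q S * ∏ i ∈ S, w i =
      (∑ S ∈ F.powerset with u ∉ S ∧ v ∈ S, q S * ∏ i ∈ S, w i) +
      (∑ S ∈ F.powerset with u ∈ S ∧ v ∈ S, q S * ∏ i ∈ S, w i) := by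
    simp only [Finset.sum_filter, ← Finset.sum_add_distrib]
    refine Finset.sum_congr rfl fun S _ => ?_
    by_cases h1 : u ∈ S <;> by_cases h2 : v ∈ S <;> simp [h1, h2]
  rw [h1, h2, h3]
  nlinarith [key]

end Crest.Agent.R168.NegCorr
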