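import Crest.Agent.R168.Defs

set_option autoImplicit false
open MeasureTheory Crest.ProbabilityR Crest.ProbabilityR.SpanningTrees

namespace Crest.Agent.R168.PairNoise

/-! ### Combinatorial distance -/

/-- there is a walk of length `n` from `u` to `w` -/
def reach (G : SimpleGraph ℕ) : ℕ → ℕ → ℕ → Prop
  | 0, u, w => u = w
  | n + 1, u, w => ∃ v, G.Adj u v ∧ reach G n v w

open Classical in
/-- distance -/
noncomputable def dst (G : SimpleGraph ℕ) (u w : ℕ) : ℕ := sInf {n | reach G n u w}

lemma reach_comap (G : SimpleGraph ℕ) (σ : Equiv.Perm ℕ) (n : ℕ) (u w : ℕ) :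
    reach (G.comap ⇑σ) n u w ↔ reach G n (σ u) (σ w) := by
  induction n generalizing u with
  | zero => simp [reach]
  | succ n ih =>
    simp only [reach, ih, SimpleGraph.comap_adj]
    constructor
    · rintro ⟨v, h1, h2⟩; exact ⟨σ v, h1, h2⟩
    · rintro ⟨v, h1, h2⟩
      refine ⟨σ.symm v, ?_, ?_⟩
      · simpa using h1
      · simpa using h2

lemma dst_comap (G : SimpleGraph ℕ) (σ : Equiv.Perm ℕ) (u w : ℕ) :
    dst (G.comap ⇑σ) u w = dst G (σ u) (σ w) := by
  unfold dst
  simp_rw [reach_comap]

lemma dst_self (G : SimpleGraph ℕ) (u : ℕ) : dst G u u = 0 := by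
  unfold dst
  rw [Nat.sInf_eq_zero]
  left; simp [reach]

lemma exists_reach_of_connected (G : SimpleGraph ℕ) (hG : G.Connected) (u w : ℕ) :
    ∃ n, reach G n u w := by
  obtain ⟨p⟩ := hG.preconnected u w
  induction p with
  | nil => exact ⟨0, rfl⟩
  | cons h p ih =>
    obtain ⟨n, hn⟩ := ih
    exact ⟨n + 1, _, h, hn⟩

lemma reach_dst (G : SimpleGraph ℕ) (hG : G.Connected) (u w : ℕ) : reach G (dst G u w) u w :=
  Nat.sInf_mem (s := {n | reach G n u w}) (exists_reach_of_connected G hG u w)

lemma eq_of_dst_eq_zero (G : SimpleGraph ℕ) (hG : G.Connected) (u w : ℕ) (h : dst G u w = 0) :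
    u = w := by
  have := reach_dst G hG u w
  rw [h] at this
  exact this

lemma reach_finite (G : SimpleGraph ℕ) (hfin : ∀ v : ℕ, (G.neighborSet v).Finite) (n u : ℕ) :
    {w | reach G n u w}.Finite := by
  induction n generalizing u with
  | zero => exact (Set.finite_singleton u).subset (by intro w hw; simp [reach] at hw; simp [hw])
  | succ n ih =>
    have : {w | reach G (n + 1) u w} ⊆ ⋃ v ∈ G.neighborSet u, {w | reach G n v w} := by
      intro w hw
      obtain ⟨v, h1, h2⟩ := hw
      simp only [Set.mem_iUnion]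
      exact ⟨v, h1, h2⟩
    exact ((hfin u).biUnion (fun v _ => ih v)).subset this

lemma ball_finite (G : SimpleGraph ℕ) (hG : G.Connected)
    (hfin : ∀ v : ℕ, (G.neighborSet v).Finite) (n u : ℕ) :
    {w | dst G u w ≤ n}.Finite := by
  have : {w | dst G u w ≤ n} ⊆ ⋃ k ∈ Set.Iic n, {w | reach G k u w} := by
    intro w hw
    simp only [Set.mem_iUnion]
    exact ⟨dst G u w, hw, reach_dst G hG u w⟩
  exact ((Set.finite_Iic n).biUnion (fun k _ => reach_finite G hfin k u)).subset this

/-! ### Ranks -/

/-- `z` precedes `w` in the order seen from `u` -/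
def prec (G : SimpleGraph ℕ) (a : ℕ → unitInterval) (u w z : ℕ) : Prop :=
  dst G u z < dst G u w ∨ (dst G u z = dst G u w ∧ a z < a w)

open Classical in
/-- number of the predecessors, as an extended nonnegative real -/
noncomputable def rankE (G : SimpleGraph ℕ) (a : ℕ → unitInterval) (u w : ℕ) : ENNReal :=
  ∑' z, if prec G a u w z then 1 else 0

noncomputable def rank (G : SimpleGraph ℕ) (a : ℕ → unitInterval) (u w : ℕ) : ℕ :=
  ⌊(rankE G a u w).toReal⌋₊

lemma rank_comap (G : SimpleGraph ℕ) (a : ℕ → unitInterval) (σ : Equiv.Perm ℕ) (u w : ℕ) :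
    rank (G.comap ⇑σ) (a ∘ ⇑σ) u w = rank G a (σ u) (σ w) := by
  classical
  unfold rank rankE
  congr 2
  rw [← Equiv.tsum_eq σ (fun z => if prec G a (σ u) (σ w) z then (1 : ENNReal) else 0)]
  apply tsum_congr
  intro z
  have : prec (G.comap ⇑σ) (a ∘ ⇑σ) u w z ↔ prec G a (σ u) (σ w) (σ z) := by
    unfold prec
    simp only [dst_comap, Function.comp]
  simp only [this]

lemma prec_finite (G : SimpleGraph ℕ) (hG : G.Connected)
    (hfin : ∀ v : ℕ, (G.neighborSet v).Finite) (a : ℕ → unitInterval) (u w : ℕ) :
    {z | prec G a u w z}.Finite := by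
  apply (ball_finite G hG hfin (dst G u w) u).subset
  intro z hz
  rcases hz with h | h
  · exact h.le
  · exact h.1.le

lemma rank_eq_ncard (G : SimpleGraph ℕ) (hG : G.Connected)
    (hfin : ∀ v : ℕ, (G.neighborSet v).Finite) (a : ℕ → unitInterval) (u w : ℕ) :
    rank G a u w = {z | prec G a u w z}.ncard := by
  classical
  have hf := prec_finite G hG hfin a u w
  unfold rank
  have : rankE G a u w = ({z | prec G a u w z}.ncard : ENNReal) := by
    unfold rankE
    rw [tsum_eq_sum (s := hf.toFinset)]
    · rw [Finset.sum_congr rfl (g := fun _ => (1 : ENNReal))]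
      · simp only [Finset.sum_const, nsmul_eq_mul, mul_one]
        rw [Set.ncard_eq_toFinset_card _ hf]
      · intro z hz
        rw [Set.Finite.mem_toFinset] at hz
        exact if_pos hz
    · intro z hz
      rw [Set.Finite.mem_toFinset] at hz
      exact if_neg hz
  rw [this]
  simp

lemma rank_injective (G : SimpleGraph ℕ) (hG : G.Connected)
    (hfin : ∀ v : ℕ, (G.neighborSet v).Finite) (a : ℕ → unitInterval)
    (ha : Function.Injective a) (u : ℕ) : Function.Injective (rank G a u) := by
  intro w w' h
  by_contra hne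
  rw [rank_eq_ncard G hG hfin, rank_eq_ncard G hG hfin] at h
  -- total order
  have key : ∀ w w', prec G a u w' w → {z | prec G a u w z}.ncard < {z | prec G a u w' z}.ncard := by
    intro w w' hww
    apply Set.ncard_lt_ncard _ (prec_finite G hG hfin a u w')
    constructor
    · intro z hz
      simp only [Set.mem_ofPred_eq] at hz ⊢
      unfold prec at hz hww ⊢
      rcases hz with hz | hz <;> rcases hww with hww | hww
      · left; omega
      · left; omega
      · left; omega
      · right; exact ⟨by omega, hz.2.trans hww.2⟩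
    · intro hsub
      have := hsub hww
      simp only [Set.mem_ofPred_eq, prec] at this
      rcases this with h | h
      · exact lt_irrefl _ h
      · exact lt_irrefl _ h.2
  have htot : prec G a u w' w ∨ prec G a u w w' := by
    unfold prec
    rcases lt_trichotomy (dst G u w) (dst G u w') with h | h | h
    · left; left; exact h
    · rcases lt_trichotomy (a w) (a w') with h' | h' | h'
      · left; right; exact ⟨h, h'⟩
      · exact absurd (ha h') hne
      · right; right; exact ⟨h.symm, h'⟩
    · right; left; exact h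
  rcases htot with h' | h'
  · exact absurd h (key _ _ h').ne
  · exact absurd h.symm (key _ _ h').ne

lemma rank_pos (G : SimpleGraph ℕ) (hG : G.Connected)
    (hfin : ∀ v : ℕ, (G.neighborSet v).Finite) (a : ℕ → unitInterval) (u w : ℕ) (h : u ≠ w) :
    0 < rank G a u w := by
  rw [rank_eq_ncard G hG hfin, Set.ncard_pos (prec_finite G hG hfin a u w)]
  refine ⟨u, Or.inl ?_⟩
  rw [dst_self]
  rcases Nat.eq_zero_or_pos (dst G u w) with h0 | h0
  · exact absurd (eq_of_dst_eq_zero G hG u w h0) h
  · exact h0

/-! ### The index of a pair -/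

open Classical in
/-- the vertex and the rank attached to a pair -/
noncomputable def idx (G : SimpleGraph ℕ) (a : ℕ → unitInterval) : Sym2 ℕ → ℕ × ℕ :=
  Sym2.lift ⟨fun u w => if a u < a w then (u, rank G a u w) else if a w < a u then
    (w, rank G a w u) else (min u w, 0), by
      intro u w
      simp only
      rcases lt_trichotomy (a u) (a w) with h | h | h
      · rw [if_pos h, if_neg (not_lt.2 h.le), if_pos h]
      · rw [if_neg (by rw [h]; exact lt_irrefl _), if_neg (by rw [h]; exact lt_irrefl _),
          if_neg (by rw [h]; exact lt_irrefl _), if_neg (by rw [h]; exact lt_irrefl _), min_comm]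
      · rw [if_neg (not_lt.2 h.le), if_pos h, if_pos h]⟩

/-- the pair has a tie -/
def tie (a : ℕ → unitInterval) : Sym2 ℕ → Prop :=
  Sym2.lift ⟨fun u w => u ≠ w ∧ a u = a w, by
    intro u w; simp only [eq_iff_iff]; constructor
    · rintro ⟨h1, h2⟩; exact ⟨h1.symm, h2.symm⟩
    · rintro ⟨h1, h2⟩; exact ⟨h1.symm, h2.symm⟩⟩

lemma tie_map (a : ℕ → unitInterval) (σ : Equiv.Perm ℕ) (e : Sym2 ℕ) :
    tie a (Sym2.map ⇑σ e) ↔ tie (a ∘ ⇑σ) e := by
  induction e with
  | _ u w =>
    simp only [tie, Sym2.lift_mk, Sym2.map_mk, Function.comp]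
    constructor
    · rintro ⟨h1, h2⟩; exact ⟨fun h => h1 (by rw [h]), h2⟩
    · rintro ⟨h1, h2⟩; exact ⟨fun h => h1 (σ.injective h), h2⟩

lemma idx_map (G : SimpleGraph ℕ) (a : ℕ → unitInterval) (σ : Equiv.Perm ℕ) (e : Sym2 ℕ)
    (h : ¬ tie (a ∘ ⇑σ) e) : idx G a (Sym2.map ⇑σ e) =
      (σ (idx (G.comap ⇑σ) (a ∘ ⇑σ) e).1, (idx (G.comap ⇑σ) (a ∘ ⇑σ) e).2) := by
  induction e with
  | _ u w =>
    simp only [tie, Sym2.lift_mk] at h
    simp only [Sym2.map_mk, idx, Sym2.lift_mk, rank_comap]
    simp only [Function.comp] at h ⊢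
    rcases lt_trichotomy (a (σ u)) (a (σ w)) with h' | h' | h'
    · rw [if_pos h', if_pos h']
    · have huw : u = w := by
        by_contra hne
        exact h ⟨hne, h'⟩
      subst huw
      simp
    · rw [if_neg (not_lt.2 h'.le), if_neg (not_lt.2 h'.le), if_pos h', if_pos h']

lemma idx_injective (G : SimpleGraph ℕ) (hG : G.Connected)
    (hfin : ∀ v : ℕ, (G.neighborSet v).Finite) (a : ℕ → unitInterval)
    (ha : Function.Injective a) : Function.Injective (idx G a) := by
  classical
  -- representation of a pair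
  have hrep : ∀ e : Sym2 ℕ, ∃ u w, e = s(u, w) ∧ ((u = w ∧ idx G a e = (u, 0)) ∨
      (a u < a w ∧ idx G a e = (u, rank G a u w))) := by
    intro e
    induction e with
    | _ u w =>
      rcases lt_trichotomy (a u) (a w) with h | h | h
      · exact ⟨u, w, rfl, Or.inr ⟨h, by simp [idx, h]⟩⟩
      · have := ha h
        subst this
        exact ⟨u, u, rfl, Or.inl ⟨rfl, by simp [idx]⟩⟩
      · exact ⟨w, u, Sym2.eq_swap, Or.inr ⟨h, by simp [idx, h, not_lt.2 h.le]⟩⟩
  intro e e' h
  obtain ⟨u, w, rfl, h1⟩ := hrep e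
  obtain ⟨u', w', rfl, h1'⟩ := hrep e'
  rcases h1 with ⟨h1, h2⟩ | ⟨h1, h2⟩ <;> rcases h1' with ⟨h1', h2'⟩ | ⟨h1', h2'⟩
  · rw [h2, h2'] at h
    have := (Prod.mk.inj h).1
    subst h1; subst h1'; subst this; rfl
  · rw [h2, h2'] at h
    have h3 := Prod.mk.inj h
    have := rank_pos G hG hfin a u' w' (by rintro rfl; exact lt_irrefl _ h1')
    omega
  · rw [h2, h2'] at h
    have h3 := Prod.mk.inj h
    have := rank_pos G hG hfin a u w (by rintro rfl; exact lt_irrefl _ h1)
    omega
  · rw [h2, h2'] at h
    obtain ⟨h3, h4⟩ := Prod.mk.inj h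
    subst h3
    have := rank_injective G hG hfin a ha u h4
    subst this; rfl


/-! ### Measurability -/

section meas

variable {Ω : Type*} [MeasurableSpace Ω]

lemma measurableSet_reach (G : Ω → SimpleGraph ℕ)
    (hG : ∀ i j, MeasurableSet {ω | (G ω).Adj i j}) (n u w : ℕ) :
    MeasurableSet {ω | reach (G ω) n u w} := by
  induction n generalizing u with
  | zero =>
    simp only [reach]
    exact MeasurableSet.const _
  | succ n ih =>
    have : {ω | reach (G ω) (n + 1) u w} = ⋃ v, ({ω | (G ω).Adj u v} ∩ {ω | reach (G ω) n v w}) := by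
      ext ω; simp [reach]
    rw [this]
    exact MeasurableSet.iUnion fun v => (hG u v).inter (ih v)

lemma measurable_dst (G : Ω → SimpleGraph ℕ)
    (hG : ∀ i j, MeasurableSet {ω | (G ω).Adj i j}) (u w : ℕ) :
    Measurable (fun ω => dst (G ω) u w) := by
  apply measurable_to_countable'
  intro m
  have hr := fun n => measurableSet_reach G hG n u w
  rcases Nat.eq_zero_or_pos m with rfl | hm
  · have : (fun ω => dst (G ω) u w) ⁻¹' {0} =
        {ω | reach (G ω) 0 u w} ∪ ⋂ n, {ω | reach (G ω) n u w}ᶜ := by
      ext ω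
      simp only [Set.mem_preimage, Set.mem_singleton_iff, dst, Nat.sInf_eq_zero, Set.mem_ofPred_eq,
        Set.mem_union, Set.mem_iInter, Set.mem_compl_iff, Set.eq_empty_iff_forall_notMem]
    rw [this]
    exact (hr 0).union (MeasurableSet.iInter fun n => (hr n).compl)
  · have : (fun ω => dst (G ω) u w) ⁻¹' {m} =
        {ω | reach (G ω) m u w} ∩ ⋂ n ∈ Set.Iio m, {ω | reach (G ω) n u w}ᶜ := by
      ext ω
      simp only [Set.mem_preimage, Set.mem_singleton_iff, dst, Set.mem_ofPred_eq,
        Set.mem_inter_iff, Set.mem_iInter, Set.mem_compl_iff, Set.mem_Iio]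
      constructor
      · intro h
        have hne : {n | reach (G ω) n u w}.Nonempty := by
          by_contra hne
          rw [Set.not_nonempty_iff_eq_empty] at hne
          rw [hne, Nat.sInf_empty] at h
          omega
        refine ⟨h ▸ Nat.sInf_mem hne, fun n hn => ?_⟩
        rw [← h] at hn
        exact Nat.notMem_of_lt_sInf (s := {n | reach (G ω) n u w}) hn
      · rintro ⟨h1, h2⟩
        apply le_antisymm (Nat.sInf_le (s := {n | reach (G ω) n u w}) h1)
        by_contra hlt
        push Not at hlt
        exact h2 _ hlt (Nat.sInf_mem (s := {n | reach (G ω) n u w}) ⟨m, h1⟩)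
    rw [this]
    exact (hr m).inter (MeasurableSet.biInter (Set.to_countable _) fun n _ => (hr n).compl)

lemma measurableSet_prec (G : Ω → SimpleGraph ℕ)
    (hG : ∀ i j, MeasurableSet {ω | (G ω).Adj i j}) (a : Ω → ℕ → unitInterval)
    (ha : Measurable a) (u w z : ℕ) : MeasurableSet {ω | prec (G ω) (a ω) u w z} := by
  have ha' : ∀ v, Measurable (fun ω => a ω v) := fun v => (measurable_pi_apply v).comp ha
  have h1 : MeasurableSet {ω | dst (G ω) u z < dst (G ω) u w} :=
    measurableSet_lt (measurable_dst G hG u z) (measurable_dst G hG u w)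
  have h2 : MeasurableSet {ω | dst (G ω) u z = dst (G ω) u w} :=
    measurableSet_eq_fun (measurable_dst G hG u z) (measurable_dst G hG u w)
  have h3 : MeasurableSet {ω | a ω z < a ω w} := measurableSet_lt (ha' z) (ha' w)
  exact h1.union (h2.inter h3)

lemma measurable_rank (G : Ω → SimpleGraph ℕ)
    (hG : ∀ i j, MeasurableSet {ω | (G ω).Adj i j}) (a : Ω → ℕ → unitInterval)
    (ha : Measurable a) (u w : ℕ) : Measurable (fun ω => rank (G ω) (a ω) u w) := by
  classical
  unfold rank rankE
  apply Nat.measurable_floor.comp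
  apply ENNReal.measurable_toReal.comp
  apply Measurable.tsum
  intro z
  exact Measurable.ite (measurableSet_prec G hG a ha u w z) measurable_const measurable_const

lemma measurable_idx (G : Ω → SimpleGraph ℕ)
    (hG : ∀ i j, MeasurableSet {ω | (G ω).Adj i j}) (a : Ω → ℕ → unitInterval)
    (ha : Measurable a) (e : Sym2 ℕ) : Measurable (fun ω => idx (G ω) (a ω) e) := by
  classical
  have ha' : ∀ v, Measurable (fun ω => a ω v) := fun v => (measurable_pi_apply v).comp ha
  induction e with
  | _ u w =>
    simp only [idx, Sym2.lift_mk]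
    refine Measurable.ite (measurableSet_lt (ha' u) (ha' w)) ?_ (Measurable.ite
      (measurableSet_lt (ha' w) (ha' u)) ?_ measurable_const)
    · exact measurable_const.prodMk (measurable_rank G hG a ha u w)
    · exact measurable_const.prodMk (measurable_rank G hG a ha w u)

lemma measurableSet_tie (a : Ω → ℕ → unitInterval)
    (ha : Measurable a) (e : Sym2 ℕ) : MeasurableSet {ω | tie (a ω) e} := by
  have ha' : ∀ v, Measurable (fun ω => a ω v) := fun v => (measurable_pi_apply v).comp ha
  induction e with
  | _ u w =>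
    simp only [tie, Sym2.lift_mk]
    exact (MeasurableSet.const _).inter (measurableSet_eq_fun (ha' u) (ha' w))

end meas

/-! ### The noise -/

section noise

variable {X : Type*} [MeasurableSpace X]

open Classical in
/-- the noise on pairs as a function of two independent families -/
noncomputable def HH [Nonempty X] (G : SimpleGraph ℕ)
    (z1 z2 : ℕ × ℕ → unitInterval × X) : Sym2 ℕ → X :=
  fun e => if tie (fun u => (z1 (u, 0)).1) e then Classical.arbitrary X
    else (z2 (idx G (fun u => (z1 (u, 0)).1) e)).2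

lemma measurable_HH [Nonempty X] {Ω : Type*} [MeasurableSpace Ω] (G : Ω → SimpleGraph ℕ)
    (hG : ∀ i j, MeasurableSet {ω | (G ω).Adj i j}) (z1 z2 : Ω → ℕ × ℕ → unitInterval × X)
    (h1 : Measurable z1) (h2 : Measurable z2) :
    Measurable (fun ω => HH (G ω) (z1 ω) (z2 ω)) := by
  classical
  rw [measurable_pi_iff]
  intro e
  have ha : Measurable (fun ω => (fun u => (z1 ω (u, 0)).1 : ℕ → unitInterval)) := by
    rw [measurable_pi_iff]
    intro u
    exact measurable_fst.comp ((measurable_pi_apply (u, 0)).comp h1)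
  unfold HH
  refine Measurable.ite (measurableSet_tie _ ha e) measurable_const ?_
  have hev : Measurable (fun q : (ℕ × ℕ → unitInterval × X) × (ℕ × ℕ) => (q.1 q.2).2) := by
    apply measurable_from_prod_countable_left
    intro q
    exact measurable_snd.comp (measurable_pi_apply q)
  exact hev.comp (h2.prodMk (measurable_idx G hG _ ha e))


variable (μ : Measure X) [IsProbabilityMeasure μ]

/-- the law of the single entries -/
noncomputable def rho : Measure (unitInterval × X) := (volume : Measure unitInterval).prod μ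

instance : IsProbabilityMeasure (rho μ) := by unfold rho; infer_instance

lemma rho_map_snd : (rho μ).map Prod.snd = μ := by
  unfold rho
  rw [Measure.map_snd_prod]
  simp

/-- the law of one family -/
noncomputable def gam : Measure (ℕ × ℕ → unitInterval × X) :=
  Measure.infinitePi (fun _ : ℕ × ℕ => rho μ)

instance : IsProbabilityMeasure (gam μ) := by unfold gam; infer_instance

lemma rho_fst_singleton (t : unitInterval) : rho μ {q | q.1 = t} = 0 := by
  have : {q : unitInterval × X | q.1 = t} = {t} ×ˢ Set.univ := by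
    ext q; simp
  rw [this]
  unfold rho
  rw [Measure.prod_prod]
  simp

lemma ae_injective : ∀ᵐ z1 ∂(gam μ), Function.Injective (fun u : ℕ => (z1 (u, 0)).1) := by
  have h : ∀ u v : ℕ, u ≠ v → ∀ᵐ z1 ∂(gam μ), (z1 (u, 0)).1 ≠ (z1 (v, 0)).1 := by
    intro u v huv
    have hne : (u, 0) ≠ ((v, 0) : ℕ × ℕ) := by
      intro h; exact huv (Prod.mk.inj h).1
    have hlaw := Measure.infinitePi_map_eval_prod (P := fun _ : ℕ × ℕ => rho μ) hne
    have hmeas : MeasurableSet {p : (unitInterval × X) × (unitInterval × X) | p.1.1 = p.2.1} :=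
      measurableSet_eq_fun (measurable_fst.comp measurable_fst) (measurable_fst.comp measurable_snd)
    have hnull : ((rho μ).prod (rho μ)) {p | p.1.1 = p.2.1} = 0 := by
      rw [Measure.prod_apply hmeas]
      rw [lintegral_eq_zero_iff (measurable_measure_prodMk_left hmeas)]
      apply Filter.Eventually.of_forall
      intro p
      have : Prod.mk p ⁻¹' {p : (unitInterval × X) × (unitInterval × X) | p.1.1 = p.2.1} =
          {q | q.1 = p.1} := by
        ext q; simp [eq_comm]
      change (rho μ) (Prod.mk p ⁻¹' {p | p.1.1 = p.2.1}) = 0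
      rw [this]
      exact rho_fst_singleton μ p.1
    rw [← hlaw, Measure.map_apply (by fun_prop) hmeas] at hnull
    rw [ae_iff]
    simpa [gam] using hnull
  have h' : ∀ᵐ z1 ∂(gam μ), ∀ u v : ℕ, u ≠ v → (z1 (u, 0)).1 ≠ (z1 (v, 0)).1 := by
    rw [ae_all_iff]
    intro u
    rw [ae_all_iff]
    intro v
    by_cases huv : u = v
    · exact Filter.Eventually.of_forall fun z h => absurd huv h
    · filter_upwards [h u v huv] with z hz _ using hz
  filter_upwards [h'] with z hz u v huv
  by_contra hne
  exact hz u v hne huv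

lemma map_HH [Nonempty X] (G : SimpleGraph ℕ) (hG : G.Connected)
    (hfin : ∀ v : ℕ, (G.neighborSet v).Finite) :
    ((gam μ).prod (gam μ)).map (fun p => HH G p.1 p.2) =
      Measure.infinitePi (fun _ : Sym2 ℕ => μ) := by
  classical
  have hmeas : Measurable (fun p : (ℕ × ℕ → unitInterval × X) × (ℕ × ℕ → unitInterval × X) =>
      HH G p.1 p.2) :=
    measurable_HH (fun _ => G) (fun i j => MeasurableSet.const _) _ _ measurable_fst measurable_snd
  ext S hS
  rw [Measure.map_apply hmeas hS, Measure.prod_apply (hmeas hS)]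
  have hae : ∀ᵐ z1 ∂(gam μ), (gam μ) (Prod.mk z1 ⁻¹' ((fun p : (ℕ × ℕ → unitInterval × X) ×
      (ℕ × ℕ → unitInterval × X) => HH G p.1 p.2) ⁻¹' S)) =
      Measure.infinitePi (fun _ : Sym2 ℕ => μ) S := by
    filter_upwards [ae_injective μ] with z1 hz1
    have hinj := idx_injective G hG hfin _ hz1
    have h1 : (gam μ).map (fun (z2 : ℕ × ℕ → unitInterval × X) (e : Sym2 ℕ) =>
        z2 (idx G (fun u => (z1 (u, 0)).1) e)) = Measure.infinitePi (fun _ : Sym2 ℕ => rho μ) :=
      Measure.map_infinitePi_infinitePi_of_inj (P := fun _ : ℕ × ℕ => rho μ) hinj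
    have h2 : (Measure.infinitePi (fun _ : Sym2 ℕ => rho μ)).map (fun z e => (z e).2) =
        Measure.infinitePi (fun _ : Sym2 ℕ => μ) := by
      have := Measure.infinitePi_map_pi (fun _ : Sym2 ℕ => rho μ)
        (f := fun _ => (Prod.snd : unitInterval × X → X)) (fun _ => measurable_snd)
      rw [rho_map_snd] at this
      exact this
    have h3 : (gam μ).map (fun (z2 : ℕ × ℕ → unitInterval × X) => HH G z1 z2) =
        Measure.infinitePi (fun _ : Sym2 ℕ => μ) := by
      rw [← h2, ← h1, Measure.map_map (by fun_prop) (by fun_prop)]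
      congr 1
      ext z2 e
      unfold HH
      have : ¬ tie (fun u => (z1 (u, 0)).1) e := by
        induction e with
        | _ u w =>
          simp only [tie, Sym2.lift_mk]
          rintro ⟨hne, heq⟩
          exact hne (hz1 heq)
      rw [if_neg this]
      rfl
    rw [← h3, Measure.map_apply _ hS]
    · rfl
    · exact measurable_HH (fun _ => G) (fun i j => MeasurableSet.const _) _ _ measurable_const
        measurable_id
  rw [lintegral_congr_ae hae]
  simp

end noise

/-- TASK E -/
theorem exists_pairNoise {X : Type*} [MeasurableSpace X] [StandardBorelSpace X] [Nonempty X]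
    (μ : Measure X) [IsProbabilityMeasure μ] :
    ∃ N : SimpleGraph ℕ → (ℕ → unitInterval) → (Sym2 ℕ → X),
      Measurable (fun p : (ℕ → ℕ → Bool) × (ℕ → unitInterval) =>
        N (GraphTables.graphOfTable p.1) p.2) ∧
      (∀ (σ : Equiv.Perm ℕ) (G : SimpleGraph ℕ) (x : ℕ → unitInterval),
        N (G.comap ⇑σ) (x ∘ ⇑σ) = N G x ∘ Sym2.map ⇑σ) ∧
      ∀ G : SimpleGraph ℕ, G.Connected → (∀ v : ℕ, (G.neighborSet v).Finite) →
        (Labels.labelMeasure ℕ).map (N G) = Measure.infinitePi (fun _ : Sym2 ℕ => μ) := by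
  classical
  obtain ⟨φ, hφ, hφlaw⟩ := Measure.exists_measurable_map_eq
    (Measure.infinitePi (fun _ : ℕ => rho μ))
  -- the two families
  set zz : Bool → (ℕ → unitInterval) → ℕ × ℕ → unitInterval × X :=
    fun b x q => φ (x q.1) (2 * q.2 + b.toNat) with hzz
  have hzm : ∀ b, Measurable (zz b) := by
    intro b
    rw [measurable_pi_iff]
    intro q
    exact (measurable_pi_apply _).comp (hφ.comp (measurable_pi_apply _))
  refine ⟨fun G x => HH G (zz true x) (zz false x), ?_, ?_, ?_⟩
  · apply measurable_HH (fun p : (ℕ → ℕ → Bool) × (ℕ → unitInterval) =>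
      GraphTables.graphOfTable p.1)
    · intro i j
      have hA : ∀ i j : ℕ, MeasurableSet {p : (ℕ → ℕ → Bool) × (ℕ → unitInterval) |
          p.1 i j = true} := fun i j =>
        measurableSet_eq_fun ((measurable_pi_apply j).comp
          ((measurable_pi_apply i).comp measurable_fst)) measurable_const
      have : {p : (ℕ → ℕ → Bool) × (ℕ → unitInterval) |
          (GraphTables.graphOfTable p.1).Adj i j} =
          {p | i ≠ j} ∩ ({p | p.1 i j = true} ∪ {p | p.1 j i = true}) := by
        ext p
        simp [GraphTables.graphOfTable, SimpleGraph.fromRel_adj]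
      rw [this]
      exact (MeasurableSet.const _).inter ((hA i j).union (hA j i))
    · exact (hzm true).comp measurable_snd
    · exact (hzm false).comp measurable_snd
  · intro σ G x
    ext e
    have ha : (fun u => (zz true (x ∘ ⇑σ) (u, 0)).1) = (fun u => (zz true x (u, 0)).1) ∘ ⇑σ := by
      ext u; rfl
    change HH (G.comap ⇑σ) (zz true (x ∘ ⇑σ)) (zz false (x ∘ ⇑σ)) e =
      HH G (zz true x) (zz false x) (Sym2.map ⇑σ e)
    unfold HH
    rw [ha]
    set a : ℕ → unitInterval := fun u => (zz true x (u, 0)).1 with hadef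
    by_cases htie : tie (a ∘ ⇑σ) e
    · rw [if_pos htie, if_pos ((tie_map a σ e).2 htie)]
    · rw [if_neg htie, if_neg (fun h => htie ((tie_map a σ e).1 h)), idx_map G a σ e htie]
      rfl
  · intro G hG hfin
    rw [← map_HH μ G hG hfin]
    -- law of the two families
    have h1 : (Labels.labelMeasure ℕ).map (fun x u => φ (x u)) =
        Measure.infinitePi (fun _ : ℕ => Measure.infinitePi (fun _ : ℕ => rho μ)) := by
      unfold Labels.labelMeasure
      have := Measure.infinitePi_map_pi (fun _ : ℕ => (volume : Measure unitInterval))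
        (f := fun _ => φ) (fun _ => hφ)
      rw [hφlaw] at this
      exact this
    have h2 : (Labels.labelMeasure ℕ).map (fun x (q : ℕ × ℕ) => φ (x q.1) q.2) =
        Measure.infinitePi (fun _ : ℕ × ℕ => rho μ) := by
      have := Measure.infinitePi_map_curry_symm (fun (_ : ℕ) (_ : ℕ) => rho μ)
      rw [← this, ← h1, Measure.map_map (by fun_prop) (by fun_prop)]
      rfl
    have hinj : Function.Injective (fun p : Bool × (ℕ × ℕ) => (p.2.1, 2 * p.2.2 + p.1.toNat)) := by
      rintro ⟨b, u, k⟩ ⟨b', u', k'⟩ h
      simp only [Prod.mk.injEq] at h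
      obtain ⟨rfl, h⟩ := h
      cases b <;> cases b' <;> simp at h ⊢ <;> omega
    have h3 : (Labels.labelMeasure ℕ).map (fun x (p : Bool × (ℕ × ℕ)) => zz p.1 x p.2) =
        Measure.infinitePi (fun _ : Bool × (ℕ × ℕ) => rho μ) := by
      have := Measure.map_infinitePi_infinitePi_of_inj (P := fun _ : ℕ × ℕ => rho μ) hinj
      rw [← this, ← h2, Measure.map_map (by fun_prop) (by fun_prop)]
      rfl
    have h4 : (Labels.labelMeasure ℕ).map (fun x (b : Bool) => zz b x) =
        Measure.infinitePi (fun _ : Bool => gam μ) := by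
      have := Measure.infinitePi_map_curry (fun (_ : Bool) (_ : ℕ × ℕ) => rho μ)
      unfold gam
      rw [← this, ← h3, Measure.map_map (by fun_prop) ?_]
      · rfl
      · rw [measurable_pi_iff]
        intro p
        exact measurable_pi_iff.1 (hzm p.1) p.2
    have h5 : (Labels.labelMeasure ℕ).map (fun x => (zz true x, zz false x)) =
        (gam μ).prod (gam μ) := by
      have := Measure.infinitePi_map_eval_prod (P := fun _ : Bool => gam μ)
        (i := true) (j := false) (by simp)
      rw [← this, ← h4, Measure.map_map (by fun_prop) ?_]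
      · rfl
      · rw [measurable_pi_iff]
        exact hzm
    rw [← h5, Measure.map_map]
    · rfl
    · exact measurable_HH (fun _ => G) (fun i j => MeasurableSet.const _) _ _ measurable_fst
        measurable_snd
    · exact (hzm true).prodMk (hzm false)

end Crest.Agent.R168.PairNoise
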