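import Crest.Agent.R168.Fusf

/-!
Row 168: the canonical data attached to a graph: measurability and naturality.
-/

set_option autoImplicit false
open MeasureTheory ProbabilityTheory Finset Filter
open scoped NNReal ENNReal Topology

namespace Crest.Agent.R168

open Crest.ProbabilityR Crest.ProbabilityR.SpanningTrees

section combin

variable {V : Type*}

open Classical in
/-- Inclusion-exclusion weights of the free uniform spanning forest. -/
noncomputable def qG (G : SimpleGraph V) (F S : Finset (Sym2 V)) : ℝ :=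
  ∑ U ∈ (F \ S).powerset, (-1) ^ U.card * pG G (S ∪ U)

theorem cylW_eq_qG (G : SimpleGraph V) (ν : Measure (Sym2 V → Bool)) [IsProbabilityMeasure ν]
    (hν : ∀ A : Finset (Sym2 V), (ν {ω | ∀ e ∈ A, ω e = true}).toReal = pG G A)
    (F S : Finset (Sym2 V)) (hS : S ⊆ F) : cylW ν F S = qG G F S := by
  classical
  unfold qG
  have h1 : ∀ A : Finset (Sym2 V), pG G A =
      ∫ ω, ({ω | ∀ e ∈ A, ω e = true} : Set (Sym2 V → Bool)).indicator (fun _ => (1 : ℝ)) ω ∂ν := by
    intro A
    rw [integral_indicator_const _ (measurableSet_all A), smul_eq_mul, mul_one]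
    exact (hν A).symm
  have h2 : cylW ν F S =
      ∫ ω, ({ω | ∀ i ∈ F, (ω i = true ↔ i ∈ S)} : Set (Sym2 V → Bool)).indicator
        (fun _ => (1 : ℝ)) ω ∂ν := by
    rw [integral_indicator_const _ (measurableSet_cyl F S), smul_eq_mul, mul_one]
    rfl
  have hint : ∀ A : Finset (Sym2 V), Integrable
      (({ω | ∀ e ∈ A, ω e = true} : Set (Sym2 V → Bool)).indicator (fun _ => (1 : ℝ))) ν := fun A =>
    (integrable_const _).indicator (measurableSet_all A)
  simp_rw [h1, ← integral_const_mul]
  rw [h2, ← integral_finsetSum _ fun U _ => (hint _).const_mul _]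
  apply integral_congr_ae
  filter_upwards with ω
  have e1 : ∀ T : Finset (Sym2 V),
      ({ω | ∀ e ∈ T, ω e = true} : Set (Sym2 V → Bool)).indicator (fun _ => (1 : ℝ)) ω =
      if T ⊆ T.filter (fun e => ω e = true) then 1 else 0 := by
    intro T
    by_cases h : ∀ e ∈ T, ω e = true
    · rw [Set.indicator_of_mem (by exact h), if_pos]
      intro e he
      exact mem_filter.2 ⟨he, h e he⟩
    · rw [Set.indicator_of_notMem (by exact h), if_neg]
      intro hT
      exact h fun e he => (mem_filter.1 (hT he)).2
  by_cases hSω : ∀ e ∈ S, ω e = true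
  · -- the sum runs over subsets of the occupied part of `F \ S`
    set O : Finset (Sym2 V) := (F \ S).filter (fun e => ω e = true) with hO
    have e2 : ∑ U ∈ (F \ S).powerset, (-1 : ℝ) ^ U.card *
        ({ω | ∀ e ∈ S ∪ U, ω e = true} : Set (Sym2 V → Bool)).indicator (fun _ => (1 : ℝ)) ω =
        ∑ U ∈ O.powerset, (-1 : ℝ) ^ U.card := by
      symm
      rw [← sum_subset (powerset_mono.2 (filter_subset _ _) : O.powerset ⊆ (F \ S).powerset)]
      · apply sum_congr rfl
        intro U hU
        rw [Set.indicator_of_mem, mul_one]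
        intro e he
        rcases mem_union.1 he with he | he
        · exact hSω e he
        · exact (mem_filter.1 (mem_powerset.1 hU he)).2
      · intro U hU hUO
        rw [Set.indicator_of_notMem, mul_zero]
        intro hcon
        apply hUO
        rw [mem_powerset]
        intro e he
        exact mem_filter.2 ⟨mem_powerset.1 hU he, hcon e (mem_union_right _ he)⟩
    rw [e2]
    have e3 : ∑ U ∈ O.powerset, (-1 : ℝ) ^ U.card = if O = ∅ then 1 else 0 := by
      have := Finset.sum_powerset_neg_one_pow_card (x := O)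
      have h3 : ((∑ m ∈ O.powerset, (-1 : ℤ) ^ m.card : ℤ) : ℝ) = if O = ∅ then 1 else 0 := by
        rw [this]; split_ifs <;> simp
      rw [← h3]; push_cast; rfl
    rw [e3]
    by_cases hOe : O = ∅
    · rw [if_pos hOe, Set.indicator_of_mem]
      intro i hi
      constructor
      · intro hωi
        by_contra hiS
        have : i ∈ O := mem_filter.2 ⟨mem_sdiff.2 ⟨hi, hiS⟩, hωi⟩
        rw [hOe] at this
        simp at this
      · exact hSω i
    · rw [if_neg hOe, Set.indicator_of_notMem]
      intro hcon
      apply hOe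
      rw [hO, filter_eq_empty_iff]
      intro i hi hωi
      exact (mem_sdiff.1 hi).2 ((hcon i (mem_sdiff.1 hi).1).1 hωi)
  · rw [Set.indicator_of_notMem]
    · symm
      apply sum_eq_zero
      intro U _
      rw [Set.indicator_of_notMem, mul_zero]
      intro hcon
      exact hSω fun e he => hcon e (mem_union_left _ he)
    · intro hcon
      exact hSω fun e he => (hcon e (hS he)).2 he

/-- Balls around a pair of vertices. -/
def ball (G : SimpleGraph V) (e : Sym2 V) : ℕ → Set V
  | 0 => {v | v ∈ e}
  | n + 1 => {a | a ∈ ball G e n ∨ ∃ b ∈ ball G e n, G.Adj b a}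

open Classical in
/-- The canonical exhausting sets. -/
noncomputable def KG (G : SimpleGraph V) (e : Sym2 V) (n : ℕ) : Finset (Sym2 V) :=
  if h : (ball G e n).Finite then h.toFinset.sym2 else ∅

theorem ball_mono (G : SimpleGraph V) (e : Sym2 V) : Monotone (ball G e) :=
  monotone_nat_of_le_succ fun _ _ ha => Or.inl ha

theorem ball_finite (G : SimpleGraph V) (hlf : ∀ v, (G.neighborSet v).Finite) (e : Sym2 V) (n : ℕ) :
    (ball G e n).Finite := by
  induction n with
  | zero =>
    induction e with
    | _ a b =>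
      refine (Set.toFinite {a, b}).subset ?_
      intro v hv
      simpa [ball] using hv
  | succ n ih =>
    have : ball G e (n + 1) = ball G e n ∪ ⋃ b ∈ ball G e n, G.neighborSet b := by
      ext a
      simp [ball]
    rw [this]
    exact ih.union (ih.biUnion fun b _ => hlf b)

theorem ball_exhaust (G : SimpleGraph V) (hG : G.Connected) (e : Sym2 V) (a : V) :
    ∃ n, a ∈ ball G e n := by
  obtain ⟨u, hu⟩ : ∃ u, u ∈ e := by
    induction e with
    | _ a b => exact ⟨a, by simp⟩
  obtain ⟨p⟩ := hG.preconnected u a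
  have key : ∀ (x y : V) (p : G.Walk x y) (m : ℕ), x ∈ ball G e m → ∃ n, y ∈ ball G e n := by
    intro x y p
    induction p with
    | nil => exact fun m hm => ⟨m, hm⟩
    | cons h p ih => exact fun m hm => ih (m + 1) (Or.inr ⟨_, hm, h⟩)
  exact key u a p 0 hu

theorem KG_mono (G : SimpleGraph V) (hlf : ∀ v, (G.neighborSet v).Finite) (e : Sym2 V) :
    Monotone (KG G e) := by
  intro m n hmn
  unfold KG
  rw [dif_pos (ball_finite G hlf e m), dif_pos (ball_finite G hlf e n)]
  apply Finset.sym2_mono
  intro a ha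
  rw [Set.Finite.mem_toFinset] at ha ⊢
  exact ball_mono G e hmn ha

theorem KG_exhaust (G : SimpleGraph V) (hG : G.Connected) (hlf : ∀ v, (G.neighborSet v).Finite)
    (e e' : Sym2 V) : ∃ n, e' ∈ KG G e n := by
  induction e' with
  | _ a b =>
    obtain ⟨n, hn⟩ := ball_exhaust G hG e a
    obtain ⟨m, hm⟩ := ball_exhaust G hG e b
    refine ⟨max n m, ?_⟩
    unfold KG
    rw [dif_pos (ball_finite G hlf e _), mk_mem_sym2_iff, Set.Finite.mem_toFinset,
      Set.Finite.mem_toFinset]
    exact ⟨ball_mono G e (le_max_left _ _) hn, ball_mono G e (le_max_right _ _) hm⟩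

theorem ball_connected (G : SimpleGraph V) (v : V) (n : ℕ) :
    (G.induce (ball G s(v, v) n)).Connected := by
  have hv : ∀ n, v ∈ ball G s(v, v) n := fun n => ball_mono G _ (Nat.zero_le n) (by simp [ball])
  have key : ∀ n, ∀ a (ha : a ∈ ball G s(v, v) n),
      (G.induce (ball G s(v, v) n)).Reachable ⟨v, hv n⟩ ⟨a, ha⟩ := by
    intro n
    induction n with
    | zero =>
      intro a ha
      have : a = v := by simpa [ball] using ha
      subst this
      rfl
    | succ n ih =>
      have hsub : ball G s(v, v) n ⊆ ball G s(v, v) (n + 1) := ball_mono G _ (Nat.le_succ n)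
      have h1 : ∀ a (ha : a ∈ ball G s(v, v) n),
          (G.induce (ball G s(v, v) (n + 1))).Reachable ⟨v, hv _⟩ ⟨a, hsub ha⟩ := by
        intro a ha
        exact (ih a ha).map (SimpleGraph.induceHomOfLE G hsub).toHom
      intro a ha
      rcases ha with ha | ⟨b, hb, hba⟩
      · exact h1 a ha
      · refine (h1 b hb).trans (SimpleGraph.Adj.reachable ?_)
        exact hba
  rw [SimpleGraph.connected_iff_exists_forall_reachable]
  exact ⟨⟨v, hv n⟩, fun ⟨a, ha⟩ => key n a ha⟩

end combin

section natural

variable {V : Type*} (σ : Equiv.Perm V)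

/-- The permutation of pairs induced by a permutation. -/
def sym2Perm : Equiv.Perm (Sym2 V) where
  toFun := Sym2.map σ
  invFun := Sym2.map σ.symm
  left_inv e := by rw [Sym2.map_map]; simp
  right_inv e := by rw [Sym2.map_map]; simp

theorem sym2Perm_apply (e : Sym2 V) : sym2Perm σ e = Sym2.map σ e := rfl

theorem mem_sym2Perm (e : Sym2 V) (v : V) : σ v ∈ Sym2.map σ e ↔ v ∈ e := by
  rw [Sym2.mem_map]
  constructor
  · rintro ⟨a, ha, h⟩
    rwa [← σ.injective h]
  · intro h
    exact ⟨v, h, rfl⟩

theorem ball_comap (G : SimpleGraph V) (e : Sym2 V) (n : ℕ) (a : V) :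
    a ∈ ball (G.comap σ) e n ↔ σ a ∈ ball G (Sym2.map σ e) n := by
  induction n generalizing a with
  | zero => exact (mem_sym2Perm σ e a).symm
  | succ n ih =>
    simp only [ball, Set.mem_ofPred_eq]
    rw [ih]
    apply or_congr Iff.rfl
    constructor
    · rintro ⟨b, hb, hba⟩
      exact ⟨σ b, (ih b).1 hb, hba⟩
    · rintro ⟨b, hb, hba⟩
      refine ⟨σ.symm b, (ih _).2 (by simpa using hb), ?_⟩
      simpa using hba

theorem KG_map (G : SimpleGraph V) (e : Sym2 V) (n : ℕ) :
    KG G (Sym2.map σ e) n = (KG (G.comap σ) e n).map (sym2Perm σ).toEmbedding := by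
  classical
  have h1 : ball G (Sym2.map σ e) n = σ '' (ball (G.comap σ) e n) := by
    ext a
    constructor
    · intro ha
      refine ⟨σ.symm a, ?_, by simp⟩
      rw [ball_comap]
      simpa using ha
    · rintro ⟨b, hb, rfl⟩
      exact (ball_comap σ G e n b).1 hb
  have h2 : (ball G (Sym2.map σ e) n).Finite ↔ (ball (G.comap σ) e n).Finite := by
    rw [h1]
    exact Set.finite_image_iff σ.injective.injOn
  unfold KG
  by_cases hf : (ball (G.comap σ) e n).Finite
  · rw [dif_pos hf, dif_pos (h2.2 hf)]
    ext e'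
    induction e' with
    | _ a b =>
      rw [Finset.mem_map_equiv]
      have h3 : (sym2Perm σ).symm s(a, b) = s(σ.symm a, σ.symm b) := rfl
      rw [h3, mk_mem_sym2_iff, mk_mem_sym2_iff]
      simp only [Set.Finite.mem_toFinset]
      rw [ball_comap, ball_comap]
      simp
  · rw [dif_neg hf, dif_neg (fun h => hf (h2.1 h)), Finset.map_empty]

theorem edgesIn_comap (G : SimpleGraph V) (S : Finset V) :
    edgesIn G (S.map σ.toEmbedding) = (edgesIn (G.comap σ) S).map (sym2Perm σ).toEmbedding := by
  ext e
  rw [Finset.mem_map_equiv, mem_edgesIn, mem_edgesIn]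
  induction e with
  | _ a b =>
    have h3 : (sym2Perm σ).symm s(a, b) = s(σ.symm a, σ.symm b) := rfl
    rw [h3]
    simp [Finset.mem_map_equiv]

/-- Induced subgraphs correspond under a relabelling. -/
def induceIso (G : SimpleGraph V) (S : Finset V) :
    (G.comap σ).induce (S : Set V) ≃g G.induce ((S.map σ.toEmbedding : Finset V) : Set V) where
  toFun v := ⟨σ v, by
    have := v.2
    simpa using this⟩
  invFun v := ⟨σ.symm v, by
    have := v.2
    simp only [Finset.coe_map, Set.mem_image] at this
    obtain ⟨a, ha, h⟩ := this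
    rw [← h]
    simpa using ha⟩
  left_inv v := by simp
  right_inv v := by simp
  map_rel_iff' := by
    intro a b
    rfl

theorem connected_comap (G : SimpleGraph V) (S : Finset V) :
    ((G.comap σ).induce (S : Set V)).Connected ↔
      (G.induce ((S.map σ.toEmbedding : Finset V) : Set V)).Connected :=
  (induceIso σ G S).connected_iff

theorem isSpanningTreeOn_comap (G : SimpleGraph V) (S : Finset V) (A : Finset (Sym2 V)) :
    IsSpanningTreeOn (G.comap σ) S A ↔
      IsSpanningTreeOn G (S.map σ.toEmbedding) (A.map (sym2Perm σ).toEmbedding) := by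
  unfold IsSpanningTreeOn
  rw [edgesIn_comap, Finset.map_subset_map]
  apply and_congr Iff.rfl
  have h1 : SimpleGraph.fromEdgeSet (A : Set (Sym2 V)) =
      (SimpleGraph.fromEdgeSet ((A.map (sym2Perm σ).toEmbedding : Finset (Sym2 V)) :
        Set (Sym2 V))).comap σ := by
    ext a b
    simp only [SimpleGraph.fromEdgeSet_adj, SimpleGraph.comap_adj, mem_coe]
    rw [Finset.mem_map_equiv]
    have h3 : (sym2Perm σ).symm s(σ a, σ b) = s(a, b) := by
      change s(σ.symm (σ a), σ.symm (σ b)) = _
      simp
    rw [h3]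
    simp
  rw [h1]
  have := induceIso σ (SimpleGraph.fromEdgeSet ((A.map (sym2Perm σ).toEmbedding :
    Finset (Sym2 V)) : Set (Sym2 V))) S
  exact this.isTree_iff

theorem card_trees_filter_comap (G : SimpleGraph V) (S : Finset V) (F : Finset (Sym2 V)) :
    ustContains (G.comap σ) S F =
      ustContains G (S.map σ.toEmbedding) (F.map (sym2Perm σ).toEmbedding) := by
  classical
  rw [ustContains_eq, ustContains_eq]
  have h1 : trees G (S.map σ.toEmbedding) =
      (trees (G.comap σ) S).map (Finset.mapEmbedding (sym2Perm σ).toEmbedding).toEmbedding := by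
    ext A
    simp only [trees, mem_filter, mem_powerset, Finset.mem_map]
    constructor
    · rintro ⟨hA1, hA2⟩
      rw [edgesIn_comap, Finset.subset_map_iff] at hA1
      obtain ⟨B, hB, rfl⟩ := hA1
      exact ⟨B, ⟨hB, (isSpanningTreeOn_comap σ G S B).2 hA2⟩, rfl⟩
    · rintro ⟨B, ⟨hB1, hB2⟩, rfl⟩
      refine ⟨?_, (isSpanningTreeOn_comap σ G S B).1 hB2⟩
      rw [edgesIn_comap]
      exact Finset.map_subset_map.2 hB1
  have h2 : (trees G (S.map σ.toEmbedding)).filter (fun A => F.map (sym2Perm σ).toEmbedding ⊆ A) =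
      ((trees (G.comap σ) S).filter (fun A => F ⊆ A)).map
        (Finset.mapEmbedding (sym2Perm σ).toEmbedding).toEmbedding := by
    rw [h1, Finset.filter_map]
    congr 1
    ext A
    simp only [mem_filter, Function.comp_apply]
    apply and_congr Iff.rfl
    exact Finset.map_subset_map
  rw [h2, h1, Finset.card_map, Finset.card_map]

theorem pG_comap_aux (A : Finset (Sym2 V)) (S : Finset V) :
    (∀ e ∈ A, ∀ v ∈ e, v ∈ S) ↔
      (∀ e ∈ A.map (sym2Perm σ).toEmbedding, ∀ v ∈ e, v ∈ S.map σ.toEmbedding) := by
  constructor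
  · intro h e' he' v hv
    rw [Finset.mem_map_equiv] at he'
    rw [Finset.mem_map_equiv]
    apply h _ he'
    have : v = σ (σ.symm v) := by simp
    rw [this] at hv
    rw [← mem_sym2Perm σ]
    have h4 : Sym2.map σ ((sym2Perm σ).symm e') = e' := (sym2Perm σ).apply_symm_apply e'
    rw [h4]
    exact hv
  · intro h e' he' v hv
    have h5 := h (Sym2.map σ e') (by
      rw [Finset.mem_map_equiv]
      have : (sym2Perm σ).symm (Sym2.map σ e') = e' := (sym2Perm σ).symm_apply_apply e'
      rw [this]
      exact he') (σ v) ((mem_sym2Perm σ e' v).2 hv)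
    rw [Finset.mem_map_equiv] at h5
    simpa using h5

theorem pG_comap (G : SimpleGraph V) (A : Finset (Sym2 V)) :
    pG (G.comap σ) A = pG G (A.map (sym2Perm σ).toEmbedding) := by
  classical
  unfold pG
  let e : Finset V ≃ Finset V := Equiv.finsetCongr σ
  conv_rhs => rw [← e.surjective.iInf_comp]
  congr 1
  ext S
  have h1 : e S = S.map σ.toEmbedding := rfl
  rw [h1]
  have hPQ : Adm (G.comap σ) A S ↔
      Adm G (A.map (sym2Perm σ).toEmbedding) (S.map σ.toEmbedding) := by
    apply and_congr (connected_comap σ G S)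
    exact pG_comap_aux σ A S
  by_cases hP : Adm (G.comap σ) A S
  · rw [pGin_pos hP, pGin_pos (hPQ.1 hP), card_trees_filter_comap]
  · rw [pGin_neg hP, pGin_neg (fun h => hP (hPQ.2 h))]

theorem qG_comap (G : SimpleGraph V) (F S : Finset (Sym2 V)) :
    qG G (F.map (sym2Perm σ).toEmbedding) (S.map (sym2Perm σ).toEmbedding) =
      qG (G.comap σ) F S := by
  classical
  unfold qG
  have h1 : F.map (sym2Perm σ).toEmbedding \ S.map (sym2Perm σ).toEmbedding =
      (F \ S).map (sym2Perm σ).toEmbedding := by
    rw [Finset.map_sdiff]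
  rw [h1, sum_powerset_map (sym2Perm σ) (F \ S)]
  apply sum_congr rfl
  intro U _
  rw [card_map, pG_comap, Finset.map_union]

end natural

end Crest.Agent.R168
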