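import Crest.Agent.R168.Defs

/-!
Row 168, task A: the drift of a real stable law is Lipschitz in sup norm.
-/

set_option autoImplicit false
open Filter Topology

namespace Crest.Agent.R168.TaskA

/-- The Schwarz-Pick inequality for maps of the right half-plane into the slit plane,
between the real points `1` and `x`. -/
theorem schwarz_pick {φ : ℂ → ℂ} (hd : DifferentiableOn ℂ φ {z | 0 < z.re})
    (hs : ∀ z : ℂ, 0 < z.re → φ z ∈ Complex.slitPlane) {a b x : ℝ} (ha : 0 < a) (hb : 0 < b)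
    (hx : 1 ≤ x) (h1 : φ 1 = a) (h2 : φ x = b) : b ≤ a * x ^ 2 ∧ a ≤ b * x ^ 2 := by
  let ψ : ℂ → ℂ := fun z => Complex.exp (Complex.log (φ z) / 2)
  have hψd : DifferentiableOn ℂ ψ {z | 0 < z.re} := ((hd.clog hs).div_const 2).cexp
  have hψre : ∀ z : ℂ, 0 < z.re → 0 < (ψ z).re := by
    intro z hz
    have h := hs z hz
    rw [Complex.mem_slitPlane_iff_arg] at h
    show 0 < (Complex.exp (Complex.log (φ z) / 2)).re
    rw [Complex.exp_re]
    apply mul_pos (Real.exp_pos _)
    have him : (Complex.log (φ z) / 2).im = Complex.arg (φ z) / 2 := by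
      rw [show (2 : ℂ) = ((2 : ℝ) : ℂ) by norm_num, Complex.div_ofReal_im, Complex.log_im]
    rw [him]
    apply Real.cos_pos_of_mem_Ioo
    constructor
    · have := Complex.neg_pi_lt_arg (φ z)
      linarith
    · have := lt_of_le_of_ne (Complex.arg_le_pi (φ z)) h.1
      linarith
  set α : ℝ := Real.exp (Real.log a / 2) with hα
  set β : ℝ := Real.exp (Real.log b / 2) with hβ
  have hα2 : α ^ 2 = a := by
    rw [hα, ← Real.exp_nat_mul]
    push_cast
    rw [mul_div_cancel₀ _ (two_ne_zero), Real.exp_log ha]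
  have hβ2 : β ^ 2 = b := by
    rw [hβ, ← Real.exp_nat_mul]
    push_cast
    rw [mul_div_cancel₀ _ (two_ne_zero), Real.exp_log hb]
  have hαpos : 0 < α := Real.exp_pos _
  have hβpos : 0 < β := Real.exp_pos _
  have hψ1 : ψ 1 = (α : ℂ) := by
    show Complex.exp (Complex.log (φ 1) / 2) = _
    rw [h1, hα, ← Complex.ofReal_log ha.le]
    push_cast
    rfl
  have hψx : ψ x = (β : ℂ) := by
    show Complex.exp (Complex.log (φ x) / 2) = _
    rw [h2, hβ, ← Complex.ofReal_log hb.le]
    push_cast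
    rfl
  let w : ℂ → ℂ := fun ζ => (1 + ζ) / (1 - ζ)
  have hne : ∀ ζ : ℂ, ‖ζ‖ < 1 → 1 - ζ ≠ 0 := by
    intro ζ hζ h
    rw [sub_eq_zero] at h
    rw [← h] at hζ
    simp at hζ
  have hw : ∀ ζ : ℂ, ‖ζ‖ < 1 → 0 < (w ζ).re := by
    intro ζ hζ
    show 0 < ((1 + ζ) / (1 - ζ)).re
    have hn : 0 < Complex.normSq (1 - ζ) := Complex.normSq_pos.2 (hne ζ hζ)
    rw [Complex.div_re, ← add_div]
    apply div_pos _ hn
    have h3 : ζ.re * ζ.re + ζ.im * ζ.im < 1 := by
      have : Complex.normSq ζ < 1 := by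
        rw [Complex.normSq_eq_norm_sq]
        have := norm_nonneg ζ
        nlinarith
      rwa [Complex.normSq_apply] at this
    simp only [Complex.add_re, Complex.add_im, Complex.sub_re, Complex.sub_im, Complex.one_re,
      Complex.one_im]
    nlinarith
  have hwd : DifferentiableOn ℂ w (Metric.ball 0 1) := by
    apply DifferentiableOn.div
    · fun_prop
    · fun_prop
    · intro ζ hζ
      exact hne ζ (by simpa using hζ)
  let g : ℂ → ℂ := fun ζ => (ψ (w ζ) - α) / (ψ (w ζ) + α)
  have hψw : DifferentiableOn ℂ (fun ζ => ψ (w ζ)) (Metric.ball 0 1) := by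
    apply hψd.comp hwd
    intro ζ hζ
    exact hw ζ (by simpa using hζ)
  have hden : ∀ ζ : ℂ, ‖ζ‖ < 1 → ψ (w ζ) + α ≠ 0 := by
    intro ζ hζ h
    have h4 := congrArg Complex.re h
    simp at h4
    have := hψre _ (hw ζ hζ)
    linarith
  have hgd : DifferentiableOn ℂ g (Metric.ball 0 1) := by
    apply DifferentiableOn.div
    · exact hψw.sub_const _
    · exact hψw.add_const _
    · intro ζ hζ
      exact hden ζ (by simpa using hζ)
  have hgm : Set.MapsTo g (Metric.ball 0 1) (Metric.closedBall 0 1) := by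
    intro ζ hζ
    have hζ' : ‖ζ‖ < 1 := by simpa using hζ
    rw [mem_closedBall_zero_iff]
    show ‖(ψ (w ζ) - α) / (ψ (w ζ) + α)‖ ≤ 1
    rw [norm_div, div_le_one (norm_pos_iff.2 (hden ζ hζ'))]
    have hre := hψre _ (hw ζ hζ')
    rw [← abs_of_nonneg (norm_nonneg (ψ (w ζ) - α)), ← abs_of_nonneg (norm_nonneg (ψ (w ζ) + α)),
      ← sq_le_sq, ← Complex.normSq_eq_norm_sq, ← Complex.normSq_eq_norm_sq, Complex.normSq_apply,
      Complex.normSq_apply]
    simp only [Complex.add_re, Complex.add_im, Complex.sub_re, Complex.sub_im,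
      Complex.ofReal_re, Complex.ofReal_im]
    nlinarith
  have hg0 : g 0 = 0 := by
    show (ψ (w 0) - α) / (ψ (w 0) + α) = 0
    have : w 0 = 1 := by simp [w]
    rw [this, hψ1, sub_self, zero_div]
  have hx1 : 0 < x + 1 := by linarith
  set ζ₁ : ℝ := (x - 1) / (x + 1) with hζ₁
  have hζ0 : 0 ≤ ζ₁ := div_nonneg (by linarith) hx1.le
  have hζ1 : ζ₁ < 1 := by
    rw [hζ₁, div_lt_one hx1]; linarith
  have hwx : w ζ₁ = x := by
    show (1 + (ζ₁ : ℂ)) / (1 - ζ₁) = x
    have h5 : (1 - ζ₁) ≠ 0 := by linarith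
    have : (1 + ζ₁) / (1 - ζ₁) = x := by
      rw [div_eq_iff h5, hζ₁]
      field_simp
      ring
    rw [← this]
    push_cast
    rfl
  have hnorm : ‖(ζ₁ : ℂ)‖ = ζ₁ := by
    rw [Complex.norm_real, Real.norm_of_nonneg hζ0]
  have key := Complex.norm_le_norm_of_mapsTo_ball (z := (ζ₁ : ℂ)) hgd hgm hg0
    (by rw [hnorm]; exact hζ1)
  have hgx : g ζ₁ = ((β - α) / (β + α) : ℝ) := by
    show (ψ (w ζ₁) - α) / (ψ (w ζ₁) + α) = _
    rw [hwx, hψx]
    push_cast
    rfl
  rw [hgx, Complex.norm_real, hnorm, Real.norm_eq_abs, abs_div,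
    abs_of_pos (add_pos hβpos hαpos), div_le_iff₀ (add_pos hβpos hαpos), abs_le] at key
  obtain ⟨k1, k2⟩ := key
  rw [hζ₁] at k1 k2
  have k3 : (x - 1) / (x + 1) * (β + α) * (x + 1) = (x - 1) * (β + α) := by
    field_simp
  have k4 : (β - α) * (x + 1) ≤ (x - 1) * (β + α) := by
    rw [← k3]
    exact mul_le_mul_of_nonneg_right k2 hx1.le
  have k5 : -((x - 1) * (β + α)) ≤ (β - α) * (x + 1) := by
    rw [← k3, ← neg_mul]
    exact mul_le_mul_of_nonneg_right k1 hx1.le
  have k6 : β ≤ α * x := by nlinarith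
  have k7 : α ≤ β * x := by nlinarith
  constructor
  · rw [← hα2, ← hβ2, ← mul_pow]
    exact pow_le_pow_left₀ hβpos.le k6 2
  · rw [← hα2, ← hβ2, ← mul_pow]
    exact pow_le_pow_left₀ hαpos.le k7 2

/-- Open mapping: if `f + z g` has no zero near `ρ₀` for all `z` in the upper half-plane, a real
linear combination of `f` and `g` vanishing at `ρ₀` vanishes near `ρ₀`. -/
theorem open_key {f g : ℂ → ℂ} {ρ₀ : ℂ} (hf : AnalyticAt ℂ f ρ₀) (hg : AnalyticAt ℂ g ρ₀)
    (hne : ∀ᶠ ρ in 𝓝 ρ₀, ∀ z : ℂ, 0 < z.im → f ρ + z * g ρ ≠ 0) {α β : ℝ}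
    (hαβ : 0 < α ^ 2 + β ^ 2) (h0 : α * f ρ₀ + β * g ρ₀ = 0) :
    ∀ᶠ ρ in 𝓝 ρ₀, α * f ρ + β * g ρ = 0 := by
  set F : ℂ → ℂ := fun ρ => α * f ρ + β * g ρ with hF
  set G : ℂ → ℂ := fun ρ => -β * f ρ + α * g ρ with hG
  have hFa : AnalyticAt ℂ F ρ₀ := by
    rw [hF]; fun_prop
  have hGa : AnalyticAt ℂ G ρ₀ := by
    rw [hG]; fun_prop
  have hFG : ∀ ρ, (∀ z : ℂ, 0 < z.im → f ρ + z * g ρ ≠ 0) →
      ∀ z : ℂ, 0 < z.im → F ρ + z * G ρ ≠ 0 := by
    intro ρ hρ z hz h
    have e1 : (α - z * β) * f ρ + (β + z * α) * g ρ = 0 := by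
      rw [← h, hF, hG]; ring
    have h1 : (α - z * β : ℂ) ≠ 0 := by
      intro h2
      have h3 := congrArg Complex.im h2
      have h4 := congrArg Complex.re h2
      simp at h3 h4
      rcases h3 with h3 | h3
      · exact hz.ne' h3
      · rw [h3] at h4 hαβ
        simp at h4
        rw [h4] at hαβ
        simp at hαβ
    have e2 : f ρ + ((β + z * α) / (α - z * β)) * g ρ = 0 := by
      rw [div_mul_eq_mul_div, add_div' _ _ _ h1, div_eq_zero_iff]
      left
      linear_combination e1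
    refine hρ _ ?_ e2
    rw [Complex.div_im, ← sub_div]
    apply div_pos _ (Complex.normSq_pos.2 h1)
    simp only [Complex.add_re, Complex.add_im, Complex.sub_re, Complex.sub_im, Complex.mul_re,
      Complex.mul_im, Complex.ofReal_re, Complex.ofReal_im]
    have : 0 < z.im * (α ^ 2 + β ^ 2) := mul_pos hz hαβ
    nlinarith
  have hG0 : G ρ₀ ≠ 0 := by
    intro h
    refine hFG ρ₀ hne.self_of_nhds Complex.I (by simp) ?_
    rw [h, mul_zero, add_zero]
    exact h0
  have hh : AnalyticAt ℂ (fun ρ => F ρ / G ρ) ρ₀ := hFa.div hGa hG0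
  have hGne : ∀ᶠ ρ in 𝓝 ρ₀, G ρ ≠ 0 := hGa.continuousAt.eventually_ne hG0
  have hv : F ρ₀ / G ρ₀ = 0 := by
    rw [show F ρ₀ = 0 from h0, zero_div]
  rcases hh.eventually_constant_or_nhds_le_map_nhds with hc | ho
  · filter_upwards [hc, hGne] with ρ h1 h2
    rw [hv, div_eq_zero_iff] at h1
    exact h1.resolve_right h2
  · exfalso
    rw [hv] at ho
    have h1 : ∀ᶠ y in 𝓝 (0 : ℂ), ∃ ρ, F ρ / G ρ = y ∧ G ρ ≠ 0 ∧
        ∀ z : ℂ, 0 < z.im → f ρ + z * g ρ ≠ 0 := by
      apply ho
      rw [mem_map]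
      filter_upwards [hGne, hne] with ρ h2 h3
      exact ⟨ρ, rfl, h2, h3⟩
    have h2 : Tendsto (fun t : ℝ => -((t : ℂ) * Complex.I)) (𝓝[>] 0) (𝓝 0) := by
      have : Tendsto (fun t : ℝ => -((t : ℂ) * Complex.I)) (𝓝 0) (𝓝 (-(((0 : ℝ) : ℂ) * Complex.I))) := by
        apply Continuous.tendsto
        fun_prop
      simp only [Complex.ofReal_zero, zero_mul, neg_zero] at this
      exact this.mono_left nhdsWithin_le_nhds
    have h3 : ∀ᶠ t in 𝓝[>] (0 : ℝ), 0 < t := self_mem_nhdsWithin
    obtain ⟨t, ⟨ρ, e1, e2, e3⟩, ht⟩ := ((h2.eventually h1).and h3).exists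
    refine hFG ρ e3 ((t : ℂ) * Complex.I) (by simpa using ht) ?_
    rw [div_eq_iff e2] at e1
    rw [e1]
    ring

theorem isPreconnected_rhp : IsPreconnected {z : ℂ | 0 < z.re} := by
  have : Convex ℝ {z : ℂ | 0 < z.re} := convex_halfSpace_re_gt 0
  exact this.isPreconnected

theorem isOpen_rhp : IsOpen {z : ℂ | 0 < z.re} := isOpen_lt continuous_const Complex.continuous_re

/-- The ratio of two functions in "proper position" changes by a factor of at most `x ^ 2`
between `1` and `x`. -/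
theorem ratio_bound {f g : ℂ → ℂ} (hf : DifferentiableOn ℂ f {z | 0 < z.re})
    (hg : DifferentiableOn ℂ g {z | 0 < z.re})
    (hfc : ∀ z : ℂ, 0 < z.re → f ((starRingEnd ℂ) z) = (starRingEnd ℂ) (f z))
    (hgc : ∀ z : ℂ, 0 < z.re → g ((starRingEnd ℂ) z) = (starRingEnd ℂ) (g z))
    (hfr : ∀ x : ℝ, 0 < x → ∃ a : ℝ, 0 < a ∧ f x = a)
    (hgr : ∀ x : ℝ, 0 < x → ∃ a : ℝ, 0 < a ∧ g x = a)
    (hne : ∀ z : ℂ, 0 < z.re → 0 < z.im → ∀ η : ℂ, 0 < η.im → f z + η * g z ≠ 0)
    {x : ℝ} (hx : 1 ≤ x) {f1 g1 fx gx : ℝ} (hf1 : 0 < f1) (hg1 : 0 < g1) (hfx : 0 < fx)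
    (hgx : 0 < gx) (ef1 : f 1 = f1) (eg1 : g 1 = g1) (efx : f x = fx) (egx : g x = gx) :
    fx / gx ≤ f1 / g1 * x ^ 2 ∧ f1 / g1 ≤ fx / gx * x ^ 2 := by
  have hkey : ∀ z : ℂ, 0 < z.re → 0 < z.im → ∀ α β : ℝ, 0 ≤ α → 0 ≤ β → 0 < α ^ 2 + β ^ 2 →
      α * f z + β * g z ≠ 0 := by
    intro z hz1 hz2 α β hα hβ hαβ h0
    have hfa : AnalyticOnNhd ℂ f {z | 0 < z.re} := hf.analyticOnNhd isOpen_rhp
    have hga : AnalyticOnNhd ℂ g {z | 0 < z.re} := hg.analyticOnNhd isOpen_rhp
    have hev : ∀ᶠ ρ in 𝓝 z, ∀ η : ℂ, 0 < η.im → f ρ + η * g ρ ≠ 0 := by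
      have o1 : ∀ᶠ ρ : ℂ in 𝓝 z, 0 < ρ.re := isOpen_rhp.mem_nhds hz1
      have o2 : ∀ᶠ ρ : ℂ in 𝓝 z, 0 < ρ.im :=
        (isOpen_lt continuous_const Complex.continuous_im).mem_nhds hz2
      filter_upwards [o1, o2] with ρ h1 h2
      exact hne ρ h1 h2
    have hz := open_key (hfa z hz1) (hga z hz1) hev hαβ h0
    have hcomb : AnalyticOnNhd ℂ (fun ρ => α * f ρ + β * g ρ) {z | 0 < z.re} := by
      intro ρ hρ
      have := hfa ρ hρ
      have := hga ρ hρ
      fun_prop
    have hall := hcomb.eqOn_zero_of_preconnected_of_eventuallyEq_zero isPreconnected_rhp hz1 hz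
    have h1 := hall (show (1 : ℂ) ∈ {z : ℂ | 0 < z.re} by simp)
    simp only [ef1, eg1, Pi.zero_apply] at h1
    have h2 : α * f1 + β * g1 = 0 := by exact_mod_cast h1
    have h3 : α * f1 = 0 := by
      have := mul_nonneg hα hf1.le
      have := mul_nonneg hβ hg1.le
      linarith
    have h4 : β * g1 = 0 := by
      have := mul_nonneg hα hf1.le
      have := mul_nonneg hβ hg1.le
      linarith
    have h5 : α = 0 := (mul_eq_zero.1 h3).resolve_right hf1.ne'
    have h6 : β = 0 := (mul_eq_zero.1 h4).resolve_right hg1.ne'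
    rw [h5, h6] at hαβ
    simp at hαβ
  have hgQ : ∀ z : ℂ, 0 < z.re → 0 < z.im → g z ≠ 0 := by
    intro z h1 h2 h
    exact hkey z h1 h2 0 1 le_rfl zero_le_one (by norm_num) (by simp [h])
  have hφQ : ∀ z : ℂ, 0 < z.re → 0 < z.im → f z / g z ∈ Complex.slitPlane := by
    intro z h1 h2
    by_contra hcon
    rw [Complex.mem_slitPlane_iff] at hcon
    push Not at hcon
    obtain ⟨c1, c2⟩ := hcon
    refine hkey z h1 h2 1 (-(f z / g z).re) zero_le_one (by linarith) (by positivity) ?_
    have c3 : f z / g z = ((f z / g z).re : ℂ) := by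
      apply Complex.ext
      · simp
      · simp [c2]
    have c4 : f z = ((f z / g z).re : ℂ) * g z := by
      rw [← c3, div_mul_cancel₀ _ (hgQ z h1 h2)]
    push_cast
    linear_combination c4
  have hconj : ∀ z : ℂ, 0 < z.re → z.im < 0 →
      ∃ z' : ℂ, 0 < z'.re ∧ 0 < z'.im ∧ f z = (starRingEnd ℂ) (f z') ∧
        g z = (starRingEnd ℂ) (g z') := by
    intro z h1 h2
    refine ⟨(starRingEnd ℂ) z, by simpa using h1, by simpa using h2, ?_, ?_⟩
    · rw [hfc z h1, Complex.conj_conj]
    · rw [hgc z h1, Complex.conj_conj]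
  have hg0 : ∀ z : ℂ, 0 < z.re → g z ≠ 0 := by
    intro z h1
    rcases lt_trichotomy z.im 0 with h2 | h2 | h2
    · obtain ⟨z', a1, a2, a3, a4⟩ := hconj z h1 h2
      rw [a4]
      intro h
      exact hgQ z' a1 a2 ((map_eq_zero _).1 h)
    · have : z = (z.re : ℂ) := by
        apply Complex.ext <;> simp [h2]
      obtain ⟨a, ha, ha'⟩ := hgr z.re h1
      rw [this, ha']
      exact_mod_cast ha.ne'
    · exact hgQ z h1 h2
  have hφ0 : ∀ z : ℂ, 0 < z.re → f z / g z ∈ Complex.slitPlane := by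
    intro z h1
    rcases lt_trichotomy z.im 0 with h2 | h2 | h2
    · obtain ⟨z', a1, a2, a3, a4⟩ := hconj z h1 h2
      rw [a3, a4, ← map_div₀]
      have := hφQ z' a1 a2
      rw [Complex.mem_slitPlane_iff] at this ⊢
      rwa [Complex.conj_re, Complex.conj_im, neg_ne_zero]
    · have : z = (z.re : ℂ) := by
        apply Complex.ext <;> simp [h2]
      obtain ⟨a, ha, ha'⟩ := hgr z.re h1
      obtain ⟨b, hb, hb'⟩ := hfr z.re h1
      rw [this, ha', hb', ← Complex.ofReal_div]
      exact Complex.ofReal_mem_slitPlane.2 (div_pos hb ha)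
    · exact hφQ z h1 h2
  refine schwarz_pick (φ := fun z => f z / g z) (hf.div hg hg0) hφ0 (div_pos hf1 hg1)
    (div_pos hfx hgx) hx ?_ ?_
  · simp only [ef1, eg1]
    push_cast
    rfl
  · simp only [efx, egx]
    push_cast
    rfl

open Classical in
/-- The part of the partition function where `v` is unoccupied. -/
noncomputable def partOff {V : Type*} (q : Finset V → ℝ) (F : Finset V) (v : V) (y : V → ℝ) : ℝ :=
  ∑ S ∈ F.powerset, if v ∈ S then 0 else q S * Real.exp (∑ i ∈ S, y i)

theorem part_eq {V : Type*} (q : Finset V → ℝ) (F : Finset V) (v : V) (y : V → ℝ) :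
    part q F y = partOff q F v y + partAt q F v y := by
  unfold part partOff partAt
  rw [← Finset.sum_add_distrib]
  refine Finset.sum_congr rfl fun S _ => ?_
  split_ifs <;> simp

/-- Moving all coordinates other than `v` upwards by at most `c` changes the log ratio by at most
`c`. -/
theorem ratio_step {V : Type*} (q : Finset V → ℝ) (F : Finset V)
    (hstable : ∀ z : V → ℂ, (∀ i ∈ F, 0 < (z i).im) →
      ∑ S ∈ F.powerset, (q S : ℂ) * ∏ i ∈ S, z i ≠ 0)
    (v : V) (hA : ∀ y, 0 < partOff q F v y) (hB : ∀ y, 0 < partAt q F v y)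
    (y y' : V → ℝ) (hv : y' v = y v) (c : ℝ) (hc : 0 < c)
    (hyy : ∀ i ∈ F, i ≠ v → 0 < y' i - y i ∧ y' i - y i ≤ c) :
    |Real.log (partOff q F v y / partAt q F v y) -
      Real.log (partOff q F v y' / partAt q F v y')| ≤ c := by
  classical
  let θ : V → ℝ := fun i => (y' i - y i) / c
  have hθv : θ v = 0 := by simp [θ, hv]
  let E : Finset V → ℂ → ℂ := fun S ρ =>
    Complex.exp (((∑ i ∈ S, y i : ℝ) : ℂ) + ((∑ i ∈ S, 2 * θ i : ℝ) : ℂ) * Complex.log ρ)
  have hEd : ∀ S, DifferentiableOn ℂ (E S) {z | 0 < z.re} := by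
    intro S
    apply DifferentiableOn.cexp
    apply DifferentiableOn.const_add
    apply DifferentiableOn.const_mul
    apply DifferentiableOn.clog
    · exact differentiableOn_id
    · intro z hz
      exact Or.inl hz
  have hEc : ∀ S, ∀ z : ℂ, 0 < z.re → E S ((starRingEnd ℂ) z) = (starRingEnd ℂ) (E S z) := by
    intro S z hz
    show Complex.exp _ = (starRingEnd ℂ) (Complex.exp _)
    rw [← Complex.exp_conj, map_add, map_mul, Complex.conj_ofReal, Complex.conj_ofReal,
      Complex.log_conj]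
    intro h
    rw [Complex.arg_eq_pi_iff] at h
    linarith [h.1]
  have hEr : ∀ S, ∀ x : ℝ, 0 < x → E S x =
      ((Real.exp (∑ i ∈ S, (y i + 2 * θ i * Real.log x)) : ℝ) : ℂ) := by
    intro S x hx
    show Complex.exp _ = _
    rw [← Complex.ofReal_log hx.le, Finset.sum_add_distrib, ← Finset.sum_mul]
    push_cast
    rfl
  have hEprod : ∀ S : Finset V, ∀ ρ : ℂ, E S ρ =
      ∏ i ∈ S, Complex.exp ((y i : ℂ) + ((2 * θ i : ℝ) : ℂ) * Complex.log ρ) := by
    intro S ρ
    rw [← Complex.exp_sum, Finset.sum_add_distrib, ← Finset.sum_mul]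
    show Complex.exp _ = _
    push_cast
    rfl
  let f : ℂ → ℂ := fun ρ => ∑ S ∈ F.powerset, if v ∈ S then 0 else (q S : ℂ) * E S ρ
  let g : ℂ → ℂ := fun ρ => ∑ S ∈ F.powerset, if v ∈ S then (q S : ℂ) * E S ρ else 0
  have hfreal : ∀ x : ℝ, 0 < x → f x = (partOff q F v (fun i => y i + 2 * θ i * Real.log x) : ℝ) := by
    intro x hx
    show ∑ S ∈ F.powerset, (if v ∈ S then 0 else (q S : ℂ) * E S x) = _
    unfold partOff
    rw [Complex.ofReal_sum]
    refine Finset.sum_congr rfl fun S _ => ?_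
    split_ifs
    · simp
    · rw [hEr S x hx]
      push_cast
      rfl
  have hgreal : ∀ x : ℝ, 0 < x → g x = (partAt q F v (fun i => y i + 2 * θ i * Real.log x) : ℝ) := by
    intro x hx
    show ∑ S ∈ F.powerset, (if v ∈ S then (q S : ℂ) * E S x else 0) = _
    unfold partAt
    rw [Complex.ofReal_sum]
    refine Finset.sum_congr rfl fun S _ => ?_
    split_ifs
    · rw [hEr S x hx]
      push_cast
      rfl
    · simp
  have hx1 : 1 ≤ Real.exp (c / 2) := Real.one_le_exp (by linarith)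
  have e1 : (fun i => y i + 2 * θ i * Real.log 1) = y := by
    ext i; simp
  have e2 : (fun i => y i + 2 * θ i * Real.log (Real.exp (c / 2))) = y' := by
    ext i
    simp only [θ, Real.log_exp]
    field_simp
    ring
  have hmain := ratio_bound (f := f) (g := g) ?_ ?_ ?_ ?_ ?_ ?_ ?_ hx1 (hA y) (hB y) (hA y')
    (hB y') ?_ ?_ ?_ ?_
  · obtain ⟨m1, m2⟩ := hmain
    have hsq : Real.exp (c / 2) ^ 2 = Real.exp c := by
      rw [← Real.exp_nat_mul]
      congr 1
      push_cast
      ring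
    rw [hsq] at m1 m2
    have p1 : 0 < partOff q F v y / partAt q F v y := div_pos (hA y) (hB y)
    have p2 : 0 < partOff q F v y' / partAt q F v y' := div_pos (hA y') (hB y')
    have l1 := Real.log_le_log p2 m1
    have l2 := Real.log_le_log p1 m2
    rw [Real.log_mul p1.ne' (Real.exp_pos c).ne', Real.log_exp] at l1
    rw [Real.log_mul p2.ne' (Real.exp_pos c).ne', Real.log_exp] at l2
    rw [abs_le]
    constructor <;> linarith
  · apply DifferentiableOn.fun_sum
    intro S _
    split_ifs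
    · exact differentiableOn_const _
    · exact (hEd S).const_mul _
  · apply DifferentiableOn.fun_sum
    intro S _
    split_ifs
    · exact (hEd S).const_mul _
    · exact differentiableOn_const _
  · intro z hz
    show ∑ S ∈ F.powerset, _ = (starRingEnd ℂ) (∑ S ∈ F.powerset, _)
    rw [map_sum]
    refine Finset.sum_congr rfl fun S _ => ?_
    split_ifs
    · simp
    · rw [map_mul, Complex.conj_ofReal, hEc S z hz]
  · intro z hz
    show ∑ S ∈ F.powerset, _ = (starRingEnd ℂ) (∑ S ∈ F.powerset, _)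
    rw [map_sum]
    refine Finset.sum_congr rfl fun S _ => ?_
    split_ifs
    · rw [map_mul, Complex.conj_ofReal, hEc S z hz]
    · simp
  · intro x hx
    exact ⟨_, hA _, hfreal x hx⟩
  · intro x hx
    exact ⟨_, hB _, hgreal x hx⟩
  · intro z hz1 hz2 η hη
    have hsum : f z + η * g z = ∑ S ∈ F.powerset, (q S : ℂ) * ∏ i ∈ S,
        (Complex.exp ((y i : ℂ) + ((2 * θ i : ℝ) : ℂ) * Complex.log z) *
          (if i = v then η else 1)) := by
      show ∑ S ∈ F.powerset, _ + η * ∑ S ∈ F.powerset, _ = _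
      rw [Finset.mul_sum, ← Finset.sum_add_distrib]
      refine Finset.sum_congr rfl fun S _ => ?_
      rw [Finset.prod_mul_distrib, ← hEprod, Finset.prod_ite_eq' S v]
      split_ifs
      · ring
      · ring
    rw [hsum]
    apply hstable
    intro i hi
    rcases eq_or_ne i v with rfl | hiv
    · rw [if_pos rfl, hθv, mul_zero, Complex.ofReal_zero, zero_mul, add_zero,
        ← Complex.ofReal_exp, Complex.im_ofReal_mul]
      exact mul_pos (Real.exp_pos _) hη
    · rw [if_neg hiv, mul_one, Complex.exp_im]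
      apply mul_pos (Real.exp_pos _)
      have him : ((y i : ℂ) + ((2 * θ i : ℝ) : ℂ) * Complex.log z).im =
          2 * θ i * Complex.arg z := by
        rw [Complex.add_im, Complex.ofReal_im, Complex.im_ofReal_mul, Complex.log_im, zero_add]
      rw [him]
      have harg1 : 0 < Complex.arg z := by
        rcases lt_trichotomy (Complex.arg z) 0 with h | h | h
        · exact absurd (Complex.arg_neg_iff.1 h) (by linarith)
        · rw [Complex.arg_eq_zero_iff] at h
          linarith [h.2]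
        · exact h
      have harg2 : Complex.arg z < Real.pi / 2 := by
        have := Complex.abs_arg_lt_pi_div_two_iff.2 (Or.inl hz1)
        exact (abs_lt.1 this).2
      obtain ⟨t1, t2⟩ := hyy i hi hiv
      have hθ0 : 0 < θ i := div_pos t1 hc
      have hθ1 : θ i ≤ 1 := by
        show (y' i - y i) / c ≤ 1
        rw [div_le_one hc]
        exact t2
      apply Real.sin_pos_of_pos_of_lt_pi
      · positivity
      · nlinarith
  · have := hfreal 1 one_pos
    rw [e1] at this
    simpa using this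
  · have := hgreal 1 one_pos
    rw [e1] at this
    simpa using this
  · have := hfreal (Real.exp (c / 2)) (Real.exp_pos _)
    rw [e2] at this
    exact this
  · have := hgreal (Real.exp (c / 2)) (Real.exp_pos _)
    rw [e2] at this
    exact this

/-- Moving the coordinate `v` upwards by `t` divides the ratio by `exp t`. -/
theorem ratio_shift {V : Type*} (q : Finset V → ℝ) (F : Finset V)
    (v : V) (hA : ∀ y, 0 < partOff q F v y) (hB : ∀ y, 0 < partAt q F v y)
    (y y' : V → ℝ) (hyy : ∀ i, i ≠ v → y' i = y i) :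
    Real.log (partOff q F v y' / partAt q F v y') =
      Real.log (partOff q F v y / partAt q F v y) - (y' v - y v) := by
  classical
  have h1 : partOff q F v y' = partOff q F v y := by
    unfold partOff
    refine Finset.sum_congr rfl fun S _ => ?_
    split_ifs with h
    · rfl
    · congr 2
      refine Finset.sum_congr rfl fun i hi => hyy i ?_
      rintro rfl
      exact h hi
  have h2 : partAt q F v y' = partAt q F v y * Real.exp (y' v - y v) := by
    unfold partAt
    rw [Finset.sum_mul]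
    refine Finset.sum_congr rfl fun S _ => ?_
    split_ifs with h
    · rw [mul_assoc, ← Real.exp_add]
      congr 2
      rw [← Finset.add_sum_erase S y' h, ← Finset.add_sum_erase S y h,
        Finset.sum_congr rfl (fun i hi => hyy i (Finset.ne_of_mem_erase hi))]
      ring
    · simp
  rw [h1, h2, ← div_div, Real.log_div (div_pos (hA y) (hB y)).ne' (Real.exp_pos _).ne',
    Real.log_exp]

theorem ratio_lip {V : Type*} (q : Finset V → ℝ) (F : Finset V)
    (hstable : ∀ z : V → ℂ, (∀ i ∈ F, 0 < (z i).im) →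
      ∑ S ∈ F.powerset, (q S : ℂ) * ∏ i ∈ S, z i ≠ 0)
    (v : V) (hv : v ∈ F) (hA : ∀ y, 0 < partOff q F v y) (hB : ∀ y, 0 < partAt q F v y)
    (y y' : V → ℝ) (c : ℝ) (hc : 0 ≤ c) (hyy : ∀ i ∈ F, |y i - y' i| ≤ c) :
    |Real.log (partOff q F v y / partAt q F v y) -
      Real.log (partOff q F v y' / partAt q F v y')| ≤ 3 * c := by
  classical
  apply le_of_forall_pos_le_add
  intro δ hδ
  let m : V → ℝ := fun i => if i = v then y v else max (y i) (y' i) + δ / 2
  let m' : V → ℝ := fun i => if i = v then y' v else max (y i) (y' i) + δ / 2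
  have hmv : m v = y v := if_pos rfl
  have hmv' : m' v = y' v := if_pos rfl
  have s1 := ratio_step q F hstable v hA hB y m hmv (c + δ / 2) (by positivity) (by
    intro i hi hiv
    have := abs_le.1 (hyy i hi)
    simp only [m, if_neg hiv]
    rcases max_cases (y i) (y' i) with h | h
    · rw [h.1]
      constructor <;> linarith
    · rw [h.1]
      constructor <;> linarith)
  have s2 := ratio_step q F hstable v hA hB y' m' hmv' (c + δ / 2) (by positivity) (by
    intro i hi hiv
    have := abs_le.1 (hyy i hi)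
    simp only [m', if_neg hiv]
    rcases max_cases (y i) (y' i) with h | h
    · rw [h.1]
      constructor <;> linarith
    · rw [h.1]
      constructor <;> linarith)
  have s3 := ratio_shift q F v hA hB m m' (by
    intro i hiv
    simp only [m, m', if_neg hiv])
  rw [hmv, hmv'] at s3
  have s4 := abs_le.1 (hyy v hv)
  rw [abs_le] at s1 s2 ⊢
  constructor <;> linarith [s1.1, s1.2, s2.1, s2.2, s4.1, s4.2]

theorem sigmoid_lip (a b : ℝ) : |Real.sigmoid a - Real.sigmoid b| ≤ 1 / 4 * |a - b| := by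
  have h := Convex.norm_image_sub_le_of_norm_deriv_le (f := Real.sigmoid) (s := Set.univ)
    (x := b) (y := a) (C := 1 / 4)
    (fun x _ => differentiableAt_sigmoid)
    (by
      intro x _
      rw [Real.deriv_sigmoid]
      simp only
      rw [Real.norm_eq_abs, abs_le]
      have h1 := Real.sigmoid_pos x
      have h2 := Real.sigmoid_lt_one x
      constructor
      · nlinarith
      · nlinarith [sq_nonneg (Real.sigmoid x - 1 / 2)]) convex_univ (Set.mem_univ _)
    (Set.mem_univ _)
  simpa [Real.norm_eq_abs] using h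

theorem driftLip_of_stable' {V : Type*} (q : Finset V → ℝ) (F : Finset V)
    (hq : ∀ S ⊆ F, 0 ≤ q S) (hpos : 0 < ∑ S ∈ F.powerset, q S)
    (hstable : ∀ z : V → ℂ, (∀ i ∈ F, 0 < (z i).im) →
      ∑ S ∈ F.powerset, (q S : ℂ) * ∏ i ∈ S, z i ≠ 0)
    (v : V) : DriftLip q F v (3 / 4) := by
  classical
  intro y y' c hc hyy
  by_cases hB : ∀ S ∈ F.powerset, v ∈ S → q S = 0
  · -- never occupied
    have h0 : ∀ y, drift q F v y = 0 := by
      intro y
      have : partAt q F v y = 0 := by
        unfold partAt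
        apply Finset.sum_eq_zero
        intro S hS
        split_ifs with h
        · rw [hB S hS h, zero_mul]
        · rfl
      rw [drift, this, zero_div]
    rw [h0, h0, sub_self, abs_zero]
    positivity
  push Not at hB
  obtain ⟨S₁, hS₁, hvS₁, hqS₁⟩ := hB
  have hvF : v ∈ F := Finset.mem_powerset.1 hS₁ hvS₁
  have hBpos : ∀ y, 0 < partAt q F v y := by
    intro y
    unfold partAt
    apply Finset.sum_pos'
    · intro S hS
      split_ifs
      · exact mul_nonneg (hq S (Finset.mem_powerset.1 hS)) (Real.exp_pos _).le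
      · exact le_rfl
    · refine ⟨S₁, hS₁, ?_⟩
      rw [if_pos hvS₁]
      exact mul_pos (lt_of_le_of_ne (hq S₁ (Finset.mem_powerset.1 hS₁)) (Ne.symm hqS₁))
        (Real.exp_pos _)
  by_cases hA : ∀ S ∈ F.powerset, v ∉ S → q S = 0
  · -- always occupied
    have h0 : ∀ y, drift q F v y = 1 := by
      intro y
      have : partOff q F v y = 0 := by
        unfold partOff
        apply Finset.sum_eq_zero
        intro S hS
        split_ifs with h
        · rfl
        · rw [hA S hS h, zero_mul]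
      rw [drift, part_eq q F v, this, zero_add, div_self (hBpos y).ne']
    rw [h0, h0, sub_self, abs_zero]
    positivity
  push Not at hA
  obtain ⟨S₀, hS₀, hvS₀, hqS₀⟩ := hA
  have hApos : ∀ y, 0 < partOff q F v y := by
    intro y
    unfold partOff
    apply Finset.sum_pos'
    · intro S hS
      split_ifs
      · exact le_rfl
      · exact mul_nonneg (hq S (Finset.mem_powerset.1 hS)) (Real.exp_pos _).le
    · refine ⟨S₀, hS₀, ?_⟩
      rw [if_neg hvS₀]
      exact mul_pos (lt_of_le_of_ne (hq S₀ (Finset.mem_powerset.1 hS₀)) (Ne.symm hqS₀))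
        (Real.exp_pos _)
  have hdrift : ∀ y, drift q F v y =
      Real.sigmoid (-Real.log (partOff q F v y / partAt q F v y)) := by
    intro y
    rw [Real.sigmoid_def, neg_neg, Real.exp_log (div_pos (hApos y) (hBpos y)), drift,
      part_eq q F v]
    have h1 := hApos y
    have h2 := hBpos y
    field_simp
    ring
  rw [hdrift, hdrift]
  refine (sigmoid_lip _ _).trans ?_
  have h := ratio_lip q F hstable v hvF hApos hBpos y y' c hc hyy
  rw [show ∀ a b : ℝ, -a - -b = -(a - b) by intros; ring, abs_neg]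
  linarith

/-- TASK A: the drift of a real stable law is Lipschitz in sup norm. -/
theorem driftLip_of_stable {V : Type*} (q : Finset V → ℝ) (F : Finset V)
    (hq : ∀ S ⊆ F, 0 ≤ q S) (hpos : 0 < ∑ S ∈ F.powerset, q S)
    (hstable : ∀ z : V → ℂ, (∀ i ∈ F, 0 < (z i).im) →
      ∑ S ∈ F.powerset, (q S : ℂ) * ∏ i ∈ S, z i ≠ 0)
    (v : V) : DriftLip q F v 2 := by
  intro y y' c hc hyy
  have := driftLip_of_stable' q F hq hpos hstable v y y' c hc hyy
  linarith

end Crest.Agent.R168.TaskA
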