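import Crest.Agent.R168.UstStable
import Crest.Agent.R168.NegCorr

/-!
Row 168, TASK D2: monotonicity of the edge-inclusion probabilities of the uniform spanning tree
of a finite piece in the piece.
-/

set_option autoImplicit false
open Crest.ProbabilityR Crest.ProbabilityR.SpanningTrees

namespace Crest.Agent.R168.TaskD2

section Family

variable {E : Type*} [DecidableEq E]

/-- Weighted count of the members of the family that contain `B`. -/
noncomputable def Z (𝒯 : Finset (Finset E)) (B : Finset E) (w : E → ℝ) : ℝ :=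
  ∑ T ∈ 𝒯 with B ⊆ T, ∏ e ∈ T, w e

/-- Number of members of the family that contain `B`. -/
noncomputable def N (𝒯 : Finset (Finset E)) (B : Finset E) : ℝ :=
  ((𝒯.filter (fun T => B ⊆ T)).card : ℝ)

/-- The Rayleigh property of a family. -/
def Ray (𝒯 : Finset (Finset E)) : Prop :=
  ∀ (w : E → ℝ), (∀ e, 0 < w e) → ∀ u v : E, u ≠ v →
    Z 𝒯 ∅ w * Z 𝒯 {u, v} w ≤ Z 𝒯 {u} w * Z 𝒯 {v} w

lemma Z_one (𝒯 : Finset (Finset E)) (B : Finset E) : Z 𝒯 B (fun _ => 1) = N 𝒯 B := by
  unfold Z N
  simp

lemma N_nonneg (𝒯 : Finset (Finset E)) (B : Finset E) : 0 ≤ N 𝒯 B := Nat.cast_nonneg _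

lemma N_mono (𝒯 : Finset (Finset E)) {B B' : Finset E} (h : B ⊆ B') : N 𝒯 B' ≤ N 𝒯 B := by
  unfold N
  exact_mod_cast Finset.card_le_card
    (Finset.monotone_filter_right _ (fun T _ hT => h.trans hT))

lemma N_filter (𝒯 : Finset (Finset E)) (A B : Finset E) :
    N (𝒯.filter (fun T => A ⊆ T)) B = N 𝒯 (A ∪ B) := by
  unfold N
  rw [Finset.filter_filter]
  congr 2
  apply Finset.filter_congr
  intro T _
  rw [Finset.union_subset_iff]

/-- splitting according to whether `a` belongs -/
lemma Z_update (𝒯 : Finset (Finset E)) (B : Finset E) (w : E → ℝ) (a : E) (t : ℝ) :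
    Z 𝒯 B (Function.update w a (t * w a)) =
      Z (𝒯.filter (fun T => a ∉ T)) B w + t * Z (𝒯.filter (fun T => a ∈ T)) B w := by
  unfold Z
  have h1 : ∀ T : Finset E, ∏ e ∈ T, Function.update w a (t * w a) e =
      (if a ∈ T then t else 1) * ∏ e ∈ T, w e := by
    intro T
    by_cases h : a ∈ T
    · rw [if_pos h, ← Finset.mul_prod_erase T _ h, ← Finset.mul_prod_erase T w h,
        Function.update_self]
      rw [Finset.prod_congr rfl (fun e he => by
        rw [Function.update_of_ne (Finset.ne_of_mem_erase he)])]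
      ring
    · rw [if_neg h, one_mul]
      apply Finset.prod_congr rfl
      intro e he
      rw [Function.update_of_ne]
      rintro rfl
      exact h he
  simp only [h1, Finset.filter_filter, Finset.sum_filter]
  rw [Finset.mul_sum, ← Finset.sum_add_distrib]
  apply Finset.sum_congr rfl
  intro T _
  by_cases h : a ∈ T <;> by_cases h' : B ⊆ T <;> simp [h, h']

lemma lead_le {a a' b b' c c' d d' : ℝ}
    (h : ∀ t : ℝ, 0 < t → (a + t * b) * (a' + t * b') ≤ (c + t * d) * (c' + t * d')) :
    b * b' ≤ d * d' := by
  by_contra hcon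
  push Not at hcon
  set δ := b * b' - d * d' with hδ
  have hδ0 : 0 < δ := by rw [hδ]; linarith
  set β := |a * b' + a' * b - c * d' - c' * d| with hβ
  set γ := |a * a' - c * c'| with hγ
  have h1 : -β ≤ a * b' + a' * b - c * d' - c' * d := neg_abs_le _
  have h2 : -γ ≤ a * a' - c * c' := neg_abs_le _
  have hβ0 : 0 ≤ β := abs_nonneg _
  have hγ0 : 0 ≤ γ := abs_nonneg _
  set t := (β + γ + 1) / δ + 1 with ht
  have ht1 : 1 ≤ t := by
    rw [ht]
    have : 0 ≤ (β + γ + 1) / δ := by positivity
    linarith
  have ht2 : β + γ + 1 ≤ t * δ := by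
    rw [ht, add_mul, div_mul_cancel₀ _ hδ0.ne']
    linarith
  have h3 := h t (by linarith)
  have h4 : t ^ 2 * δ + t * (a * b' + a' * b - c * d' - c' * d) + (a * a' - c * c') ≤ 0 := by
    rw [hδ]; nlinarith
  have h5 : t * (β + γ + 1) ≤ t ^ 2 * δ := by nlinarith
  have h6 : -(t * β) ≤ t * (a * b' + a' * b - c * d' - c' * d) := by nlinarith
  nlinarith

lemma Ray.filter_mem {𝒯 : Finset (Finset E)} (h : Ray 𝒯) (a : E) :
    Ray (𝒯.filter (fun T => a ∈ T)) := by
  intro w hw u v huv
  apply lead_le (a := Z (𝒯.filter (fun T => a ∉ T)) ∅ w)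
    (a' := Z (𝒯.filter (fun T => a ∉ T)) {u, v} w)
    (c := Z (𝒯.filter (fun T => a ∉ T)) {u} w) (c' := Z (𝒯.filter (fun T => a ∉ T)) {v} w)
  intro t ht
  have := h (Function.update w a (t * w a)) (by
    intro e
    by_cases he : e = a
    · subst he
      rw [Function.update_self]
      exact mul_pos ht (hw _)
    · rw [Function.update_of_ne he]
      exact hw _) u v huv
  simpa only [Z_update] using this

lemma Ray.filter_subset {𝒯 : Finset (Finset E)} (h : Ray 𝒯) (A : Finset E) :
    Ray (𝒯.filter (fun T => A ⊆ T)) := by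
  induction A using Finset.induction_on with
  | empty => simpa using h
  | insert a A ha ih =>
    have h1 := ih.filter_mem a
    rw [Finset.filter_filter] at h1
    convert h1 using 2
    rw [Finset.insert_subset_iff, and_comm]

/-- Negative association with a single edge. -/
lemma neg_corr {𝒯 : Finset (Finset E)} (h : Ray 𝒯) (e : E) (A : Finset E) (he : e ∉ A) :
    N 𝒯 ∅ * N 𝒯 (insert e A) ≤ N 𝒯 A * N 𝒯 {e} := by
  induction A using Finset.induction_on with
  | empty => simp
  | insert a A ha ih =>
    rw [Finset.mem_insert, not_or] at he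
    have h1 := ih he.2
    have h2 := (h.filter_subset A) (fun _ => 1) (fun _ => one_pos) a e (Ne.symm he.1)
    simp only [Z_one, N_filter] at h2
    have e1 : A ∪ {a, e} = insert e (insert a A) := by
      ext x
      simp only [Finset.mem_union, Finset.mem_insert, Finset.mem_singleton]
      tauto
    have e2 : A ∪ {a} = insert a A := by
      ext x
      simp only [Finset.mem_union, Finset.mem_insert, Finset.mem_singleton]
      tauto
    have e3 : A ∪ {e} = insert e A := by
      ext x
      simp only [Finset.mem_union, Finset.mem_insert, Finset.mem_singleton]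
      tauto
    rw [e1, e2, e3, Finset.union_empty] at h2
    rcases (N_nonneg 𝒯 A).lt_or_eq with hA | hA
    · have h3 := N_nonneg 𝒯 (insert a A)
      have h4 := N_nonneg 𝒯 ∅
      have h5 := N_nonneg 𝒯 {e}
      have h6 : N 𝒯 A * (N 𝒯 ∅ * N 𝒯 (insert e (insert a A))) ≤
          N 𝒯 A * (N 𝒯 (insert a A) * N 𝒯 {e}) := by
        calc N 𝒯 A * (N 𝒯 ∅ * N 𝒯 (insert e (insert a A)))
            = N 𝒯 ∅ * (N 𝒯 A * N 𝒯 (insert e (insert a A))) := by ring
          _ ≤ N 𝒯 ∅ * (N 𝒯 (insert a A) * N 𝒯 (insert e A)) :=
            mul_le_mul_of_nonneg_left h2 h4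
          _ = N 𝒯 (insert a A) * (N 𝒯 ∅ * N 𝒯 (insert e A)) := by ring
          _ ≤ N 𝒯 (insert a A) * (N 𝒯 A * N 𝒯 {e}) := mul_le_mul_of_nonneg_left h1 h3
          _ = N 𝒯 A * (N 𝒯 (insert a A) * N 𝒯 {e}) := by ring
      exact le_of_mul_le_mul_left h6 hA
    · have h3 : N 𝒯 (insert e (insert a A)) ≤ N 𝒯 A := N_mono 𝒯 (by
        intro x hx; simp [hx])
      have h4 := N_nonneg 𝒯 (insert e (insert a A))
      have h5 : N 𝒯 (insert e (insert a A)) = 0 := le_antisymm (by rw [hA]; exact h3) h4
      rw [h5, mul_zero]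
      exact mul_nonneg (N_nonneg _ _) (N_nonneg _ _)

end Family

section Graph

variable {V : Type*}

open Classical in
/-- The spanning trees of the piece. -/
noncomputable def trees (G : SimpleGraph V) (S : Finset V) : Finset (Finset (Sym2 V)) :=
  (edgesIn G S).powerset.filter (fun A => IsSpanningTreeOn G S A)

lemma mem_trees {G : SimpleGraph V} {S : Finset V} {T : Finset (Sym2 V)} :
    T ∈ trees G S ↔ IsSpanningTreeOn G S T := by
  classical
  unfold trees
  rw [Finset.mem_filter, Finset.mem_powerset]
  exact ⟨fun h => h.2, fun h => ⟨h.1, h⟩⟩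

lemma ustContains_eq [DecidableEq V] (G : SimpleGraph V) (S : Finset V) (A : Finset (Sym2 V)) :
    ustContains G S A = N (trees G S) A / N (trees G S) ∅ := by
  classical
  unfold ustContains N trees
  simp only [Finset.filter_filter, Finset.empty_subset, and_true]
  congr

/-- `T` connects all the points of `S`. -/
def Joins (T : Set (Sym2 V)) (S : Finset V) : Prop :=
  ∀ x ∈ S, ∀ y ∈ S, (SimpleGraph.fromEdgeSet T).Reachable x y

lemma Joins.mono {T T' : Set (Sym2 V)} {S : Finset V} (h : Joins T S) (hT : T ⊆ T') :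
    Joins T' S := fun x hx y hy =>
  (h x hx y hy).mono (SimpleGraph.fromEdgeSet_mono hT)

lemma induce_connected_iff (T : Set (Sym2 V)) (S : Finset V)
    (hT : ∀ e ∈ T, ∀ x ∈ e, x ∈ S) :
    ((SimpleGraph.fromEdgeSet T).induce (S : Set V)).Connected ↔ S.Nonempty ∧ Joins T S := by
  constructor
  · intro h
    refine ⟨?_, ?_⟩
    · obtain ⟨x⟩ := h.nonempty
      exact ⟨x.1, x.2⟩
    · intro x hx y hy
      have := h.preconnected ⟨x, hx⟩ ⟨y, hy⟩
      exact this.map (SimpleGraph.Embedding.induce _).toHom
  · rintro ⟨⟨x0, hx0⟩, h⟩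
    have : Nonempty ((S : Set V) : Type _) := ⟨⟨x0, hx0⟩⟩
    refine SimpleGraph.Connected.mk ?_
    have key : ∀ x (hx : x ∈ S) (y : V), Relation.ReflTransGen (SimpleGraph.fromEdgeSet T).Adj x y →
        ∃ hy : y ∈ S, ((SimpleGraph.fromEdgeSet T).induce (S : Set V)).Reachable ⟨x, hx⟩ ⟨y, hy⟩ := by
      intro x hx y hxy
      induction hxy with
      | refl => exact ⟨hx, SimpleGraph.Reachable.refl _⟩
      | @tail y z _ hyz ih =>
        obtain ⟨hy, hr⟩ := ih
        have hz : z ∈ S := hT s(y, z) ((SimpleGraph.fromEdgeSet_adj T).mp hyz).1 z (by simp)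
        refine ⟨hz, hr.trans (SimpleGraph.Adj.reachable ?_)⟩
        rw [SimpleGraph.comap_adj]
        exact hyz
    rintro ⟨x, hx⟩ ⟨y, hy⟩
    obtain ⟨_, hr⟩ := key x hx y ((SimpleGraph.reachable_iff_reflTransGen x y).mp (h x hx y hy))
    exact hr

lemma induce_eq (G : SimpleGraph V) (S : Finset V) :
    G.induce (S : Set V) = (SimpleGraph.fromEdgeSet ((edgesIn G S : Finset (Sym2 V)) :
      Set (Sym2 V))).induce (S : Set V) := by
  ext x y
  simp only [SimpleGraph.comap_adj, Function.Embedding.subtype_apply, SimpleGraph.fromEdgeSet_adj,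
    Finset.mem_coe, UstStable.mem_edgesIn, SimpleGraph.mem_edgeSet]
  constructor
  · intro h
    refine ⟨⟨?_, h⟩, h.ne⟩
    intro z hz
    rw [Sym2.mem_iff] at hz
    rcases hz with rfl | rfl
    · exact x.2
    · exact y.2
  · rintro ⟨⟨_, h⟩, _⟩; exact h

lemma connected_iff (G : SimpleGraph V) (S : Finset V) :
    (G.induce (S : Set V)).Connected ↔ S.Nonempty ∧ Joins (edgesIn G S : Finset (Sym2 V)) S := by
  rw [induce_eq, induce_connected_iff]
  intro e he x hx
  exact (UstStable.mem_edgesIn.mp (Finset.mem_coe.mp he)).1 x hx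

lemma tree_iff (G : SimpleGraph V) (S : Finset V) (T : Finset (Sym2 V)) :
    IsSpanningTreeOn G S T ↔
      T ⊆ edgesIn G S ∧ T.card + 1 = S.card ∧ Joins (T : Set (Sym2 V)) S := by
  unfold IsSpanningTreeOn
  constructor
  · rintro ⟨h1, h2⟩
    rw [SimpleGraph.isTree_iff_connected_and_card, UstStable.card_edgeSet G S T h1,
      induce_connected_iff _ _ (fun e he x hx => (UstStable.mem_edgesIn.mp (h1 he)).1 x hx)] at h2
    refine ⟨h1, ?_, h2.1.2⟩
    rw [h2.2]
    simp
  · rintro ⟨h1, h2, h3⟩
    refine ⟨h1, ?_⟩
    rw [SimpleGraph.isTree_iff_connected_and_card, UstStable.card_edgeSet G S T h1,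
      induce_connected_iff _ _ (fun e he x hx => (UstStable.mem_edgesIn.mp (h1 he)).1 x hx)]
    refine ⟨⟨Finset.card_pos.mp (by omega), h3⟩, ?_⟩
    rw [h2]
    simp

open Classical in
/-- The spanning trees have the Rayleigh property. -/
lemma ray_trees (G : SimpleGraph V) (S : Finset V) (hS : (G.induce (S : Set V)).Connected) :
    Ray (trees G S) := by
  intro w hw u v huv
  have hZ : ∀ B : Finset (Sym2 V), Z (trees G S) B w =
      ∑ T ∈ (edgesIn G S).powerset with B ⊆ T,
        (if IsSpanningTreeOn G S T then (1 : ℝ) else 0) * ∏ i ∈ T, w i := by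
    intro B
    unfold Z trees
    rw [Finset.filter_comm, Finset.sum_filter]
    apply Finset.sum_congr rfl
    intro T _
    split_ifs <;> simp
  by_cases hu : u ∈ edgesIn G S
  swap
  · have h1 : Z (trees G S) {u, v} w = 0 := by
      unfold Z
      rw [Finset.filter_false_of_mem, Finset.sum_empty]
      intro T hT h
      exact hu ((mem_trees.mp hT).1 (h (by simp)))
    have h2 : Z (trees G S) {u} w = 0 := by
      unfold Z
      rw [Finset.filter_false_of_mem, Finset.sum_empty]
      intro T hT h
      exact hu ((mem_trees.mp hT).1 (h (by simp)))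
    rw [h1, h2]; simp
  by_cases hv : v ∈ edgesIn G S
  swap
  · have h1 : Z (trees G S) {u, v} w = 0 := by
      unfold Z
      rw [Finset.filter_false_of_mem, Finset.sum_empty]
      intro T hT h
      exact hv ((mem_trees.mp hT).1 (h (by simp)))
    have h2 : Z (trees G S) {v} w = 0 := by
      unfold Z
      rw [Finset.filter_false_of_mem, Finset.sum_empty]
      intro T hT h
      exact hv ((mem_trees.mp hT).1 (h (by simp)))
    rw [h1, h2]; simp
  have key := NegCorr.rayleigh_of_stable
    (fun T => if IsSpanningTreeOn G S T then (1 : ℝ) else 0) (edgesIn G S)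
    (by intro T _; split_ifs <;> norm_num)
    (by
      intro z hz
      have h1 := UstStable.treePoly_ne_zero G S hS (fun e => if e ∈ edgesIn G S then z e else 1)
        (by
          intro e
          by_cases he : e ∈ edgesIn G S
          · left; rw [if_pos he]; exact hz e he
          · right; rw [if_neg he])
      convert h1 using 1
      unfold UstStable.treePoly
      rw [Finset.sum_filter]
      apply Finset.sum_congr rfl
      intro T hT
      rw [Finset.mem_powerset] at hT
      have h2 : ∏ e ∈ T, (if e ∈ edgesIn G S then z e else 1) = ∏ e ∈ T, z e := by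
        apply Finset.prod_congr rfl
        intro e he
        rw [if_pos (hT he)]
      rw [h2]
      split_ifs <;> simp)
    u v hu hv huv w (fun e _ => hw e)
  rw [hZ, hZ, hZ, hZ]
  simpa only [Finset.empty_subset, Finset.filter_true, Finset.insert_subset_iff,
    Finset.singleton_subset_iff] using key

/-- There is a spanning tree. -/
lemma N_pos (G : SimpleGraph V) (S : Finset V) (hS : (G.induce (S : Set V)).Connected)
    [DecidableEq V] : 0 < N (trees G S) ∅ := by
  classical
  have h := UstStable.treePoly_ne_zero G S hS (fun _ => 1) (fun _ => Or.inr rfl)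
  unfold UstStable.treePoly at h
  simp only [Finset.prod_const_one, Finset.sum_const, nsmul_eq_mul, mul_one] at h
  unfold N trees
  simp only [Finset.empty_subset, Finset.filter_true]
  exact_mod_cast Nat.pos_of_ne_zero (by exact_mod_cast h)

lemma edgesIn_delete [DecidableEq V] (G : SimpleGraph V) (S : Finset V) (e : Sym2 V) :
    edgesIn (G.deleteEdges {e}) S = (edgesIn G S).erase e := by
  ext f
  simp only [UstStable.mem_edgesIn, Finset.mem_erase, SimpleGraph.edgeSet_deleteEdges,
    Set.mem_sdiff, Set.mem_singleton_iff]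
  tauto

lemma trees_delete [DecidableEq V] (G : SimpleGraph V) (S : Finset V) (e : Sym2 V) :
    trees (G.deleteEdges {e}) S = (trees G S).filter (fun T => e ∉ T) := by
  ext T
  rw [Finset.mem_filter, mem_trees, mem_trees]
  unfold IsSpanningTreeOn
  rw [edgesIn_delete, Finset.subset_erase]
  tauto

lemma delete_step (G : SimpleGraph V) (S : Finset V) (e : Sym2 V) (A : Finset (Sym2 V))
    (he : e ∉ A) (hconn : ((G.deleteEdges {e}).induce (S : Set V)).Connected) :
    ustContains G S A ≤ ustContains (G.deleteEdges {e}) S A := by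
  classical
  have hG : (G.induce (S : Set V)).Connected :=
    hconn.mono (SimpleGraph.comap_monotone _ (SimpleGraph.deleteEdges_le _))
  rw [ustContains_eq, ustContains_eq]
  have h1 := N_pos G S hG
  have h2 := N_pos (G.deleteEdges {e}) S hconn
  have h3 := neg_corr (ray_trees G S hG) e A he
  have h4 : ∀ B : Finset (Sym2 V), N (trees (G.deleteEdges {e}) S) B =
      N (trees G S) B - N (trees G S) (insert e B) := by
    intro B
    rw [trees_delete]
    unfold N
    rw [eq_sub_iff_add_eq]
    norm_cast
    rw [Finset.filter_filter]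
    have h5 : (trees G S).filter (fun T => insert e B ⊆ T) =
        ((trees G S).filter (fun T => B ⊆ T)).filter (fun T => e ∈ T) := by
      rw [Finset.filter_filter]
      apply Finset.filter_congr
      intro T _
      rw [Finset.insert_subset_iff, and_comm]
    have h6 : (trees G S).filter (fun T => e ∉ T ∧ B ⊆ T) =
        ((trees G S).filter (fun T => B ⊆ T)).filter (fun T => ¬ e ∈ T) := by
      rw [Finset.filter_filter]
      apply Finset.filter_congr
      intro T _
      rw [and_comm]
    rw [h5, h6, add_comm]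
    exact Finset.card_filter_add_card_filter_not _
  rw [div_le_div_iff₀ h1 h2, h4, h4]
  rw [insert_empty_eq]
  nlinarith

lemma ustContains_congr (G G' : SimpleGraph V) (S : Finset V) (A : Finset (Sym2 V))
    (h : edgesIn G S = edgesIn G' S) : ustContains G S A = ustContains G' S A := by
  classical
  rw [ustContains_eq, ustContains_eq]
  have : trees G S = trees G' S := by
    ext T
    rw [mem_trees, mem_trees]
    unfold IsSpanningTreeOn
    rw [h]
  rw [this]

lemma delete_many (n : ℕ) : ∀ (G G' : SimpleGraph V) (S : Finset V) (A : Finset (Sym2 V))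
    (_ : G' ≤ G) (_ : (G'.induce (S : Set V)).Connected) (_ : A ⊆ edgesIn G' S)
    (_ : (edgesIn G S).card ≤ (edgesIn G' S).card + n),
    ustContains G S A ≤ ustContains G' S A := by
  classical
  induction n with
  | zero =>
    intro G G' S A hle hc hA hcard
    apply le_of_eq
    apply ustContains_congr
    symm
    apply Finset.eq_of_subset_of_card_le _ (by simpa using hcard)
    intro e he
    rw [UstStable.mem_edgesIn] at he ⊢
    exact ⟨he.1, SimpleGraph.edgeSet_mono hle he.2⟩
  | succ n ih =>
    intro G G' S A hle hc hA hcard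
    have hsub : edgesIn G' S ⊆ edgesIn G S := by
      intro e he
      rw [UstStable.mem_edgesIn] at he ⊢
      exact ⟨he.1, SimpleGraph.edgeSet_mono hle he.2⟩
    by_cases heq : edgesIn G S ⊆ edgesIn G' S
    · exact le_of_eq (ustContains_congr _ _ _ _ (Finset.Subset.antisymm heq hsub))
    · rw [Finset.not_subset] at heq
      obtain ⟨e, he, he'⟩ := heq
      have heG' : e ∉ G'.edgeSet := by
        intro h
        exact he' (UstStable.mem_edgesIn.mpr ⟨(UstStable.mem_edgesIn.mp he).1, h⟩)
      have hle' : G' ≤ G.deleteEdges {e} := by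
        rw [← SimpleGraph.edgeSet_subset_edgeSet, SimpleGraph.edgeSet_deleteEdges]
        intro f hf
        refine ⟨SimpleGraph.edgeSet_mono hle hf, ?_⟩
        rintro rfl
        exact heG' hf
      refine (delete_step G S e A (fun h => he' (hA h))
        (hc.mono (SimpleGraph.comap_monotone _ hle'))).trans
        (ih (G.deleteEdges {e}) G' S A hle' hc hA ?_)
      rw [edgesIn_delete, Finset.card_erase_of_mem he]
      omega

/-- Retraction of `v` to `u`. -/
lemma reach_retract [DecidableEq V] (T : Finset (Sym2 V)) (S : Finset V) (u v : V)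
    (hv : v ∉ S) (hT : ∀ e ∈ T, ∀ x ∈ e, x ∈ S) (x y : V)
    (h : (SimpleGraph.fromEdgeSet ((insert s(u, v) T : Finset (Sym2 V)) :
      Set (Sym2 V))).Reachable x y) :
    (SimpleGraph.fromEdgeSet (T : Set (Sym2 V))).Reachable
      (if x = v then u else x) (if y = v then u else y) := by
  rw [SimpleGraph.reachable_iff_reflTransGen] at h
  induction h with
  | refl => exact SimpleGraph.Reachable.refl _
  | @tail y z _ hyz ih =>
    refine ih.trans ?_
    rw [SimpleGraph.fromEdgeSet_adj, Finset.mem_coe, Finset.mem_insert] at hyz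
    obtain ⟨h1 | h1, hne⟩ := hyz
    · rw [Sym2.eq_iff] at h1
      rcases h1 with ⟨rfl, rfl⟩ | ⟨rfl, rfl⟩
      · rw [if_neg hne, if_pos rfl]
      · rw [if_pos rfl, if_neg hne.symm]
    · have hy : y ∈ S := hT _ h1 y (by simp)
      have hz : z ∈ S := hT _ h1 z (by simp)
      have hyv : y ≠ v := by rintro rfl; exact hv hy
      have hzv : z ≠ v := by rintro rfl; exact hv hz
      rw [if_neg hyv, if_neg hzv]
      apply SimpleGraph.Adj.reachable
      rw [SimpleGraph.fromEdgeSet_adj]
      exact ⟨h1, hne⟩

/-- The graph with one pendant edge. -/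
def pendant [DecidableEq V] (G : SimpleGraph V) (S : Finset V) (u v : V) : SimpleGraph V :=
  SimpleGraph.fromEdgeSet ((insert s(u, v) (edgesIn G S) : Finset (Sym2 V)) : Set (Sym2 V))

lemma edgesIn_pendant [DecidableEq V] (G : SimpleGraph V) (S : Finset V) (u v : V)
    (hu : u ∈ S) (hv : v ∉ S) :
    edgesIn (pendant G S u v) (insert v S) = insert s(u, v) (edgesIn G S) := by
  have huv : u ≠ v := by rintro rfl; exact hv hu
  ext e
  rw [UstStable.mem_edgesIn]
  unfold pendant
  rw [SimpleGraph.edgeSet_fromEdgeSet, Set.mem_sdiff, Finset.mem_coe]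
  constructor
  · rintro ⟨_, h, _⟩; exact h
  · intro h
    refine ⟨?_, h, ?_⟩
    · intro x hx
      rw [Finset.mem_insert] at h
      rcases h with rfl | h
      · rw [Sym2.mem_iff] at hx
        rcases hx with rfl | rfl
        · exact Finset.mem_insert_of_mem hu
        · exact Finset.mem_insert_self _ _
      · exact Finset.mem_insert_of_mem ((UstStable.mem_edgesIn.mp h).1 x hx)
    · rw [Finset.mem_insert] at h
      rcases h with rfl | h
      · simpa using huv
      · exact fun hd => (G.not_isDiag_of_mem_edgeSet (UstStable.mem_edgesIn.mp h).2) hd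

lemma notMem_edgesIn (G : SimpleGraph V) (S : Finset V) (u v : V) (hv : v ∉ S) :
    s(u, v) ∉ edgesIn G S := by
  intro h
  exact hv ((UstStable.mem_edgesIn.mp h).1 v (by simp))

lemma trees_pendant [DecidableEq V] (G : SimpleGraph V) (S : Finset V) (u v : V)
    (hu : u ∈ S) (hv : v ∉ S) :
    trees (pendant G S u v) (insert v S) = (trees G S).image (insert s(u, v)) := by
  have huv : u ≠ v := by rintro rfl; exact hv hu
  ext T
  rw [mem_trees, tree_iff, edgesIn_pendant G S u v hu hv, Finset.mem_image,
    Finset.card_insert_of_notMem hv]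
  constructor
  · rintro ⟨h1, h2, h3⟩
    have hmem : s(u, v) ∈ T := by
      by_contra hn
      have hT : T ⊆ edgesIn G S := by
        intro e he
        rcases Finset.mem_insert.mp (h1 he) with rfl | h
        · exact absurd he hn
        · exact h
      have h4 := h3 v (Finset.mem_insert_self _ _) u (Finset.mem_insert_of_mem hu)
      rw [SimpleGraph.reachable_iff_reflTransGen] at h4
      rcases Relation.ReflTransGen.cases_head h4 with h5 | ⟨c, h5, _⟩
      · exact huv h5.symm
      · rw [SimpleGraph.fromEdgeSet_adj, Finset.mem_coe] at h5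
        exact hv ((UstStable.mem_edgesIn.mp (hT h5.1)).1 v (by simp))
    refine ⟨T.erase s(u, v), ?_, Finset.insert_erase hmem⟩
    rw [mem_trees, tree_iff]
    have hsub : T.erase s(u, v) ⊆ edgesIn G S := by
      intro e he
      rw [Finset.mem_erase] at he
      rcases Finset.mem_insert.mp (h1 he.2) with h | h
      · exact absurd h he.1
      · exact h
    refine ⟨hsub, ?_, ?_⟩
    · rw [Finset.card_erase_of_mem hmem]
      have := Finset.card_pos.mpr ⟨_, hmem⟩
      omega
    · intro x hx y hy
      have h4 := h3 x (Finset.mem_insert_of_mem hx) y (Finset.mem_insert_of_mem hy)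
      rw [← Finset.insert_erase hmem] at h4
      have h5 := reach_retract (T.erase s(u, v)) S u v hv
        (fun e he x hx => (UstStable.mem_edgesIn.mp (hsub he)).1 x hx) x y h4
      have hxv : x ≠ v := by rintro rfl; exact hv hx
      have hyv : y ≠ v := by rintro rfl; exact hv hy
      rwa [if_neg hxv, if_neg hyv] at h5
  · rintro ⟨T0, hT0, rfl⟩
    rw [mem_trees, tree_iff] at hT0
    obtain ⟨h1, h2, h3⟩ := hT0
    refine ⟨Finset.insert_subset_insert _ h1, ?_, ?_⟩
    · rw [Finset.card_insert_of_notMem (fun h => notMem_edgesIn G S u v hv (h1 h))]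
      omega
    · have h4 : Joins ((insert s(u, v) T0 : Finset (Sym2 V)) : Set (Sym2 V)) S :=
        h3.mono (by simp)
      have h5 : (SimpleGraph.fromEdgeSet ((insert s(u, v) T0 : Finset (Sym2 V)) :
          Set (Sym2 V))).Reachable u v := by
        apply SimpleGraph.Adj.reachable
        rw [SimpleGraph.fromEdgeSet_adj]
        exact ⟨by simp, huv⟩
      have h6 : ∀ x ∈ insert v S, (SimpleGraph.fromEdgeSet ((insert s(u, v) T0 :
          Finset (Sym2 V)) : Set (Sym2 V))).Reachable x u := by
        intro x hx
        rcases Finset.mem_insert.mp hx with rfl | hx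
        · exact h5.symm
        · exact h4 x hx u hu
      intro x hx y hy
      exact (h6 x hx).trans (h6 y hy).symm

lemma N_pendant [DecidableEq V] (G : SimpleGraph V) (S : Finset V) (u v : V)
    (hu : u ∈ S) (hv : v ∉ S) (B : Finset (Sym2 V)) (hB : B ⊆ edgesIn G S) :
    N (trees (pendant G S u v) (insert v S)) B = N (trees G S) B := by
  unfold N
  rw [trees_pendant G S u v hu hv, Finset.filter_image, Finset.card_image_of_injOn]
  · congr 2
    apply Finset.filter_congr
    intro T _
    rw [Finset.subset_insert_iff_of_notMem (fun h => notMem_edgesIn G S u v hv (hB h))]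
  · intro T hT T' hT' h
    rw [Finset.mem_coe, Finset.mem_filter, mem_trees] at hT hT'
    have h1 : s(u, v) ∉ T := fun h => notMem_edgesIn G S u v hv (hT.1.1 h)
    have h2 : s(u, v) ∉ T' := fun h => notMem_edgesIn G S u v hv (hT'.1.1 h)
    have h3 := congrArg (fun X => X.erase s(u, v)) h
    simpa only [Finset.erase_insert h1, Finset.erase_insert h2] using h3

lemma add_vertex [DecidableEq V] (G : SimpleGraph V) (S : Finset V) (u v : V)
    (hS : (G.induce (S : Set V)).Connected) (hu : u ∈ S) (hv : v ∉ S) (huv : G.Adj u v)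
    (A : Finset (Sym2 V)) (hA : A ⊆ edgesIn G S) :
    (G.induce ((insert v S : Finset V) : Set V)).Connected ∧
      ustContains G (insert v S) A ≤ ustContains G S A := by
  have hle : pendant G S u v ≤ G := by
    rw [← SimpleGraph.edgeSet_subset_edgeSet]
    unfold pendant
    rw [SimpleGraph.edgeSet_fromEdgeSet]
    rintro e ⟨he, _⟩
    rw [Finset.mem_coe, Finset.mem_insert] at he
    rcases he with rfl | he
    · exact huv
    · exact (UstStable.mem_edgesIn.mp he).2
  have hconn : ((pendant G S u v).induce ((insert v S : Finset V) : Set V)).Connected := by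
    have h1 := N_pos G S hS
    rw [← N_pendant G S u v hu hv ∅ (by simp)] at h1
    unfold N at h1
    have h2 : 0 < ((trees (pendant G S u v) (insert v S)).filter (fun T => ∅ ⊆ T)).card := by
      exact_mod_cast h1
    obtain ⟨T, hT⟩ := Finset.card_pos.mp h2
    rw [Finset.mem_filter, mem_trees, tree_iff] at hT
    rw [connected_iff]
    exact ⟨Finset.insert_nonempty _ _, hT.1.2.2.mono (by exact_mod_cast hT.1.1)⟩
  refine ⟨hconn.mono (SimpleGraph.comap_monotone _ hle), ?_⟩
  have h1 : ustContains (pendant G S u v) (insert v S) A = ustContains G S A := by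
    rw [ustContains_eq, ustContains_eq, N_pendant G S u v hu hv A hA,
      N_pendant G S u v hu hv ∅ (by simp)]
  rw [← h1]
  exact delete_many _ G (pendant G S u v) (insert v S) A hle hconn
    (by rw [edgesIn_pendant G S u v hu hv]; exact hA.trans (Finset.subset_insert _ _))
    (Nat.le_add_left _ _)

/-- There is an edge leaving a proper nonempty part of a connected piece. -/
lemma exists_edge (G : SimpleGraph V) (S S' : Finset V) (hS : S.Nonempty)
    (hS' : (G.induce (S' : Set V)).Connected) (hSS : S ⊆ S') (hne : S ≠ S') :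
    ∃ u ∈ S, ∃ v ∈ S', v ∉ S ∧ G.Adj u v := by
  obtain ⟨x, hx⟩ := hS
  obtain ⟨y, hy, hyS⟩ := Finset.exists_of_ssubset (Finset.ssubset_iff_subset_ne.mpr ⟨hSS, hne⟩)
  rw [connected_iff] at hS'
  have h := hS'.2 x (hSS hx) y hy
  rw [SimpleGraph.reachable_iff_reflTransGen] at h
  by_contra hcon
  push Not at hcon
  have key : ∀ z, Relation.ReflTransGen (SimpleGraph.fromEdgeSet ((edgesIn G S' :
      Finset (Sym2 V)) : Set (Sym2 V))).Adj x z → z ∈ S := by
    intro z hz
    induction hz with
    | refl => exact hx
    | @tail a b _ hab ih =>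
      rw [SimpleGraph.fromEdgeSet_adj, Finset.mem_coe, UstStable.mem_edgesIn] at hab
      by_contra hb
      exact hcon a ih b (hab.1.1 b (by simp)) hb hab.1.2
  exact hyS (key y h)

/-- TASK D2 -/
theorem ust_antitone (G : SimpleGraph V) (S S' : Finset V)
    (hS : (G.induce (S : Set V)).Connected) (hS' : (G.induce (S' : Set V)).Connected)
    (hSS : S ⊆ S') (A : Finset (Sym2 V)) (hA : A ⊆ edgesIn G S) :
    ustContains G S' A ≤ ustContains G S A := by
  classical
  have key : ∀ (n : ℕ) (S : Finset V), (G.induce (S : Set V)).Connected → S ⊆ S' →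
      A ⊆ edgesIn G S → S'.card ≤ S.card + n → ustContains G S' A ≤ ustContains G S A := by
    intro n
    induction n with
    | zero =>
      intro S _ hSS _ hcard
      rw [Finset.eq_of_subset_of_card_le hSS (by simpa using hcard)]
    | succ n ih =>
      intro S hS hSS hA hcard
      by_cases hne : S = S'
      · rw [hne]
      · obtain ⟨u, hu, v, hv, hvS, huv⟩ := exists_edge G S S'
          ((connected_iff G S).mp hS).1 hS' hSS hne
        obtain ⟨h1, h2⟩ := add_vertex G S u v hS hu hvS huv A hA
        refine le_trans (ih (insert v S) h1 ?_ ?_ ?_) h2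
        · exact Finset.insert_subset hv hSS
        · intro e he
          have := UstStable.mem_edgesIn.mp (hA he)
          exact UstStable.mem_edgesIn.mpr
            ⟨fun x hx => Finset.mem_insert_of_mem (this.1 x hx), this.2⟩
        · rw [Finset.card_insert_of_notMem hvS]
          omega
  exact key S'.card S hS hSS hA (Nat.le_add_left _ _)

end Graph

end Crest.Agent.R168.TaskD2
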