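import Crest.Agent.R168.Rule
import Crest.Agent.R168.Group

/-!
Row 168: the universal rule for free uniform spanning forests.
-/

set_option autoImplicit false
open MeasureTheory ProbabilityTheory Finset Filter
open scoped NNReal ENNReal Topology

namespace Crest.Agent.R168

open Crest.ProbabilityR Crest.ProbabilityR.SpanningTrees

section meas

variable {α : Type*} [MeasurableSpace α] (G : α → SimpleGraph ℕ)
  (hG : ∀ i j, MeasurableSet {a | (G a).Adj i j})

include hG

theorem measurableSet_edge (e : Sym2 ℕ) : MeasurableSet {a | e ∈ (G a).edgeSet} := by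
  induction e with
  | _ i j => simpa using hG i j

theorem measurableSet_edgesIn (S : Finset ℕ) (E : Finset (Sym2 ℕ)) :
    MeasurableSet {a | edgesIn (G a) S = E} := by
  have : {a | edgesIn (G a) S = E} = ⋂ e : Sym2 ℕ, {a | e ∈ edgesIn (G a) S ↔ e ∈ E} := by
    ext a
    simp [Finset.ext_iff]
  rw [this]
  refine MeasurableSet.iInter fun e => ?_
  by_cases h1 : ∀ v ∈ e, v ∈ S
  · by_cases h2 : e ∈ E
    · have : {a | e ∈ edgesIn (G a) S ↔ e ∈ E} = {a | e ∈ (G a).edgeSet} := by
        ext a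
        simp only [Set.mem_ofPred_eq, mem_edgesIn, h2, iff_true]
        constructor
        · rintro ⟨-, h⟩; exact h
        · intro h; exact ⟨fun v hv => h1 v hv, h⟩
      rw [this]
      exact measurableSet_edge G hG e
    · have : {a | e ∈ edgesIn (G a) S ↔ e ∈ E} = {a | e ∈ (G a).edgeSet}ᶜ := by
        ext a
        simp only [Set.mem_ofPred_eq, mem_edgesIn, h2, iff_false, Set.mem_compl_iff]
        constructor
        · intro h h'; exact h ⟨h1, h'⟩
        · rintro h ⟨-, h'⟩; exact h h'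
      rw [this]
      exact (measurableSet_edge G hG e).compl
  · by_cases h2 : e ∈ E
    · have : {a | e ∈ edgesIn (G a) S ↔ e ∈ E} = ∅ := by
        ext a
        simp only [Set.mem_ofPred_eq, mem_edgesIn, h2, iff_true, Set.mem_empty_iff_false, iff_false]
        rintro ⟨h, -⟩; exact h1 h
      rw [this]
      exact MeasurableSet.empty
    · have : {a | e ∈ edgesIn (G a) S ↔ e ∈ E} = Set.univ := by
        ext a
        simp only [Set.mem_ofPred_eq, mem_edgesIn, h2, iff_false, Set.mem_univ, iff_true]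
        rintro ⟨h, -⟩; exact h1 h
      rw [this]
      exact MeasurableSet.univ

theorem measurable_ustContains (S : Finset ℕ) (F : Finset (Sym2 ℕ)) :
    Measurable (fun a => ustContains (G a) S F) := by
  classical
  have h1 : ∀ a, ustContains (G a) S F = (fun E : Finset (Sym2 ℕ) =>
      ((E.powerset.filter (fun A => (A ⊆ E ∧ ((SimpleGraph.fromEdgeSet (A : Set (Sym2 ℕ))).induce
        (S : Set ℕ)).IsTree) ∧ F ⊆ A)).card : ℝ) /
      ((E.powerset.filter (fun A => A ⊆ E ∧ ((SimpleGraph.fromEdgeSet (A : Set (Sym2 ℕ))).induce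
        (S : Set ℕ)).IsTree)).card : ℝ)) (edgesIn (G a) S) := by
    intro a
    rw [ustContains_eq]
    unfold trees IsSpanningTreeOn
    rw [filter_filter]
    simp only
    congr! 3
    · ext A; simp only [mem_filter]
    · ext A; simp only [mem_filter]
  simp_rw [h1]
  exact measurable_pick (N := fun a => edgesIn (G a) S) (measurableSet_edgesIn G hG S)
    (g := fun E _ => ((E.powerset.filter (fun A => (A ⊆ E ∧ ((SimpleGraph.fromEdgeSet
        (A : Set (Sym2 ℕ))).induce (S : Set ℕ)).IsTree) ∧ F ⊆ A)).card : ℝ) /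
      ((E.powerset.filter (fun A => A ⊆ E ∧ ((SimpleGraph.fromEdgeSet (A : Set (Sym2 ℕ))).induce
        (S : Set ℕ)).IsTree)).card : ℝ)) (fun E => measurable_const)

theorem measurableSet_connected (S : Finset ℕ) :
    MeasurableSet {a | ((G a).induce (S : Set ℕ)).Connected} := by
  have h1 : ∀ a, (G a).induce (S : Set ℕ) =
      (SimpleGraph.fromEdgeSet ((edgesIn (G a) S : Finset (Sym2 ℕ)) : Set (Sym2 ℕ))).induce
        (S : Set ℕ) := by
    intro a
    ext x y
    simp only [SimpleGraph.comap_adj, SimpleGraph.fromEdgeSet_adj, mem_coe, mem_edgesIn,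
      Function.Embedding.subtype_apply, SimpleGraph.mem_edgeSet]
    constructor
    · intro h
      refine ⟨⟨?_, h⟩, h.ne⟩
      intro v hv
      rw [Sym2.mem_iff] at hv
      rcases hv with rfl | rfl
      · exact x.2
      · exact y.2
    · rintro ⟨⟨-, h⟩, -⟩
      exact h
  have h2 : {a | ((G a).induce (S : Set ℕ)).Connected} =
      ⋃ E ∈ {E : Finset (Sym2 ℕ) | ((SimpleGraph.fromEdgeSet (E : Set (Sym2 ℕ))).induce
        (S : Set ℕ)).Connected}, {a | edgesIn (G a) S = E} := by
    ext a
    simp only [Set.mem_ofPred_eq, Set.mem_iUnion, exists_prop, exists_eq_right']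
    rw [← h1]
  rw [h2]
  exact MeasurableSet.biUnion (Set.to_countable _) fun E _ => measurableSet_edgesIn G hG S E

theorem measurable_pG (A : Finset (Sym2 ℕ)) : Measurable (fun a => pG (G a) A) := by
  classical
  unfold pG
  refine Measurable.iInf fun S => ?_
  by_cases hc : ∀ e ∈ A, ∀ v ∈ e, v ∈ S
  · have h1 : (fun a => pGin (G a) A S) =
        fun a => {a | ((G a).induce (S : Set ℕ)).Connected}.indicator
          (fun a => ustContains (G a) S A - 1) a + 1 := by
      ext a
      by_cases h : ((G a).induce (S : Set ℕ)).Connected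
      · rw [pGin_pos ⟨h, hc⟩, Set.indicator_of_mem (by exact h)]; ring
      · rw [pGin_neg (fun h' => h h'.1), Set.indicator_of_notMem (by exact h)]; ring
    rw [h1]
    exact (((measurable_ustContains G hG S A).sub_const 1).indicator
      (measurableSet_connected G hG S)).add_const 1
  · have h1 : (fun a => pGin (G a) A S) = fun _ => 1 := by
      ext a
      exact pGin_neg (fun h' => hc h'.2)
    rw [h1]
    exact measurable_const

theorem measurable_qG (F S : Finset (Sym2 ℕ)) : Measurable (fun a => qG (G a) F S) := by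
  classical
  unfold qG
  exact Finset.measurable_sum _ fun U _ => (measurable_pG G hG _).const_mul _

theorem measurableSet_ball (e : Sym2 ℕ) (n : ℕ) : ∀ v, MeasurableSet {a | v ∈ ball (G a) e n} := by
  induction n with
  | zero => intro v; exact MeasurableSet.const _
  | succ n ih =>
    intro v
    have : {a | v ∈ ball (G a) e (n + 1)} = {a | v ∈ ball (G a) e n} ∪
        ⋃ b, ({a | b ∈ ball (G a) e n} ∩ {a | (G a).Adj b v}) := by
      ext a
      simp [ball]
    rw [this]
    exact (ih v).union (MeasurableSet.iUnion fun b => (ih b).inter (hG b v))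

theorem measurableSet_ball_eq (e : Sym2 ℕ) (n : ℕ) (B : Finset ℕ) :
    MeasurableSet {a | ball (G a) e n = (B : Set ℕ)} := by
  have : {a | ball (G a) e n = (B : Set ℕ)} = ⋂ v : ℕ, {a | v ∈ ball (G a) e n ↔ v ∈ B} := by
    ext a
    simp [Set.ext_iff]
  rw [this]
  refine MeasurableSet.iInter fun v => ?_
  by_cases h : v ∈ B
  · have : {a | v ∈ ball (G a) e n ↔ v ∈ B} = {a | v ∈ ball (G a) e n} := by
      ext a; simp [h]
    rw [this]
    exact measurableSet_ball G hG e n v
  · have : {a | v ∈ ball (G a) e n ↔ v ∈ B} = {a | v ∈ ball (G a) e n}ᶜ := by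
      ext a; simp [h]
    rw [this]
    exact (measurableSet_ball G hG e n v).compl

theorem measurableSet_KG (e : Sym2 ℕ) (n : ℕ) (F : Finset (Sym2 ℕ)) :
    MeasurableSet {a | KG (G a) e n = F} := by
  classical
  have hfin : ∀ B : Finset ℕ, ∀ a, ball (G a) e n = (B : Set ℕ) → KG (G a) e n = B.sym2 := by
    intro B a h
    have hf : (ball (G a) e n).Finite := by rw [h]; exact B.finite_toSet
    unfold KG
    rw [dif_pos hf]
    congr 1
    ext v
    rw [Set.Finite.mem_toFinset, h, mem_coe]
  have hinf : ∀ a, (∀ B : Finset ℕ, ball (G a) e n ≠ (B : Set ℕ)) → KG (G a) e n = ∅ := by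
    intro a h
    unfold KG
    rw [dif_neg]
    intro hf
    exact h hf.toFinset (by simp)
  have h2 : {a | KG (G a) e n = F} =
      (⋃ B ∈ {B : Finset ℕ | B.sym2 = F}, {a | ball (G a) e n = (B : Set ℕ)}) ∪
      ({a | ∅ = F} ∩ ⋂ B : Finset ℕ, {a | ball (G a) e n = (B : Set ℕ)}ᶜ) := by
    ext a
    simp only [Set.mem_ofPred_eq, Set.mem_union, Set.mem_iUnion, exists_prop, Set.mem_inter_iff,
      Set.mem_iInter, Set.mem_compl_iff]
    constructor
    · intro h
      by_cases hB : ∃ B : Finset ℕ, ball (G a) e n = (B : Set ℕ)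
      · obtain ⟨B, hB⟩ := hB
        left
        exact ⟨B, by rw [← h, hfin B a hB], hB⟩
      · push Not at hB
        right
        exact ⟨by rw [← h, hinf a hB], hB⟩
    · rintro (⟨B, hB1, hB2⟩ | ⟨h1, h2⟩)
      · rw [hfin B a hB2, hB1]
      · rw [hinf a h2, h1]
  rw [h2]
  refine MeasurableSet.union ?_ ?_
  · exact MeasurableSet.biUnion (Set.to_countable _) fun B _ => measurableSet_ball_eq G hG e n B
  · exact (MeasurableSet.const _).inter (MeasurableSet.iInter fun B =>
      (measurableSet_ball_eq G hG e n B).compl)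

end meas

theorem measurableSet_adj_table (i j : ℕ) : MeasurableSet
    {a : (ℕ → ℕ → Bool) × (ℕ → unitInterval) | (GraphTables.graphOfTable a.1).Adj i j} := by
  have h1 : ∀ i j : ℕ, MeasurableSet
      {a : (ℕ → ℕ → Bool) × (ℕ → unitInterval) | a.1 i j = true} := by
    intro i j
    have hm : Measurable (fun a : (ℕ → ℕ → Bool) × (ℕ → unitInterval) => a.1 i j) :=
      (measurable_pi_apply j).comp ((measurable_pi_apply i).comp measurable_fst)
    exact measurableSet_preimage hm (t := {b : Bool | b = true}) (by exact MeasurableSet.of_discrete)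
  have h2 : {a : (ℕ → ℕ → Bool) × (ℕ → unitInterval) | (GraphTables.graphOfTable a.1).Adj i j} =
      {a | i ≠ j} ∩ ({a | a.1 i j = true} ∪ {a | a.1 j i = true}) := by
    ext a
    simp [GraphTables.graphOfTable, SimpleGraph.fromRel_adj]
  rw [h2]
  exact (MeasurableSet.const _).inter ((h1 i j).union (h1 j i))

theorem graphOfTable_tableOf (G : SimpleGraph ℕ) :
    GraphTables.graphOfTable (GraphTables.tableOf G) = G := by
  ext i j
  simp only [GraphTables.graphOfTable, GraphTables.tableOf, SimpleGraph.fromRel_adj,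
    decide_eq_true_eq]
  constructor
  · rintro ⟨-, h | h⟩
    · exact h
    · exact h.symm
  · intro h
    exact ⟨h.ne, Or.inl h⟩

theorem mdr_congr {V : Type*} (δ δ' : Data V) (h2 : δ.2 = δ'.2)
    (h1 : ∀ F S, S ⊆ F → δ.1 F S = δ'.1 F S) : mdr δ = mdr δ' := by
  ext v t y
  unfold mdr
  congr 1
  ext n
  rw [h2]
  unfold drift partAt part
  congr 1
  · apply sum_congr rfl
    intro S hS
    rw [h1 _ S (mem_powerset.1 hS)]
  · apply sum_congr rfl
    intro S hS
    rw [h1 _ S (mem_powerset.1 hS)]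

theorem Psi_congr {V : Type*} (δ δ' : Data V) (h2 : δ.2 = δ'.2)
    (h1 : ∀ F S, S ⊆ F → δ.1 F S = δ'.1 F S) : Psi δ = Psi δ' := by
  ext ξ v
  unfold Psi zed
  rw [mdr_congr δ δ' h2 h1]

/-- The universal rule, from the four ingredients. -/
theorem universal_rule
    (hA : ∀ (q : Finset (Sym2 ℕ) → ℝ) (F : Finset (Sym2 ℕ)), (∀ S ⊆ F, 0 ≤ q S) →
      0 < ∑ S ∈ F.powerset, q S →
      (∀ z : Sym2 ℕ → ℂ, (∀ i ∈ F, 0 < (z i).im) →
        ∑ S ∈ F.powerset, (q S : ℂ) * ∏ i ∈ S, z i ≠ 0) → ∀ v, DriftLip q F v 2)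
    (hD1 : ∀ (G : SimpleGraph ℕ) (S : Finset ℕ), (G.induce (S : Set ℕ)).Connected →
      ∀ (K : Finset (Sym2 ℕ)) (z : Sym2 ℕ → ℂ), (∀ e ∈ K, 0 < (z e).im) →
      ∑ T ∈ K.powerset, (ustTrace G S K T : ℂ) * ∏ e ∈ T, z e ≠ 0)
    (hD2 : ∀ (G : SimpleGraph ℕ) (S S' : Finset ℕ),
      (G.induce (S : Set ℕ)).Connected → (G.induce (S' : Set ℕ)).Connected →
      S ⊆ S' → ∀ (A : Finset (Sym2 ℕ)), A ⊆ edgesIn G S → ustContains G S' A ≤ ustContains G S A)
    (hE : ∃ N : SimpleGraph ℕ → (ℕ → unitInterval) → (Sym2 ℕ → (ℕ × ℕ → ℝ)),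
      Measurable (fun p : (ℕ → ℕ → Bool) × (ℕ → unitInterval) =>
        N (GraphTables.graphOfTable p.1) p.2) ∧
      (∀ (σ : Equiv.Perm ℕ) (G : SimpleGraph ℕ) (x : ℕ → unitInterval),
        N (G.comap ⇑σ) (x ∘ ⇑σ) = N G x ∘ Sym2.map ⇑σ) ∧
      ∀ G : SimpleGraph ℕ, G.Connected → (∀ v : ℕ, (G.neighborSet v).Finite) →
        (Labels.labelMeasure ℕ).map (N G) =
          Measure.infinitePi (fun _ : Sym2 ℕ => gnoise (ℕ × ℕ) 1)) :
    ∃ Φ : SimpleGraph ℕ → (ℕ → unitInterval) → (Sym2 ℕ → Bool),
      Measurable (fun p : (ℕ → ℕ → Bool) × (ℕ → unitInterval) =>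
          Φ (Crest.ProbabilityR.GraphTables.graphOfTable p.1) p.2) ∧
      (∀ (σ : Equiv.Perm ℕ) (G : SimpleGraph ℕ) (x : ℕ → unitInterval),
          Φ (G.comap ⇑σ) (x ∘ ⇑σ) = Φ G x ∘ Sym2.map ⇑σ) ∧
      ∀ G : SimpleGraph ℕ, G.Connected → (∀ v : ℕ, (G.neighborSet v).Finite) →
        ∀ S : ℕ → Finset ℕ, Monotone S → (∀ v : ℕ, ∃ n, v ∈ S n) →
          (∀ n, (G.induce (S n : Set ℕ)).Connected) →
          ∀ F : Finset (Sym2 ℕ), (↑F : Set (Sym2 ℕ)) ⊆ G.edgeSet →
            Filter.Tendsto (fun n => Crest.ProbabilityR.SpanningTrees.ustContains G (S n) F)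
              Filter.atTop (nhds (((Crest.ProbabilityR.Labels.labelMeasure ℕ).map (Φ G)
                {ω | ∀ e ∈ F, ω e = true}).toReal)) := by
  obtain ⟨N, hN1, hN2, hN3⟩ := hE
  refine ⟨fun G x => Psi (qG G, KG G) (N G x), ?_, ?_, ?_⟩
  · -- measurability
    exact measurable_Psi_param
      (fun a : (ℕ → ℕ → Bool) × (ℕ → unitInterval) => qG (GraphTables.graphOfTable a.1))
      (fun F S => measurable_qG _ measurableSet_adj_table F S)
      (fun a => KG (GraphTables.graphOfTable a.1))
      (fun e n F => measurableSet_KG _ measurableSet_adj_table e n F)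
      (fun a => N (GraphTables.graphOfTable a.1) a.2)
      (fun u => (measurable_pi_apply u).comp hN1)
  · -- equivariance
    intro σ G x
    ext e
    simp only [Function.comp_apply]
    rw [hN2 σ G x]
    have h3 := Psi_map (sym2Perm σ) (qG (G.comap σ), KG (G.comap σ)) (qG G, KG G)
      (fun F S => qG_comap σ G F S) (fun v n => KG_map σ G v n) (N G x) e
    exact h3.symm
  · intro G hG hlf S hSm hSu hSc F hF
    -- a connected exhaustion by balls
    let S₀ : ℕ → Finset ℕ := fun n => (ball_finite G hlf s(0, 0) n).toFinset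
    have hS₀ : ∀ n, ((S₀ n : Finset ℕ) : Set ℕ) = ball G s(0, 0) n := fun n => by simp [S₀]
    have hS₀m : Monotone S₀ := by
      intro m n hmn v hv
      have h1 : v ∈ ball G s(0, 0) m := by rw [← hS₀]; exact hv
      have h2 : v ∈ ball G s(0, 0) n := ball_mono G _ hmn h1
      rw [← hS₀] at h2
      exact h2
    have hS₀u : ∀ v, ∃ n, v ∈ S₀ n := by
      intro v
      obtain ⟨n, hn⟩ := ball_exhaust G hG s(0, 0) v
      refine ⟨n, ?_⟩
      rw [← hS₀] at hn
      exact hn
    have hS₀c : ∀ n, (G.induce (S₀ n : Set ℕ)).Connected := by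
      intro n
      rw [hS₀]
      exact ball_connected G 0 n
    obtain ⟨ν, hν1, hν2, hν3⟩ := exists_fusf hA hD1 hD2 G S₀ hS₀m hS₀u hS₀c
    have hδ : Psi (qG G, KG G) = Psi (fun F => cylW ν F, KG G) :=
      Psi_congr _ _ rfl fun F T hT => (cylW_eq_qG G ν hν2 F T hT).symm
    have hNm : Measurable (N G) := by
      have h1 : Measurable (fun x : ℕ → unitInterval => (GraphTables.tableOf G, x)) :=
        measurable_const.prodMk measurable_id
      have h2 := hN1.comp h1
      have h3 : (fun p : (ℕ → ℕ → Bool) × (ℕ → unitInterval) =>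
          N (GraphTables.graphOfTable p.1) p.2) ∘ (fun x => (GraphTables.tableOf G, x)) = N G := by
        ext1 x
        simp only [Function.comp_apply, graphOfTable_tableOf]
      rwa [h3] at h2
    have hlaw : (Labels.labelMeasure ℕ).map (fun x => Psi (qG G, KG G) (N G x)) = ν := by
      have h4 : (fun x => Psi (qG G, KG G) (N G x)) = Psi (fun F => cylW ν F, KG G) ∘ N G := by
        rw [hδ]; rfl
      rw [h4, ← Measure.map_map (measurable_Psi _) hNm, hN3 G hG hlf]
      exact Psi_law ν (KG G) (fun e => KG_mono G hlf e) (fun e e' => KG_exhaust G hG hlf e e') 2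
        (by norm_num) (fun e n => hν3 _ _)
    rw [hlaw, hν2]
    exact tendsto_ustContains hD2 G S hSm hSu hSc F

end Crest.Agent.R168
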