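import Crest.Agent.R168.Defs

set_option autoImplicit false
open Crest.ProbabilityR Crest.ProbabilityR.SpanningTrees

namespace Crest.Agent.R168.UstStable

section MT

variable {X E : Type*} [Fintype X] [DecidableEq X] [Fintype E] [DecidableEq E]

/-- The relation "joined by an edge of `A`". -/
def EdgeRel (s t : E → X) (A : Finset E) (x y : X) : Prop := ∃ e ∈ A, s e = x ∧ t e = y

/-- All vertices are connected to `r` through edges of `A`. -/
def Conn (s t : E → X) (r : X) (A : Finset E) : Prop :=
  ∀ x, Relation.EqvGen (EdgeRel s t A) x r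

/-- reduced incidence matrix (integer valued). -/
def inc (s t : E → X) (r : X) : Matrix {x : X // x ≠ r} E ℤ := fun i e =>
  (if i.1 = s e then 1 else 0) - (if i.1 = t e then 1 else 0)

omit [Fintype E] [DecidableEq E] in
lemma sum_ext {R : Type*} [CommRing R] (r : X) (f : X → R) (hf : f r = 0) (x : X) :
    ∑ i : {x : X // x ≠ r}, f i.1 * (if i.1 = x then 1 else 0) = f x := by
  by_cases hx : x = r
  · subst hx
    rw [hf]
    apply Finset.sum_eq_zero
    intro i _
    rw [if_neg i.2, mul_zero]
  · rw [Finset.sum_eq_single (⟨x, hx⟩ : {x : X // x ≠ r})]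
    · simp
    · intro b _ hb
      rw [if_neg, mul_zero]
      intro h
      exact hb (Subtype.ext h)
    · intro h; exact absurd (Finset.mem_univ _) h

omit [Fintype E] [DecidableEq E] in
lemma sum_inc {R : Type*} [CommRing R] (s t : E → X) (r : X) (f : X → R) (hf : f r = 0) (e : E) :
    ∑ i : {x : X // x ≠ r}, f i.1 * ((inc s t r i e : ℤ) : R) = f (s e) - f (t e) := by
  rw [← sum_ext r f hf (s e), ← sum_ext r f hf (t e), ← Finset.sum_sub_distrib]
  apply Finset.sum_congr rfl
  intro i _
  unfold inc
  push_cast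
  ring

omit [Fintype E] in
/-- If `A` is not connected, the minor vanishes. -/
lemma det_eq_zero_of_not_conn (s t : E → X) (r : X) (A : Finset E)
    (p : {x : X // x ≠ r} → E) (hp : ∀ i, p i ∈ A) (hA : ¬ Conn s t r A) :
    Matrix.det (Matrix.of fun i j : {x : X // x ≠ r} => inc s t r i (p j)) = 0 := by
  classical
  rw [Conn, not_forall] at hA
  obtain ⟨x, hx⟩ := hA
  rw [← Matrix.exists_vecMul_eq_zero_iff]
  let f : X → ℤ := fun y => if Relation.EqvGen (EdgeRel s t A) y r then 0 else 1
  have hfr : f r = 0 := by simp [f, Relation.EqvGen.refl]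
  have hxr : x ≠ r := by
    rintro rfl
    exact hx (Relation.EqvGen.refl _)
  refine ⟨fun i => f i.1, ?_, ?_⟩
  · intro h
    have := congrFun h ⟨x, hxr⟩
    simp [f, hx] at this
  · funext j
    have h1 := sum_inc s t r f hfr (p j)
    simp only [Matrix.vecMul, dotProduct, Matrix.of_apply, Pi.zero_apply]
    simp only [Int.cast_id] at h1
    rw [h1, sub_eq_zero]
    have hrel : Relation.EqvGen (EdgeRel s t A) (s (p j)) (t (p j)) :=
      Relation.EqvGen.rel _ _ ⟨p j, hp j, rfl, rfl⟩
    simp only [f]
    by_cases h : Relation.EqvGen (EdgeRel s t A) (s (p j)) r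
    · rw [if_pos h, if_pos (Relation.EqvGen.trans _ _ _ (Relation.EqvGen.symm _ _ hrel) h)]
    · rw [if_neg h, if_neg]
      intro h'
      exact h (Relation.EqvGen.trans _ _ _ hrel h')

omit [Fintype E] in
lemma exists_mulVec (s t : E → X) (r : X) (A : Finset E)
    (p : {x : X // x ≠ r} → E) (hp : ∀ e ∈ A, ∃ i, p i = e) (x y : X)
    (h : Relation.EqvGen (EdgeRel s t A) x y) :
    ∃ c : {x : X // x ≠ r} → ℤ,
      (Matrix.of fun i j : {x : X // x ≠ r} => inc s t r i (p j)).mulVec c =
        fun i => (if i.1 = x then 1 else 0) - (if i.1 = y then 1 else 0) := by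
  induction h with
  | rel x y h =>
    obtain ⟨e, he, rfl, rfl⟩ := h
    obtain ⟨j, rfl⟩ := hp e he
    refine ⟨Pi.single j 1, ?_⟩
    rw [Matrix.mulVec_single_one]
    rfl
  | refl x =>
    refine ⟨0, ?_⟩
    rw [Matrix.mulVec_zero]
    funext i
    simp
  | symm x y _ ih =>
    obtain ⟨c, hc⟩ := ih
    refine ⟨-c, ?_⟩
    rw [Matrix.mulVec_neg, hc]
    funext i
    simp
  | trans x y z _ _ ih1 ih2 =>
    obtain ⟨c, hc⟩ := ih1
    obtain ⟨d, hd⟩ := ih2
    refine ⟨c + d, ?_⟩
    rw [Matrix.mulVec_add, hc, hd]
    funext i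
    simp

omit [Fintype E] in
lemma det_sq_of_conn (s t : E → X) (r : X) (A : Finset E)
    (p : {x : X // x ≠ r} → E) (hp : ∀ e ∈ A, ∃ i, p i = e) (hA : Conn s t r A) :
    Matrix.det (Matrix.of fun i j : {x : X // x ≠ r} => inc s t r i (p j)) *
      Matrix.det (Matrix.of fun i j : {x : X // x ≠ r} => inc s t r i (p j)) = 1 := by
  have h := fun i : {x : X // x ≠ r} => exists_mulVec s t r A p hp i.1 r (hA i.1)
  choose c hc using h
  have h1 : (Matrix.of fun i j : {x : X // x ≠ r} => inc s t r i (p j)) *
      (Matrix.of fun a i => c i a) = 1 := by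
    ext k i
    have := congrFun (hc i) k
    simp only [Matrix.mulVec, dotProduct] at this
    rw [Matrix.mul_apply]
    simp only [Matrix.of_apply] at this ⊢
    rw [this, if_neg k.2, sub_zero, Matrix.one_apply]
    simp only [Subtype.ext_iff]
  have h2 := congrArg Matrix.det h1
  rw [Matrix.det_mul, Matrix.det_one] at h2
  have h3 := Int.isUnit_iff.mp (IsUnit.of_mul_eq_one _ h2)
  rcases h3 with h3 | h3 <;> rw [h3] <;> norm_num

/-- The weight coefficient of `A`. -/
lemma coeff_eq (s t : E → X) (r : X) (A : Finset E) [Decidable (Conn s t r A)] :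
    ∑ p : {x : X // x ≠ r} → E,
      (if Function.Injective p ∧ Finset.univ.image p = A then
        (∏ i, inc s t r i (p i)) *
          Matrix.det (Matrix.of fun i j : {x : X // x ≠ r} => inc s t r i (p j)) else 0) =
      if A.card + 1 = Fintype.card X ∧ Conn s t r A then 1 else 0 := by
  classical
  have hcard : Fintype.card {x : X // x ≠ r} + 1 = Fintype.card X := by
    have h1 := Fintype.card_subtype_compl (fun x : X => x = r)
    rw [Fintype.card_subtype_eq] at h1
    have h2 : 0 < Fintype.card X := Fintype.card_pos_iff.mpr ⟨r⟩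
    have h3 : Fintype.card {x : X // x ≠ r} = Fintype.card {x : X // ¬ x = r} := rfl
    omega
  by_cases hc : A.card = Fintype.card {x : X // x ≠ r}
  · -- choose an enumeration
    have e0 : {x : X // x ≠ r} ≃ A := Fintype.equivOfCardEq (by simp [hc])
    let p0 : {x : X // x ≠ r} → E := fun i => (e0 i).1
    have hp0 : ∀ i, p0 i ∈ A := fun i => (e0 i).2
    have hp0' : ∀ e ∈ A, ∃ i, p0 i = e := fun e he => ⟨e0.symm ⟨e, he⟩, by simp [p0]⟩
    have hinj : Function.Injective p0 := fun i j h => e0.injective (Subtype.ext h)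
    have himg : Finset.univ.image p0 = A := by
      ext e
      simp only [Finset.mem_image, Finset.mem_univ, true_and]
      exact ⟨fun ⟨i, hi⟩ => hi ▸ hp0 i, hp0' e⟩
    have key : ∑ p : {x : X // x ≠ r} → E,
      (if Function.Injective p ∧ Finset.univ.image p = A then
        (∏ i, inc s t r i (p i)) *
          Matrix.det (Matrix.of fun i j : {x : X // x ≠ r} => inc s t r i (p j)) else 0) =
        ∑ σ : Equiv.Perm {x : X // x ≠ r}, (∏ i, inc s t r i (p0 (σ i))) *
          Matrix.det (Matrix.of fun i j : {x : X // x ≠ r} => inc s t r i (p0 (σ j))) := by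
      rw [← Finset.sum_filter]
      symm
      apply Finset.sum_bij (fun (σ : Equiv.Perm {x : X // x ≠ r}) _ => fun i => p0 (σ i))
      · intro σ _
        simp only [Finset.mem_filter, Finset.mem_univ, true_and]
        refine ⟨hinj.comp σ.injective, ?_⟩
        rw [← himg]
        ext e
        simp only [Finset.mem_image, Finset.mem_univ, true_and]
        constructor
        · rintro ⟨i, hi⟩; exact ⟨σ i, hi⟩
        · rintro ⟨i, hi⟩; exact ⟨σ.symm i, by simpa using hi⟩
      · intro σ _ τ _ h
        ext i
        have := congrFun h i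
        exact congrArg Subtype.val (hinj this)
      · intro p hp
        simp only [Finset.mem_filter, Finset.mem_univ, true_and] at hp
        obtain ⟨hpi, hpA⟩ := hp
        have hpm : ∀ i, p i ∈ A := fun i => by
          rw [← hpA]; exact Finset.mem_image_of_mem _ (Finset.mem_univ _)
        have hb : Function.Bijective (fun i => e0.symm ⟨p i, hpm i⟩) := by
          rw [← Finite.injective_iff_bijective]
          intro i j h
          have := e0.symm.injective h
          exact hpi (congrArg Subtype.val this)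
        refine ⟨Equiv.ofBijective _ hb, Finset.mem_univ _, ?_⟩
        funext i
        simp [p0]
      · intro σ _
        rfl
    rw [key]
    have h2 : ∀ σ : Equiv.Perm {x : X // x ≠ r},
        Matrix.det (Matrix.of fun i j : {x : X // x ≠ r} => inc s t r i (p0 (σ j))) =
          (Equiv.Perm.sign σ : ℤ) *
          Matrix.det (Matrix.of fun i j : {x : X // x ≠ r} => inc s t r i (p0 j)) := by
      intro σ
      have := Matrix.det_permute' σ (Matrix.of fun i j : {x : X // x ≠ r} => inc s t r i (p0 j))
      have e1 : (Matrix.of fun i j : {x : X // x ≠ r} => inc s t r i (p0 j)).submatrix id ⇑σ =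
        Matrix.of fun i j : {x : X // x ≠ r} => inc s t r i (p0 (σ j)) := rfl
      rw [e1] at this
      rw [this]
      simp
    have h3 : ∑ σ : Equiv.Perm {x : X // x ≠ r}, (∏ i, inc s t r i (p0 (σ i))) *
          Matrix.det (Matrix.of fun i j : {x : X // x ≠ r} => inc s t r i (p0 (σ j))) =
        Matrix.det (Matrix.of fun i j : {x : X // x ≠ r} => inc s t r i (p0 j)) *
        Matrix.det (Matrix.of fun i j : {x : X // x ≠ r} => inc s t r i (p0 j)) := by
      have h4 : Matrix.det (Matrix.of fun i j : {x : X // x ≠ r} => inc s t r i (p0 j)) =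
          ∑ σ : Equiv.Perm {x : X // x ≠ r},
            (Equiv.Perm.sign σ : ℤ) * ∏ i, inc s t r i (p0 (σ i)) := by
        rw [← Matrix.det_transpose, Matrix.det_apply']
        simp
      generalize hD : Matrix.det (Matrix.of fun i j : {x : X // x ≠ r} => inc s t r i (p0 j)) = D
        at h2 h4 ⊢
      conv_rhs => arg 1; rw [h4]
      rw [Finset.sum_mul]
      apply Finset.sum_congr rfl
      intro σ _
      rw [h2 σ]
      ring
    rw [h3]
    by_cases hconn : Conn s t r A
    · rw [if_pos ⟨by omega, hconn⟩]
      exact det_sq_of_conn s t r A p0 hp0' hconn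
    · rw [if_neg (fun h => hconn h.2), det_eq_zero_of_not_conn s t r A p0 hp0 hconn, mul_zero]
  · rw [if_neg (fun h => hc (by omega))]
    apply Finset.sum_eq_zero
    intro p _
    rw [if_neg]
    rintro ⟨hpi, hpA⟩
    apply hc
    rw [← hpA, Finset.card_image_of_injective _ hpi, Finset.card_univ]

/-- The reduced weighted Laplacian. -/
noncomputable def lap {R : Type*} [CommRing R] (s t : E → X) (r : X) (w : E → R) :
    Matrix {x : X // x ≠ r} {x : X // x ≠ r} R :=
  Matrix.of fun i j => ∑ e, (w e * (inc s t r i e : ℤ)) * ((inc s t r j e : ℤ) : R)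

/-- Weighted matrix-tree theorem. -/
theorem det_lap {R : Type*} [CommRing R] (s t : E → X) (r : X) (w : E → R)
    [DecidablePred (Conn s t r)] :
    (lap s t r w).det =
      ∑ A : Finset E, if A.card + 1 = Fintype.card X ∧ Conn s t r A then ∏ e ∈ A, w e else 0 := by
  classical
  have h1 : (lap s t r w).det = ∑ p : {x : X // x ≠ r} → E,
      (∏ i, (w (p i) * ((inc s t r i (p i) : ℤ) : R))) *
        Matrix.det (Matrix.of fun i j : {x : X // x ≠ r} => ((inc s t r j (p i) : ℤ) : R)) := by
    have : lap s t r w = fun i => ∑ e, (w e * ((inc s t r i e : ℤ) : R)) •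
        (fun j : {x : X // x ≠ r} => ((inc s t r j e : ℤ) : R)) := by
      funext i j
      simp [lap, Finset.sum_apply]
    have h0 : (lap s t r w).det = Matrix.detRowAlternating (lap s t r w) := rfl
    rw [h0, this]
    have h2 := MultilinearMap.map_sum
      (Matrix.detRowAlternating (n := {x : X // x ≠ r}) (R := R)).toMultilinearMap
      (fun i e => (w e * ((inc s t r i e : ℤ) : R)) •
        (fun j : {x : X // x ≠ r} => ((inc s t r j e : ℤ) : R)))
    simp only [AlternatingMap.coe_multilinearMap] at h2
    rw [h2]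
    apply Finset.sum_congr rfl
    intro p _
    have h3 := AlternatingMap.map_smul_univ
      (Matrix.detRowAlternating (n := {x : X // x ≠ r}) (R := R))
      (fun i => w (p i) * ((inc s t r i (p i) : ℤ) : R))
      (fun i => (fun j : {x : X // x ≠ r} => ((inc s t r j (p i) : ℤ) : R)))
    rw [h3]
    rfl
  rw [h1]
  have h4 : ∀ p : {x : X // x ≠ r} → E, (∏ i, (w (p i) * ((inc s t r i (p i) : ℤ) : R))) *
        Matrix.det (Matrix.of fun i j : {x : X // x ≠ r} => ((inc s t r j (p i) : ℤ) : R)) =
      ∑ A : Finset E, (∏ e ∈ A, w e) *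
        (((if Function.Injective p ∧ Finset.univ.image p = A then
          (∏ i, inc s t r i (p i)) *
            Matrix.det (Matrix.of fun i j : {x : X // x ≠ r} => inc s t r i (p j)) else 0) : ℤ) : R)
      := by
    intro p
    have hdet : Matrix.det (Matrix.of fun i j : {x : X // x ≠ r} => ((inc s t r j (p i) : ℤ) : R)) =
        ((Matrix.det (Matrix.of fun i j : {x : X // x ≠ r} => inc s t r i (p j)) : ℤ) : R) := by
      rw [← Matrix.det_transpose (Matrix.of fun i j : {x : X // x ≠ r} => inc s t r i (p j)),
        Int.cast_det]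
      rfl
    rw [hdet]
    by_cases hp : Function.Injective p
    · rw [Finset.sum_eq_single (Finset.univ.image p)]
      · rw [if_pos ⟨hp, rfl⟩, Finset.prod_image (fun i _ j _ h => hp h), Finset.prod_mul_distrib]
        push_cast
        ring
      · intro B _ hB
        rw [if_neg (fun h => hB h.2.symm)]
        simp
      · intro h; exact absurd (Finset.mem_univ _) h
    · rw [Finset.sum_eq_zero]
      · have : Matrix.det (Matrix.of fun i j : {x : X // x ≠ r} => inc s t r i (p j)) = 0 := by
          rw [Function.Injective] at hp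
          push Not at hp
          obtain ⟨i, j, hij, hne⟩ := hp
          exact Matrix.det_zero_of_column_eq hne (fun k => by simp [hij])
        rw [this]
        simp
      · intro B _
        rw [if_neg (fun h => hp h.1)]
        simp
  rw [Finset.sum_congr rfl (fun p _ => h4 p), Finset.sum_comm]
  apply Finset.sum_congr rfl
  intro A _
  rw [← Finset.mul_sum, ← Int.cast_sum, coeff_eq s t r A]
  split_ifs <;> simp

omit [DecidableEq E] in
theorem det_lap_ne_zero (s t : E → X) (r : X) (w : E → ℂ) (hconn : Conn s t r Finset.univ)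
    (hw : ∀ e, 0 < (w e).im ∨ w e = 1) : (lap s t r w).det ≠ 0 := by
  classical
  intro hdet
  rw [← Matrix.exists_mulVec_eq_zero_iff] at hdet
  obtain ⟨v, hv0, hv⟩ := hdet
  apply hv0
  -- extend `v` by zero
  let V : X → ℂ := fun x => if h : x ≠ r then v ⟨x, h⟩ else 0
  have hVr : V r = 0 := by simp [V]
  have hVv : ∀ i : {x : X // x ≠ r}, V i.1 = v i := by
    intro i
    simp [V, i.2]
  have hdv : ∀ e, ∑ j : {x : X // x ≠ r}, ((inc s t r j e : ℤ) : ℂ) * v j = V (s e) - V (t e) := by
    intro e
    rw [← sum_inc s t r V hVr e]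
    apply Finset.sum_congr rfl
    intro j _
    rw [hVv j, mul_comm]
  have hquad : ∑ e, w e * ((‖V (s e) - V (t e)‖ ^ 2 : ℝ) : ℂ) = 0 := by
    have h1 : ∑ i : {x : X // x ≠ r}, (starRingEnd ℂ) (v i) * ((lap s t r w).mulVec v i) = 0 := by
      rw [hv]; simp
    rw [← h1]
    have h2 : ∀ i : {x : X // x ≠ r}, (starRingEnd ℂ) (v i) * ((lap s t r w).mulVec v i) =
        ∑ e, w e * ((starRingEnd ℂ) (((inc s t r i e : ℤ) : ℂ) * v i) * (V (s e) - V (t e))) := by
      intro i
      simp only [Matrix.mulVec, dotProduct, lap, Matrix.of_apply]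
      rw [Finset.mul_sum]
      simp_rw [Finset.sum_mul, Finset.mul_sum]
      rw [Finset.sum_comm]
      apply Finset.sum_congr rfl
      intro e _
      rw [← hdv e, Finset.mul_sum, Finset.mul_sum]
      apply Finset.sum_congr rfl
      intro j _
      simp only [map_mul, map_intCast]
      ring
    rw [Finset.sum_congr rfl (fun i _ => h2 i), Finset.sum_comm]
    apply Finset.sum_congr rfl
    intro e _
    rw [← Finset.mul_sum, ← Finset.sum_mul, ← map_sum, hdv e]
    congr 1
    rw [mul_comm, Complex.mul_conj, Complex.normSq_eq_norm_sq]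
  have him : ∑ e, (w e).im * ‖V (s e) - V (t e)‖ ^ 2 = 0 := by
    have := congrArg Complex.im hquad
    rw [Complex.im_sum] at this
    simpa only [Complex.im_mul_ofReal, Complex.zero_im] using this
  have hre : ∑ e, (w e).re * ‖V (s e) - V (t e)‖ ^ 2 = 0 := by
    have := congrArg Complex.re hquad
    rw [Complex.re_sum] at this
    simpa only [Complex.re_mul_ofReal, Complex.zero_re] using this
  have him0 : ∀ e, 0 ≤ (w e).im := by
    intro e
    rcases hw e with h | h
    · exact h.le
    · rw [h]; simp
  have h1 : ∀ e, (w e).im * ‖V (s e) - V (t e)‖ ^ 2 = 0 := by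
    intro e
    exact (Finset.sum_eq_zero_iff_of_nonneg
      (fun e _ => mul_nonneg (him0 e) (sq_nonneg _))).mp him e (Finset.mem_univ _)
  have h2 : ∀ e, 0 ≤ (w e).re * ‖V (s e) - V (t e)‖ ^ 2 := by
    intro e
    rcases hw e with h | h
    · have := h1 e
      rcases mul_eq_zero.mp this with h3 | h3
      · exact absurd h3 h.ne'
      · rw [h3]; simp
    · rw [h]; simp
  have h3 : ∀ e, V (s e) = V (t e) := by
    intro e
    have h4 := (Finset.sum_eq_zero_iff_of_nonneg (fun e _ => h2 e)).mp hre e (Finset.mem_univ _)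
    have h5 := h1 e
    have h6 : ‖V (s e) - V (t e)‖ ^ 2 = 0 := by
      rcases hw e with h | h
      · rcases mul_eq_zero.mp h5 with h3 | h3
        · exact absurd h3 h.ne'
        · exact h3
      · rw [h] at h4
        simpa using h4
    have h7 : ‖V (s e) - V (t e)‖ = 0 := by
      simpa using h6
    exact sub_eq_zero.mp (norm_eq_zero.mp h7)
  have h4 : ∀ x y, Relation.EqvGen (EdgeRel s t (Finset.univ : Finset E)) x y → V x = V y := by
    intro x y h
    induction h with
    | rel x y h =>
      obtain ⟨e, _, rfl, rfl⟩ := h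
      exact h3 e
    | refl x => rfl
    | symm x y _ ih => exact ih.symm
    | trans x y z _ _ ih1 ih2 => exact ih1.trans ih2
  funext i
  rw [← hVv i, h4 _ _ (hconn i.1), hVr]
  rfl

end MT


section Graph

variable {V : Type*}

lemma mem_edgesIn {G : SimpleGraph V} {S : Finset V} {e : Sym2 V} :
    e ∈ edgesIn G S ↔ (∀ x ∈ e, x ∈ S) ∧ e ∈ G.edgeSet := by
  unfold edgesIn
  simp [Finset.mem_sym2_iff]

/-- first endpoint -/
noncomputable def src (G : SimpleGraph V) (S : Finset V) (e : {e // e ∈ edgesIn G S}) :
    {x // x ∈ S} :=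
  ⟨e.1.out.1, (mem_edgesIn.mp e.2).1 _ (Sym2.out_fst_mem e.1)⟩

/-- second endpoint -/
noncomputable def tgt (G : SimpleGraph V) (S : Finset V) (e : {e // e ∈ edgesIn G S}) :
    {x // x ∈ S} :=
  ⟨e.1.out.2, (mem_edgesIn.mp e.2).1 _ (Sym2.out_snd_mem e.1)⟩

lemma src_tgt (G : SimpleGraph V) (S : Finset V) (e : {e // e ∈ edgesIn G S}) :
    s((src G S e).1, (tgt G S e).1) = e.1 :=
  Quot.out_eq e.1

lemma src_ne_tgt (G : SimpleGraph V) (S : Finset V) (e : {e // e ∈ edgesIn G S}) :
    (src G S e).1 ≠ (tgt G S e).1 := by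
  have h := (mem_edgesIn.mp e.2).2
  rw [← src_tgt G S e, SimpleGraph.mem_edgeSet] at h
  exact h.ne

open Classical in
/-- The connectivity relations agree. -/
lemma conn_iff (G : SimpleGraph V) (S : Finset V) (r : {x // x ∈ S})
    (A : Finset {e // e ∈ edgesIn G S}) :
    Conn (src G S) (tgt G S) r A ↔
      ((SimpleGraph.fromEdgeSet ((A.map (Function.Embedding.subtype _) : Finset (Sym2 V)) :
        Set (Sym2 V))).induce (S : Set V)).Connected := by
  set H := ((SimpleGraph.fromEdgeSet ((A.map (Function.Embedding.subtype _) : Finset (Sym2 V)) :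
        Set (Sym2 V))).induce (S : Set V)) with hH
  have hadj : ∀ x y : {x // x ∈ S}, H.Adj x y ↔ s(x.1, y.1) ∈ A.map (Function.Embedding.subtype _) ∧ x.1 ≠ y.1 := by
    intro x y
    rw [hH]
    simp only [SimpleGraph.comap_adj, Function.Embedding.subtype_apply, SimpleGraph.fromEdgeSet_adj,
      Finset.mem_coe]
  have h1 : ∀ x y : {x // x ∈ S}, Relation.EqvGen (EdgeRel (src G S) (tgt G S) A) x y →
      H.Reachable x y := by
    intro x y h
    induction h with
    | rel x y h =>
      obtain ⟨e, he, rfl, rfl⟩ := h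
      apply SimpleGraph.Adj.reachable
      rw [hadj]
      refine ⟨?_, src_ne_tgt G S e⟩
      rw [src_tgt]
      simp only [Finset.mem_map, Function.Embedding.subtype_apply]
      exact ⟨e, he, rfl⟩
    | refl x => exact SimpleGraph.Reachable.refl _
    | symm x y _ ih => exact ih.symm
    | trans x y z _ _ ih1 ih2 => exact ih1.trans ih2
  have h2 : ∀ x y : {x // x ∈ S}, H.Adj x y →
      Relation.EqvGen (EdgeRel (src G S) (tgt G S) A) x y := by
    intro x y h
    rw [hadj] at h
    obtain ⟨h, _⟩ := h
    simp only [Finset.mem_map, Function.Embedding.subtype_apply] at h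
    obtain ⟨e, he, hexy⟩ := h
    rw [← src_tgt G S e, Sym2.eq_iff] at hexy
    rcases hexy with ⟨h3, h4⟩ | ⟨h3, h4⟩
    · exact Relation.EqvGen.rel _ _ ⟨e, he, Subtype.ext h3, Subtype.ext h4⟩
    · exact Relation.EqvGen.symm _ _
        (Relation.EqvGen.rel _ _ ⟨e, he, Subtype.ext h3, Subtype.ext h4⟩)
  constructor
  · intro h
    have : Nonempty {x // x ∈ S} := ⟨r⟩
    exact SimpleGraph.Connected.mk (fun x y => (h1 _ _ (h x)).trans (h1 _ _ (h y)).symm)
  · intro h x
    have h3 : H.Reachable x r := h.preconnected x r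
    rw [SimpleGraph.reachable_iff_reflTransGen] at h3
    induction h3 with
    | refl => exact Relation.EqvGen.refl _
    | tail _ h4 ih => exact Relation.EqvGen.trans _ _ _ ih (h2 _ _ h4)

open Classical in
lemma card_edgeSet (G : SimpleGraph V) (S : Finset V) (A : Finset (Sym2 V))
    (hA : A ⊆ edgesIn G S) :
    Nat.card ((SimpleGraph.fromEdgeSet (A : Set (Sym2 V))).induce (S : Set V)).edgeSet =
      A.card := by
  have h1 : (Sym2.map (Subtype.val : ((S : Set V) : Type _) → V)) ''
      ((SimpleGraph.fromEdgeSet (A : Set (Sym2 V))).induce (S : Set V)).edgeSet = (A : Set (Sym2 V)) := by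
    ext e
    constructor
    · rintro ⟨e', he', rfl⟩
      induction e' with
      | _ x y =>
        simp only [SimpleGraph.mem_edgeSet, SimpleGraph.comap_adj, Function.Embedding.subtype_apply,
          SimpleGraph.fromEdgeSet_adj] at he'
        exact he'.1
    · intro he
      have h := mem_edgesIn.mp (hA he)
      induction e with
      | _ x y =>
        have hx : x ∈ (S : Set V) := h.1 x (by simp)
        have hy : y ∈ (S : Set V) := h.1 y (by simp)
        refine ⟨s(⟨x, hx⟩, ⟨y, hy⟩), ?_, by simp⟩
        simp only [SimpleGraph.mem_edgeSet, SimpleGraph.comap_adj, Function.Embedding.subtype_apply,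
          SimpleGraph.fromEdgeSet_adj]
        exact ⟨he, (SimpleGraph.mem_edgeSet _ |>.mp h.2).ne⟩
  have h2 : Function.Injective (Sym2.map (Subtype.val : ((S : Set V) : Type _) → V)) :=
    Sym2.map.injective Subtype.val_injective
  rw [Nat.card_coe_set_eq, ← Set.ncard_image_of_injective _ h2, h1, Set.ncard_coe_finset]

open Classical in
lemma isSpanningTreeOn_iff (G : SimpleGraph V) (S : Finset V) (r : {x // x ∈ S})
    (A : Finset {e // e ∈ edgesIn G S}) :
    IsSpanningTreeOn G S (A.map (Function.Embedding.subtype _)) ↔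
      (A.card + 1 = Fintype.card {x // x ∈ S} ∧ Conn (src G S) (tgt G S) r A) := by
  have hsub : A.map (Function.Embedding.subtype _) ⊆ edgesIn G S := by
    intro e he
    simp only [Finset.mem_map, Function.Embedding.subtype_apply] at he
    obtain ⟨a, _, rfl⟩ := he
    exact a.2
  unfold IsSpanningTreeOn
  rw [SimpleGraph.isTree_iff_connected_and_card, card_edgeSet G S _ hsub, conn_iff,
    Finset.card_map]
  have h3 : Nat.card (S : Set V) = Fintype.card {x // x ∈ S} := by
    rw [Nat.card_eq_fintype_card]
    rfl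
  rw [h3]
  tauto

open Classical in
/-- The spanning tree polynomial of the piece `S` of `G`. -/
noncomputable def treePoly (G : SimpleGraph V) (S : Finset V) (w : Sym2 V → ℂ) : ℂ :=
  ∑ A ∈ (edgesIn G S).powerset.filter (fun A => IsSpanningTreeOn G S A), ∏ e ∈ A, w e

open Classical in
theorem treePoly_eq_det (G : SimpleGraph V) (S : Finset V) (r : {x // x ∈ S}) (w : Sym2 V → ℂ) :
    treePoly G S w = (lap (src G S) (tgt G S) r (fun e => w e.1)).det := by
  rw [det_lap, ← Finset.sum_filter]
  unfold treePoly
  symm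
  apply Finset.sum_bij (fun (A : Finset {e // e ∈ edgesIn G S}) _ =>
    A.map (Function.Embedding.subtype _))
  · intro A hA
    simp only [Finset.mem_filter, Finset.mem_univ, true_and] at hA
    have h := (isSpanningTreeOn_iff G S r A).mpr hA
    simp only [Finset.mem_filter, Finset.mem_powerset]
    exact ⟨h.1, h⟩
  · intro A _ B _ h
    exact Finset.map_injective _ h
  · intro A hA
    simp only [Finset.mem_filter, Finset.mem_powerset] at hA
    refine ⟨A.subtype (fun e => e ∈ edgesIn G S), ?_, ?_⟩
    · simp only [Finset.mem_filter, Finset.mem_univ, true_and]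
      rw [← isSpanningTreeOn_iff G S r]
      have : (A.subtype (fun e => e ∈ edgesIn G S)).map (Function.Embedding.subtype _) = A := by
        rw [Finset.subtype_map, Finset.filter_true_of_mem (fun e he => hA.1 he)]
      rw [this]
      exact hA.2
    · rw [Finset.subtype_map, Finset.filter_true_of_mem (fun e he => hA.1 he)]
  · intro A _
    rw [Finset.prod_map]
    rfl

lemma map_univ_subtype (G : SimpleGraph V) (S : Finset V) :
    ((Finset.univ : Finset {e // e ∈ edgesIn G S}).map (Function.Embedding.subtype _)) =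
      edgesIn G S := by
  ext e
  simp

theorem treePoly_ne_zero (G : SimpleGraph V) (S : Finset V)
    (hS : (G.induce (S : Set V)).Connected) (w : Sym2 V → ℂ)
    (hw : ∀ e, 0 < (w e).im ∨ w e = 1) : treePoly G S w ≠ 0 := by
  classical
  obtain ⟨r⟩ := hS.nonempty
  rw [treePoly_eq_det G S r w]
  apply det_lap_ne_zero
  · rw [conn_iff, map_univ_subtype]
    convert hS using 1
    ext x y
    simp only [SimpleGraph.comap_adj, Function.Embedding.subtype_apply, SimpleGraph.fromEdgeSet_adj,
      Finset.mem_coe, mem_edgesIn, SimpleGraph.mem_edgeSet]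
    constructor
    · rintro ⟨⟨_, h⟩, _⟩; exact h
    · intro h
      refine ⟨⟨?_, h⟩, h.ne⟩
      intro z hz
      rw [Sym2.mem_iff] at hz
      rcases hz with rfl | rfl
      · exact x.2
      · exact y.2
  · intro e; exact hw e.1

/-- TASK D1 -/
theorem ust_stable (G : SimpleGraph V) (S : Finset V)
    (hS : (G.induce (S : Set V)).Connected)
    (K : Finset (Sym2 V)) (z : Sym2 V → ℂ) (hz : ∀ e ∈ K, 0 < (z e).im) :
    ∑ T ∈ K.powerset, (ustTrace G S K T : ℂ) * ∏ e ∈ T, z e ≠ 0 := by
  classical
  let w : Sym2 V → ℂ := fun e => if e ∈ K then z e else 1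
  have hw : ∀ e, 0 < (w e).im ∨ w e = 1 := by
    intro e
    by_cases h : e ∈ K
    · left; simp only [w, if_pos h]; exact hz e h
    · right; simp only [w, if_neg h]
  have hne := treePoly_ne_zero G S hS w hw
  have hN : treePoly G S (fun _ => 1) ≠ 0 := treePoly_ne_zero G S hS _ (fun _ => Or.inr rfl)
  set N : ℕ := ((edgesIn G S).powerset.filter (fun A => IsSpanningTreeOn G S A)).card with hNdef
  have hN' : (N : ℂ) ≠ 0 := by
    intro h
    apply hN
    unfold treePoly
    simp only [Finset.prod_const_one, Finset.sum_const, nsmul_eq_mul, mul_one]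
    exact h
  have key : ∑ T ∈ K.powerset, (ustTrace G S K T : ℂ) * ∏ e ∈ T, z e =
      treePoly G S w / N := by
    unfold treePoly
    have h1 : ∀ A ∈ (edgesIn G S).powerset.filter (fun A => IsSpanningTreeOn G S A),
        A ∩ K ∈ K.powerset := by
      intro A _
      rw [Finset.mem_powerset]
      exact Finset.inter_subset_right
    rw [← Finset.sum_fiberwise_of_maps_to h1, Finset.sum_div]
    apply Finset.sum_congr rfl
    intro T _
    have h2 : ∀ A ∈ ((edgesIn G S).powerset.filter (fun A => IsSpanningTreeOn G S A)).filter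
        (fun A => A ∩ K = T), ∏ e ∈ A, w e = ∏ e ∈ T, z e := by
      intro A hA
      rw [Finset.mem_filter] at hA
      rw [← hA.2, ← Finset.prod_filter_mul_prod_filter_not A (fun e => e ∈ K)]
      have h3 : ∏ e ∈ A.filter (fun e => ¬ e ∈ K), w e = 1 := by
        apply Finset.prod_eq_one
        intro e he
        simp only [w, if_neg (Finset.mem_filter.mp he).2]
      rw [h3, mul_one, Finset.filter_mem_eq_inter]
      apply Finset.prod_congr rfl
      intro e he
      simp only [w, if_pos (Finset.mem_inter.mp he).2]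
    rw [Finset.sum_congr rfl h2, Finset.sum_const, nsmul_eq_mul]
    unfold ustTrace
    rw [Finset.filter_filter]
    push_cast
    rw [← hNdef]
    ring
  rw [key]
  exact div_ne_zero hne hN'

end Graph

end Crest.Agent.R168.UstStable
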